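import Vale.Agent.P224.R2.H728.T0h

/-!
The two point quantities in terms of the defect from the least squares matrix.
-/

namespace Vale.Agent.P224.R2.H728

open MeasureTheory Set Filter Function Real Finset Matrix

set_option linter.unusedSectionVars false

section

variable {ι Ω : Type*} [Fintype ι] [DecidableEq ι] [MeasurableSpace Ω] {μ : Measure Ω}
  {m : ℝ} {x N : ι → Ω → ℝ}

variable (μ) in
/-- the deviation of the second moments -/
noncomputable def De (x N : ι → Ω → ℝ) : Matrix ι ι ℝ :=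
  Matrix.of fun a b => m2 μ N N a b - m2 μ x x a b

variable (μ) in
/-- the defect from the linear field -/
noncomputable def hh (J : Matrix ι ι ℝ) (x N : ι → Ω → ℝ) : ℝ :=
  ∫ ω, et J x N ω ⬝ᵥ et J x N ω ∂μ

/-- the bound of a quadratic form by the Frobenius norm -/
lemma quad_le_fro (A : Matrix ι ι ℝ) (v : ι → ℝ) :
    |v ⬝ᵥ (A *ᵥ v)| ≤ √(fro A) * (v ⬝ᵥ v) := by
  have h1 : (v ⬝ᵥ (A *ᵥ v)) ^ 2 ≤ fro A * (v ⬝ᵥ v) ^ 2 := by
    have e1 : v ⬝ᵥ (A *ᵥ v) = ∑ q : ι × ι, A q.1 q.2 * (v q.1 * v q.2) := by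
      rw [Fintype.sum_prod_type]
      simp only [dotProduct, mulVec, Finset.mul_sum]
      exact Finset.sum_congr rfl fun a _ => Finset.sum_congr rfl fun b _ => by ring
    have e2 : ∑ q : ι × ι, A q.1 q.2 ^ 2 = fro A := by
      rw [Fintype.sum_prod_type]; rfl
    have e3 : ∑ q : ι × ι, (v q.1 * v q.2) ^ 2 = (v ⬝ᵥ v) ^ 2 := by
      rw [Fintype.sum_prod_type, sq (v ⬝ᵥ v)]
      simp only [dotProduct]
      rw [Finset.sum_mul_sum]
      exact Finset.sum_congr rfl fun a _ => Finset.sum_congr rfl fun b _ => by ring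
    rw [e1, ← e2, ← e3]
    exact Finset.sum_mul_sq_le_sq_mul_sq _ _ _
  have h2 : 0 ≤ v ⬝ᵥ v := by
    simp only [dotProduct]
    exact Finset.sum_nonneg fun a _ => mul_self_nonneg _
  rw [← Real.sqrt_sq_eq_abs, ← Real.sqrt_sq h2, ← Real.sqrt_mul (fro_nonneg A)]
  exact Real.sqrt_le_sqrt h1

namespace T0Data

variable (h : T0Data μ m x N)
include h

lemma hh_eq (J : Matrix ι ι ℝ) : hh μ J x N = ∑ a, m2 μ (ze J x N) (ze J x N) a a := by
  have := h.prob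
  unfold hh m2
  rw [← integral_finsetSum _ fun a _ => ((h.bz J a).mul (h.bz J a)).int]
  rfl

lemma bee (J : Matrix ι ι ℝ) : BM (fun ω => et J x N ω ⬝ᵥ et J x N ω) :=
  BM.sum _ fun a _ => (h.bz J a).mul (h.bz J a)

lemma hh_nonneg (J : Matrix ι ι ℝ) : 0 ≤ hh μ J x N :=
  integral_nonneg fun ω => Finset.sum_nonneg fun a _ => mul_self_nonneg _

lemma pt_eq {J : Matrix ι ι ℝ} (hJ : J.IsSymm) (ω ω' : Ω) :
    ip N x ω ω' - ip x N ω ω' = ip (ze J x N) x ω ω' - ip x (ze J x N) ω ω' := by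
  have e1 : ip (ze J x N) x ω ω' = ip N x ω ω' - (J *ᵥ vc x ω) ⬝ᵥ vc x ω' := by
    simp only [ip, ze, sub_mul, Finset.sum_sub_distrib, dotProduct, mulVec, vc]
  have e2 : ip x (ze J x N) ω ω' = ip x N ω ω' - vc x ω ⬝ᵥ (J *ᵥ vc x ω') := by
    simp only [ip, ze, mul_sub, Finset.sum_sub_distrib, dotProduct, mulVec, vc]
  rw [e1, e2, dot_symm hJ]
  ring

/-- the mean of `(p - t)^2` at the least squares matrix -/
theorem E_pt_ls {J : Matrix ι ι ℝ} (hJ : J.IsSymm) (hL : LSq μ J x N) :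
    ∫ q, (ip N x q.1 q.2 - ip x N q.1 q.2) ^ 2 ∂(μ.prod μ)
      = 2 * (∑ a, ∑ b, m2 μ (ze J x N) (ze J x N) a b * m2 μ x x a b
        + ∑ a, ∑ b, m2 μ (ze J x N) x a b ^ 2) := by
  have := h.prob
  set z := ze J x N with hz
  have bz : ∀ a, BM (z a) := h.bz J
  have e : ∀ q : Ω × Ω, (ip N x q.1 q.2 - ip x N q.1 q.2) ^ 2
      = ip z x q.1 q.2 * ip z x q.1 q.2 - 2 * (ip z x q.1 q.2 * ip x z q.1 q.2)
        + ip x z q.1 q.2 * ip x z q.1 q.2 := fun q => by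
    rw [h.pt_eq hJ]
    ring
  simp_rw [e]
  rw [int_comb (h.int2 bz h.bx bz h.bx) (h.int2 bz h.bx h.bx bz)
    (h.int2 h.bx bz h.bx bz), E2_two bz h.bx bz h.bx, E2_two bz h.bx h.bx bz,
    E2_two h.bx bz h.bx bz]
  have h1 : ∑ a, ∑ b, m2 μ x x a b * m2 μ z z a b = ∑ a, ∑ b, m2 μ z z a b * m2 μ x x a b :=
    Finset.sum_congr rfl fun a _ => Finset.sum_congr rfl fun b _ => mul_comm _ _
  have h2 : ∑ a, ∑ b, m2 μ z x a b * m2 μ x z a b = -∑ a, ∑ b, m2 μ z x a b ^ 2 := by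
    simp only [← Finset.sum_neg_distrib]
    refine Finset.sum_congr rfl fun a _ => Finset.sum_congr rfl fun b _ => ?_
    have e1 : m2 μ x z a b = m2 μ z x b a :=
      integral_congr_ae (Eventually.of_forall fun ω => mul_comm _ _)
    have e2 : m2 μ z x a b = -m2 μ z x b a := hL a b
    rw [e1, e2]
    ring
  rw [h1, h2]
  ring

/-- the pairing of the defect covariance with the second moments -/
theorem SG (J : Matrix ι ι ℝ) :
    (m + 2) * ∑ a, ∑ b, m2 μ (ze J x N) (ze J x N) a b * m2 μ x x a b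
      = hh μ J x N - ∫ ω, et J x N ω ⬝ᵥ (De μ x N *ᵥ et J x N ω) ∂μ := by
  have := h.prob
  have e1 := int_qf1 (μ := μ) (De μ x N) (h.bz J) (h.bz J)
  simp only [vc_ze] at e1
  rw [e1, h.hh_eq, Finset.mul_sum, ← Finset.sum_sub_distrib]
  refine Finset.sum_congr rfl fun a _ => ?_
  rw [Finset.mul_sum]
  have e2 : m2 μ (ze J x N) (ze J x N) a a
      = ∑ b, (if a = b then m2 μ (ze J x N) (ze J x N) a b else 0) := by simp
  rw [e2, ← Finset.sum_sub_distrib]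
  refine Finset.sum_congr rfl fun b _ => ?_
  have h1 := h.GP a b
  simp only [De, Matrix.of_apply]
  have h2 : (if a = b then m2 μ (ze J x N) (ze J x N) a b else 0)
      = m2 μ (ze J x N) (ze J x N) a b * (if a = b then 1 else 0) := by split_ifs <;> simp
  rw [h2, ← h1]
  ring

/-- lower bound of `E (p - t)^2` -/
theorem E_pt_ge {J : Matrix ι ι ℝ} (hJ : J.IsSymm) (hL : LSq μ J x N) (hm : 0 < m + 2) :
    2 / (m + 2) * ((1 - √(fro (De μ x N))) * hh μ J x N)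
        + 2 * ∑ a, ∑ b, m2 μ (ze J x N) x a b ^ 2
      ≤ ∫ q, (ip N x q.1 q.2 - ip x N q.1 q.2) ^ 2 ∂(μ.prod μ) := by
  have := h.prob
  rw [h.E_pt_ls hJ hL]
  have h1 := h.SG J
  have h2 : ∫ ω, et J x N ω ⬝ᵥ (De μ x N *ᵥ et J x N ω) ∂μ ≤ √(fro (De μ x N)) * hh μ J x N := by
    unfold hh
    rw [← integral_const_mul]
    refine integral_mono ?_ ((h.bee J).const_mul _).int fun ω =>
      (le_abs_self _).trans (quad_le_fro _ _)
    exact (BM.qf (De μ x N) (h.bz J) (h.bz J)).int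
  have h3 : (1 - √(fro (De μ x N))) * hh μ J x N
      ≤ (m + 2) * ∑ a, ∑ b, m2 μ (ze J x N) (ze J x N) a b * m2 μ x x a b := by
    rw [h1]; nlinarith
  have h4 : 2 / (m + 2) * ((1 - √(fro (De μ x N))) * hh μ J x N)
      ≤ 2 / (m + 2) * ((m + 2) * ∑ a, ∑ b, m2 μ (ze J x N) (ze J x N) a b * m2 μ x x a b) :=
    mul_le_mul_of_nonneg_left h3 (by positivity)
  have h5 : 2 / (m + 2) * ((m + 2) * ∑ a, ∑ b, m2 μ (ze J x N) (ze J x N) a b * m2 μ x x a b)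
      = 2 * ∑ a, ∑ b, m2 μ (ze J x N) (ze J x N) a b * m2 μ x x a b := by
    field_simp
  rw [h5] at h4
  linarith

/-- the mean of `(c - s)^2` in terms of the deviation -/
theorem E_cs' (hm : m + 1 ≠ 0) :
    ∫ q, (ip N N q.1 q.2 - ip x x q.1 q.2) ^ 2 ∂(μ.prod μ)
      = fro (De μ x N) + ∫ q, (ip N x q.1 q.2 - ip x N q.1 q.2) ^ 2 ∂(μ.prod μ) := by
  rw [h.E_cs, h.E_pt hm]
  have h1 : fro (De μ x N) = ∑ a, ∑ b, m2 μ N N a b ^ 2
      - 2 * ∑ a, ∑ b, m2 μ N N a b * m2 μ x x a b + ∑ a, ∑ b, m2 μ x x a b ^ 2 := by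
    unfold fro De
    simp only [Matrix.of_apply, Finset.mul_sum, ← Finset.sum_sub_distrib,
      ← Finset.sum_add_distrib]
    exact Finset.sum_congr rfl fun a _ => Finset.sum_congr rfl fun b _ => by ring
  have h2 := h.PG
  have h3 : ∑ a, ∑ b, m2 μ N N a b * m2 μ x x a b
      = (1 - ∑ a, ∑ b, m2 μ N N a b ^ 2) / (m + 1) := by
    rw [← h2]; field_simp
  rw [h1, h3]
  ring

/-- the mean of `(c - s)^2 s` -/
theorem E_css :
    ∫ q, (ip N N q.1 q.2 - ip x x q.1 q.2) ^ 2 * ip x x q.1 q.2 ∂(μ.prod μ)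
      = (((m + 2) / 2) ^ 2 + 1) * ∑ a, ∑ b, ∑ c, m3 μ x x x a b c ^ 2
        - 2 * ∑ a, ∑ b, ∑ c, m3 μ N x x a b c ^ 2 := by
  have := h.prob
  have e : ∀ q : Ω × Ω, (ip N N q.1 q.2 - ip x x q.1 q.2) ^ 2 * ip x x q.1 q.2
      = ip N N q.1 q.2 * ip N N q.1 q.2 * ip x x q.1 q.2
        - 2 * (ip N N q.1 q.2 * ip x x q.1 q.2 * ip x x q.1 q.2)
        + ip x x q.1 q.2 * ip x x q.1 q.2 * ip x x q.1 q.2 := fun q => by ring
  simp_rw [e]
  rw [int_comb (h.int3 h.bN h.bN h.bN h.bN h.bx h.bx) (h.int3 h.bN h.bN h.bx h.bx h.bx h.bx)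
    (h.int3 h.bx h.bx h.bx h.bx h.bx h.bx), E2_three h.bN h.bN h.bN h.bN h.bx h.bx,
    E2_three h.bN h.bN h.bx h.bx h.bx h.bx, E2_three h.bx h.bx h.bx h.bx h.bx h.bx]
  have h1 : ∑ a, ∑ b, ∑ c, m3 μ N N x a b c * m3 μ N N x a b c
      = ((m + 2) / 2) ^ 2 * ∑ a, ∑ b, ∑ c, m3 μ x x x a b c ^ 2 := by
    simp only [Finset.mul_sum]
    refine Finset.sum_congr rfl fun a _ => Finset.sum_congr rfl fun b _ =>
      Finset.sum_congr rfl fun c _ => ?_
    rw [h.NNx]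
    ring
  rw [h1]
  simp only [← sq]
  ring

/-- the mean of `(p - t)^2 s` in terms of the defect -/
theorem E_pts_ls {J : Matrix ι ι ℝ} (hJ : J.IsSymm) :
    ∫ q, (ip N x q.1 q.2 - ip x N q.1 q.2) ^ 2 * ip x x q.1 q.2 ∂(μ.prod μ)
      = 2 * ∑ a, ∑ b, ∑ c, m3 μ (ze J x N) (ze J x N) x a b c * m3 μ x x x a b c
        - 2 * ∑ a, ∑ b, ∑ c, m3 μ (ze J x N) x x a b c * m3 μ (ze J x N) x x b a c := by
  have := h.prob
  set z := ze J x N with hz
  have bz : ∀ a, BM (z a) := h.bz J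
  have e : ∀ q : Ω × Ω, (ip N x q.1 q.2 - ip x N q.1 q.2) ^ 2 * ip x x q.1 q.2
      = ip z x q.1 q.2 * ip z x q.1 q.2 * ip x x q.1 q.2
        - 2 * (ip z x q.1 q.2 * ip x z q.1 q.2 * ip x x q.1 q.2)
        + ip x z q.1 q.2 * ip x z q.1 q.2 * ip x x q.1 q.2 := fun q => by
    rw [h.pt_eq hJ]
    ring
  simp_rw [e]
  rw [int_comb (h.int3 bz h.bx bz h.bx h.bx h.bx) (h.int3 bz h.bx h.bx bz h.bx h.bx)
    (h.int3 h.bx bz h.bx bz h.bx h.bx), E2_three bz h.bx bz h.bx h.bx h.bx,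
    E2_three bz h.bx h.bx bz h.bx h.bx, E2_three h.bx bz h.bx bz h.bx h.bx]
  have h1 : ∑ a, ∑ b, ∑ c, m3 μ x x x a b c * m3 μ z z x a b c
      = ∑ a, ∑ b, ∑ c, m3 μ z z x a b c * m3 μ x x x a b c :=
    Finset.sum_congr rfl fun a _ => Finset.sum_congr rfl fun b _ =>
      Finset.sum_congr rfl fun c _ => mul_comm _ _
  have h2 : ∑ a, ∑ b, ∑ c, m3 μ z x x a b c * m3 μ x z x a b c
      = ∑ a, ∑ b, ∑ c, m3 μ z x x a b c * m3 μ z x x b a c := by
    refine Finset.sum_congr rfl fun a _ => Finset.sum_congr rfl fun b _ =>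
      Finset.sum_congr rfl fun c _ => ?_
    have e1 : m3 μ x z x a b c = m3 μ z x x b a c :=
      integral_congr_ae (Eventually.of_forall fun ω => by ring)
    rw [e1]
  rw [h1, h2]
  ring

end T0Data

end

end Vale.Agent.P224.R2.H728
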