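import Vale.Agent.P224.R2.H728.T0i
import Vale.Agent.P224.R2.H728.T0j

/-!
The mean normal identity for a diagonal least squares matrix.
-/

namespace Vale.Agent.P224.R2.H728

open MeasureTheory Set Filter Function Real Finset Matrix

set_option linter.unusedSectionVars false

section

variable {ι Ω : Type*} [Fintype ι] [DecidableEq ι] [MeasurableSpace Ω] {μ : Measure Ω}
  {m : ℝ} {x N : ι → Ω → ℝ} {j : ι → ℝ}

/-- the defect in the eigenbasis -/
def zd (j : ι → ℝ) (x N : ι → Ω → ℝ) (a : ι) (ω : Ω) : ℝ := N a ω - j a * x a ω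

lemma ze_diag (j : ι → ℝ) : ze (diagonal j) x N = zd j x N := by
  funext a ω
  unfold ze zd
  congr 1
  refine Eq.trans (Finset.sum_eq_single a ?_ ?_) ?_
  · intro b _ hb
    rw [diagonal_apply_ne _ (Ne.symm hb), zero_mul]
  · exact fun h => absurd (Finset.mem_univ a) h
  · rw [diagonal_apply_eq]

/-- pairing of vectors with a coordinate field -/
def pr (v : ι → ℝ) (f : ι → Ω → ℝ) (ω : Ω) : ℝ := ∑ a, v a * f a ω

/-- the resolvent weights -/
noncomputable def yd (m : ℝ) (j : ι → ℝ) (b : ι) : ℝ := (j b ^ 2 - 1) / ((m + 2) / 2 + j b ^ 2)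

/-- weighted square sums -/
def sqw (d : ι → ℝ) (f g : ι → Ω → ℝ) (ω : Ω) : ℝ := ∑ b, d b * (f b ω * g b ω)

lemma BM.pr {f : ι → Ω → ℝ} (hf : ∀ a, BM (f a)) (v : ι → ℝ) : BM (pr v f) :=
  BM.sum _ fun a _ => (hf a).const_mul _

lemma BM.sqw {f g : ι → Ω → ℝ} (hf : ∀ a, BM (f a)) (hg : ∀ a, BM (g a)) (d : ι → ℝ) :
    BM (sqw d f g) :=
  BM.sum _ fun a _ => ((hf a).mul (hg a)).const_mul _

lemma diag_qf (d : ι → ℝ) (f g : ι → Ω → ℝ) (ω : Ω) :
    (fun a => f a ω) ⬝ᵥ (diagonal d *ᵥ fun a => g a ω) = sqw d f g ω := by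
  simp only [dotProduct, mulVec_diagonal, sqw]
  exact Finset.sum_congr rfl fun b _ => by ring

lemma et_diag (j : ι → ℝ) (ω : Ω) : et (diagonal j) x N ω = fun a => zd j x N a ω := by
  rw [← vc_ze, ze_diag]
  rfl

/-- contraction of a vector integral -/
lemma contract [IsFiniteMeasure μ] {f : ι → Ω → ℝ} {g : Ω → ℝ} (hf : ∀ a, BM (f a)) (hg : BM g)
    (v : ι → ℝ) : ∑ a, v a * ∫ ω, f a ω * g ω ∂μ = ∫ ω, pr v f ω * g ω ∂μ := by
  have e : ∀ ω, pr v f ω * g ω = ∑ a, v a * (f a ω * g ω) := by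
    intro ω
    unfold pr
    rw [Finset.sum_mul]
    exact Finset.sum_congr rfl fun a _ => by ring
  simp_rw [e]
  rw [integral_finsetSum _ fun a _ => (((hf a).mul hg).const_mul (v a)).int]
  exact Finset.sum_congr rfl fun a _ => (integral_const_mul _ _).symm

namespace T0Data

variable (h : T0Data μ m x N)
include h

lemma bzd (j : ι → ℝ) (a : ι) : BM (zd j x N a) := by
  rw [← ze_diag]
  exact h.bz _ a

/-- the mean normal identity in the eigenbasis, contracted with a vector -/
theorem mean_diag (hm : 0 < m) (j v : ι → ℝ) :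
    ∑ a, v a * m1 μ N a * (1 + (2 + 4 / m) * ((∑ b, (j b ^ 2 - 1)) - (j a ^ 2 - 1)) / (m + 1)
      - (3 + 8 / m) * ((∑ b, j b ^ 2 * yd m j b) - j a ^ 2 * yd m j a) / (m + 1))
      = 1 / 2 * ∫ ω, pr v N ω * sqw (fun _ => 1) (zd j x N) (zd j x N) ω ∂μ
      + ∫ ω, pr v x ω * sqw (fun b => j b * (1 + 2 / m - (2 + 6 / m) * yd m j b))
          (zd j x N) (zd j x N) ω ∂μ
      + (3 / 2 + 4 / m) * ∫ ω, pr v (zd j x N) ω * sqw (fun b => j b ^ 2 - 1) x x ω ∂μ
      - (1 + 4 / m) * ∫ ω, pr v x ω * sqw (fun b => j b ^ 2 * yd m j b) (zd j x N) x ω ∂μ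
      + (3 + 8 / m) * ∫ ω, pr v (zd j x N) ω * sqw (fun b => j b * yd m j b) (zd j x N) x ω ∂μ
      - (3 / 2 + 4 / m) * ∫ ω, pr (fun a => v a * j a) x ω
          * sqw (yd m j) (zd j x N) (zd j x N) ω ∂μ := by
  have := h.prob
  set z := zd j x N with hz
  have bz : ∀ a, BM (z a) := h.bzd j
  set w : ι → ℝ := fun b => j b ^ 2 - 1 with hw
  set y : ι → ℝ := yd m j with hy
  have hJ : (diagonal j : Matrix ι ι ℝ).IsSymm := isSymm_diagonal j
  have hY : (diagonal y : Matrix ι ι ℝ).IsSymm := isSymm_diagonal y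
  have hc : (diagonal y : Matrix ι ι ℝ) * diagonal j = diagonal j * diagonal y := by
    rw [diagonal_mul_diagonal, diagonal_mul_diagonal]
    congr 1
    funext a
    exact mul_comm _ _
  have hWm : Wm (diagonal j : Matrix ι ι ℝ) = diagonal w := by
    unfold Wm
    rw [diagonal_mul_diagonal]
    ext a b
    rcases eq_or_ne a b with rfl | hab
    · simp only [Matrix.sub_apply, diagonal_apply_eq, one_apply_eq, hw]
      ring
    · simp only [Matrix.sub_apply, diagonal_apply_ne _ hab, one_apply_ne hab, sub_zero]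
  have hJJY : (diagonal j : Matrix ι ι ℝ) * diagonal j * diagonal y
      = diagonal fun b => j b ^ 2 * y b := by
    rw [diagonal_mul_diagonal, diagonal_mul_diagonal]
    congr 1
    funext a
    ring
  have hJY : (diagonal j : Matrix ι ι ℝ) * diagonal y = diagonal fun b => j b * y b := by
    rw [diagonal_mul_diagonal]
  have hYW : ((m + 2) / 2) • (diagonal y : Matrix ι ι ℝ) + diagonal j * diagonal j * diagonal y
      = Wm (diagonal j) := by
    rw [hWm, hJJY]
    ext a b
    rcases eq_or_ne a b with rfl | hab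
    · simp only [Matrix.add_apply, Matrix.smul_apply, diagonal_apply_eq, smul_eq_mul, hy, hw, yd]
      have : (m + 2) / 2 + j a ^ 2 ≠ 0 := by positivity
      field_simp
    · simp only [Matrix.add_apply, Matrix.smul_apply, diagonal_apply_ne _ hab, smul_zero,
        add_zero]
  have key := fun a => h.mean_normal' hm.ne' (by linarith : m + 1 ≠ 0) hJ hY hc hYW a
  rw [hWm, hJJY, hJY] at key
  have evc : ∀ (f : ι → Ω → ℝ) (ω : Ω), vc f ω = fun a => f a ω := fun f ω => rfl
  have ee : ∀ ω, et (diagonal j) x N ω ⬝ᵥ et (diagonal j) x N ω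
      = sqw (fun _ => 1) z z ω := by
    intro ω
    rw [et_diag, sqw]
    simp only [dotProduct, one_mul]
    rfl
  simp only [et_diag, evc, diag_qf] at key
  have e1 : ∀ ω, (fun a => zd j x N a ω) ⬝ᵥ (fun a => zd j x N a ω) = sqw (fun _ => 1) z z ω := by
    intro ω
    simp only [dotProduct, one_mul, sqw]
    rfl
  simp only [e1] at key
  have bs : ∀ d, BM (sqw d z z) := fun d => BM.sqw bz bz d
  have bsx : ∀ d, BM (sqw d z x) := fun d => BM.sqw bz h.bx d
  have bxx : ∀ d, BM (sqw d x x) := fun d => BM.sqw h.bx h.bx d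
  rw [← contract h.bN (bs _), ← contract h.bx (bs _), ← contract bz (bxx _),
    ← contract h.bx (bsx _), ← contract bz (bsx _), ← contract h.bx (bs _)]
  have e2 : ∀ a, ∫ ω, x a ω * sqw (fun b => j b * (1 + 2 / m - (2 + 6 / m) * y b)) z z ω ∂μ
      = (1 + 2 / m) * ∫ ω, x a ω * sqw j z z ω ∂μ
        - (2 + 6 / m) * ∫ ω, x a ω * sqw (fun b => j b * y b) z z ω ∂μ := by
    intro a
    rw [← integral_const_mul, ← integral_const_mul, ← integral_sub
      (((h.bx a).mul (bs j)).const_mul _).int (((h.bx a).mul (bs _)).const_mul _).int]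
    refine integral_congr_ae (Eventually.of_forall fun ω => ?_)
    simp only [sqw, Finset.mul_sum, ← Finset.sum_sub_distrib]
    exact Finset.sum_congr rfl fun b _ => by ring
  simp only [e2]
  simp only [Finset.mul_sum, ← Finset.sum_sub_distrib, ← Finset.sum_add_distrib]
  refine Finset.sum_congr rfl fun a _ => ?_
  have k := key a
  simp only [mulVec_diagonal, trace_diagonal] at k
  have k2 := congrArg (fun t => v a * t) k
  simp only [hw] at k2
  linear_combination k2

end T0Data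

end

end Vale.Agent.P224.R2.H728
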