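import Vale.Agent.P224.R2.H728.T0g
import Vale.Agent.P224.R2.H728.T0k

/-!
The eigenbasis of the least squares matrix of a minimal hypersurface.
-/

namespace Vale.Agent.P224.R2.H728

open MeasureTheory Set Filter Function Real Finset Matrix

set_option linter.unusedSectionVars false

section

variable {ι Ω : Type*} [Fintype ι] [DecidableEq ι] [MeasurableSpace Ω] {μ : Measure Ω}
  {m : ℝ} {x N : ι → Ω → ℝ}

/-- rotation to the eigenbasis -/
theorem lsq_rot [IsFiniteMeasure μ] (hx : ∀ a, BM (x a)) (hN : ∀ a, BM (N a))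
    {J : Matrix ι ι ℝ} (hJ : J.IsSymm) (hL : LSq μ J x N) {U : ι → ι → ℝ} {j : ι → ℝ}
    (hU : ∀ a i, ∑ c, J a c * U c i = j i * U a i) :
    LSq μ (Matrix.diagonal j) (fun i ω => ∑ a, U a i * x a ω) (fun i ω => ∑ a, U a i * N a ω) := by
  set x' : ι → Ω → ℝ := fun i ω => ∑ a, U a i * x a ω with hx'
  set N' : ι → Ω → ℝ := fun i ω => ∑ a, U a i * N a ω with hN'
  have bz : ∀ a, BM (ze J x N a) := BM.ze J hx hN
  have hz : ∀ i ω, ze (Matrix.diagonal j) x' N' i ω = ∑ a, U a i * ze J x N a ω := by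
    intro i ω
    rw [ze_diag]
    simp only [zd, hx', hN', ze, mul_sub, Finset.sum_sub_distrib]
    congr 1
    have e : ∀ a, U a i * ∑ c, J a c * x c ω = ∑ c, U a i * J a c * x c ω := fun a => by
      rw [Finset.mul_sum]
      exact Finset.sum_congr rfl fun c _ => by ring
    simp_rw [e]
    rw [Finset.sum_comm, Finset.mul_sum]
    refine Finset.sum_congr rfl fun c _ => ?_
    rw [← Finset.sum_mul]
    have : ∑ a, U a i * J a c = ∑ a, J c a * U a i :=
      Finset.sum_congr rfl fun a _ => by rw [hJ.apply c a, mul_comm]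
    rw [this, hU]
    ring
  have key : ∀ i k, m2 μ (ze (Matrix.diagonal j) x' N') x' i k
      = ∑ a, ∑ b, U a i * U b k * m2 μ (ze J x N) x a b := by
    intro i k
    unfold m2
    have e : ∀ ω, ze (Matrix.diagonal j) x' N' i ω * x' k ω
        = ∑ a, ∑ b, U a i * U b k * (ze J x N a ω * x b ω) := by
      intro ω
      rw [hz]
      simp only [hx']
      rw [Finset.sum_mul_sum]
      exact Finset.sum_congr rfl fun a _ => Finset.sum_congr rfl fun b _ => by ring
    simp_rw [e]
    have i1 : ∀ a b, BM (fun ω => U a i * U b k * (ze J x N a ω * x b ω)) := fun a b =>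
      ((bz a).mul (hx b)).const_mul _
    rw [integral_finsetSum _ fun a _ => (BM.sum _ fun b _ => i1 a b).int]
    refine Finset.sum_congr rfl fun a _ => ?_
    rw [integral_finsetSum _ fun b _ => (i1 a b).int]
    exact Finset.sum_congr rfl fun b _ => integral_const_mul _ _
  intro i k
  rw [key, key]
  have e : ∀ a b, U a i * U b k * m2 μ (ze J x N) x a b
      = -(U b k * U a i * m2 μ (ze J x N) x b a) := by
    intro a b
    rw [hL a b]
    ring
  simp_rw [e, Finset.sum_neg_distrib]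
  rw [Finset.sum_comm]

end

open Vale.Agent.P224.SM2 Module
open scoped ContDiff Manifold RealInnerProductSpace ENNReal

variable {V W M : Type*} [NormedAddCommGroup V] [InnerProductSpace ℝ V] [FiniteDimensional ℝ V]
  [NormedAddCommGroup W] [InnerProductSpace ℝ W] [FiniteDimensional ℝ W]
  [TopologicalSpace M] [ChartedSpace V M] [IsManifold 𝓘(ℝ, V) ∞ M]
  [CompactSpace M] [T2Space M]
  [MeasurableSpace V] [BorelSpace V] [MeasurableSpace W] [BorelSpace W]
  [MeasurableSpace M] [BorelSpace M]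

/-- coordinates of a minimal hypersurface in the eigenbasis of the least squares matrix -/
theorem exists_eigen [Nonempty M] (hm : 1 ≤ finrank ℝ V)
    (hW : finrank ℝ W = finrank ℝ V + 2) {F : M → W}
    (hF : SphImm V F) (hmin : ∀ x n, IsUnitNormal V F x n → meanCurv V F x n = 0)
    {N : M → W} (hNs : ContMDiff 𝓘(ℝ, V) 𝓘(ℝ, W) ∞ N) (hN : ∀ x, IsUnitNormal V F x (N x)) :
    ∃ (b : OrthonormalBasis (Fin (finrank ℝ W)) ℝ W) (j : Fin (finrank ℝ W) → ℝ),
      T0Data ((volM V F univ)⁻¹ • volM V F) (finrank ℝ V) (fun a p => ⟪F p, b a⟫)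
        (fun a p => ⟪N p, b a⟫)
      ∧ LSq ((volM V F univ)⁻¹ • volM V F) (Matrix.diagonal j) (fun a p => ⟪F p, b a⟫)
        (fun a p => ⟪N p, b a⟫) := by
  set μ : Measure M := (volM V F univ)⁻¹ • volM V F with hμ
  set b0 := stdOrthonormalBasis ℝ W with hb0
  have h0 := t0Data_of_min hm hW hF hmin hNs hN b0
  have := h0.prob
  obtain ⟨J, hJ, hL⟩ := h0.exists_lsq
  have hJ' : J.IsHermitian := by
    unfold Matrix.IsHermitian
    rw [Matrix.conjTranspose_eq_transpose_of_trivial, hJ]
  set ev := hJ'.eigenvectorBasis with hev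
  set b : OrthonormalBasis (Fin (finrank ℝ W)) ℝ W := ev.map b0.repr.symm with hb
  have hcoord : ∀ (w : W) (i : Fin (finrank ℝ W)), ⟪w, b i⟫ = ∑ a, ev i a * ⟪w, b0 a⟫ := by
    intro w i
    have h1 : b i = b0.repr.symm (ev i) := OrthonormalBasis.map_apply _ _ _
    rw [h1, ← LinearIsometryEquiv.inner_map_map b0.repr w, LinearIsometryEquiv.apply_symm_apply,
      PiLp.inner_apply]
    refine Finset.sum_congr rfl fun a _ => ?_
    rw [b0.repr_apply_apply, real_inner_comm (b0 a) w]
    simp [real_inner_comm]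
  refine ⟨b, hJ'.eigenvalues, t0Data_of_min hm hW hF hmin hNs hN b, ?_⟩
  have hU : ∀ a i, ∑ c, J a c * ev i c = hJ'.eigenvalues i * ev i a := by
    intro a i
    have := congrFun (hJ'.mulVec_eigenvectorBasis i) a
    simpa [mulVec, dotProduct] using this
  have h1 := lsq_rot h0.bx h0.bN hJ hL (U := fun a i => ev i a) (j := hJ'.eigenvalues) hU
  have e1 : (fun (i : Fin (finrank ℝ W)) (p : M) => ∑ a, ev i a * ⟪F p, b0 a⟫)
      = fun i p => ⟪F p, b i⟫ := by
    funext i p
    rw [hcoord]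
  have e2 : (fun (i : Fin (finrank ℝ W)) (p : M) => ∑ a, ev i a * ⟪N p, b0 a⟫)
      = fun i p => ⟪N p, b i⟫ := by
    funext i p
    rw [hcoord]
  rw [e1, e2] at h1
  exact h1

end Vale.Agent.P224.R2.H728
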