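import Vale.Agent.P224.R2.H728.T0q

/-!
Lower bounds of the mean of `(p - t)^2 s` and of the third moments of the normal.
-/

namespace Vale.Agent.P224.R2.H728

open MeasureTheory Set Filter Function Real Finset Matrix

set_option linter.unusedSectionVars false

section

variable {ι Ω : Type*} [Fintype ι] [DecidableEq ι] [MeasurableSpace Ω] {μ : Measure Ω}
  {m : ℝ} {x N : ι → Ω → ℝ} {j : ι → ℝ}

namespace T0Data

variable (h : T0Data μ m x N)
include h

/-- the exact form of the contraction -/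
lemma xi_eq (j v : ι → ℝ) :
    ((m + 2) / 2 - 1) * ∑ a, v a * xi μ j x a
      = -(∑ a, ∑ b, v a * (j b * (j b ^ 2 - 1)) * m3 μ x x x a b b)
        - 2 * (∑ b, ∑ c, (j b ^ 2 - 1) * v c * m3 μ (zd j x N) x x b c b)
        - ∑ a, ∑ b, v a * j b * m3 μ x (zd j x N) (zd j x N) a b b := by
  have e1 : ∀ a, ((m + 2) / 2 - 1) * xi μ j x a
      = -(∑ b, j b * (j b ^ 2 - 1) * m3 μ x x x a b b)
        - 2 * (∑ b, (j b ^ 2 - 1) * m3 μ (zd j x N) x x b a b)
        - ∑ b, j b * m3 μ x (zd j x N) (zd j x N) a b b := by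
    intro a
    have r1 : ∀ b, m3 μ x x x b b a = m3 μ x x x a b b := fun b => by
      rw [h.X23 b b a, h.X12 b a b]
    have r2 : xi μ j x a = ∑ b, j b * m3 μ x x x a b b := by
      unfold xi
      exact Finset.sum_congr rfl fun b _ => by rw [r1]
    have r3 : ∑ b, (j b * m3 μ x x x a b b + m3 μ (zd j x N) x x b a b) = 0 := by
      rw [← h.sum_Nxx_tr' a]
      refine Finset.sum_congr rfl fun b _ => ?_
      rw [h.Nxx_eq j b a b, h.X12 b a b]
    have r4 : ∑ b, j b * ((m + 2) / 2 * m3 μ x x x a b b + j b * j b * m3 μ x x x a b b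
        + j b * m3 μ (zd j x N) x x b a b + j b * m3 μ (zd j x N) x x b a b
        + m3 μ x (zd j x N) (zd j x N) a b b) = 0 :=
      Finset.sum_eq_zero fun b _ => by rw [h.xNN_eq j a b b, mul_zero]
    rw [r2]
    have r5 : ((m + 2) / 2 - 1) * ∑ b, j b * m3 μ x x x a b b
        + ∑ b, j b * (j b ^ 2 - 1) * m3 μ x x x a b b
        + 2 * (∑ b, (j b ^ 2 - 1) * m3 μ (zd j x N) x x b a b)
        + ∑ b, j b * m3 μ x (zd j x N) (zd j x N) a b b
        = ∑ b, j b * ((m + 2) / 2 * m3 μ x x x a b b + j b * j b * m3 μ x x x a b b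
          + j b * m3 μ (zd j x N) x x b a b + j b * m3 μ (zd j x N) x x b a b
          + m3 μ x (zd j x N) (zd j x N) a b b)
          - 2 * ∑ b, (j b * m3 μ x x x a b b + m3 μ (zd j x N) x x b a b) := by
      simp only [Finset.mul_sum, ← Finset.sum_add_distrib, ← Finset.sum_sub_distrib]
      exact Finset.sum_congr rfl fun b _ => by ring
    rw [r4, r3] at r5
    linarith
  have e2 : ∀ a, v a * (((m + 2) / 2 - 1) * xi μ j x a)
      = -(∑ b, v a * (j b * (j b ^ 2 - 1)) * m3 μ x x x a b b)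
        - 2 * (∑ b, (j b ^ 2 - 1) * v a * m3 μ (zd j x N) x x b a b)
        - ∑ b, v a * j b * m3 μ x (zd j x N) (zd j x N) a b b := by
    intro a
    rw [e1 a]
    have k : ∀ f g k : ι → ℝ, v a * (-(∑ b, f b) - 2 * (∑ b, g b) - ∑ b, k b)
        = -(∑ b, v a * f b) - 2 * (∑ b, v a * g b) - ∑ b, v a * k b := by
      intro f g k
      simp only [← Finset.mul_sum]
      ring
    rw [k]
    congr 1
    · congr 1
      · congr 1
        exact Finset.sum_congr rfl fun b _ => by ring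
      · congr 1
        exact Finset.sum_congr rfl fun b _ => by ring
    · exact Finset.sum_congr rfl fun b _ => by ring
  have e3 : ((m + 2) / 2 - 1) * ∑ a, v a * xi μ j x a
      = ∑ a, v a * (((m + 2) / 2 - 1) * xi μ j x a) := by
    rw [Finset.mul_sum]
    exact Finset.sum_congr rfl fun a _ => by ring
  have e4 : ∑ b, ∑ c, (j b ^ 2 - 1) * v c * m3 μ (zd j x N) x x b c b
      = ∑ a, ∑ b, (j b ^ 2 - 1) * v a * m3 μ (zd j x N) x x b a b := Finset.sum_comm
  rw [e3, e4]
  simp only [e2, Finset.sum_sub_distrib, Finset.sum_neg_distrib, ← Finset.mul_sum]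

/-- the bound of the contraction -/
theorem xi_le (hm : 0 ≤ m) (j : ι → ℝ) {ρ ω : ℝ} (hρ : 0 ≤ ρ) (hω : 0 ≤ ω)
    (hj : ∀ a, |j a| ≤ ρ) (hw : ∑ b, (j b ^ 2 - 1) ^ 2 ≤ ω ^ 2) :
    ((m + 2) / 2 - 1) * |∑ a, m1 μ N a * xi μ j x a|
      ≤ √(uu μ N) * (ρ * ω * nX μ x
        + 2 * ω * (√(kq m * hh μ (diagonal j) x N) + √(uu μ N) / (m + 2))
        + ρ * hh μ (diagonal j) x N) := by
  have := h.prob
  have bz := h.bzd j
  set e := m1 μ N with he
  set u := uu μ N with hu
  set H0 := hh μ (diagonal j) x N with hH0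
  have hu0 : 0 ≤ u := Finset.sum_nonneg fun a _ => sq_nonneg _
  have hH : 0 ≤ H0 := h.hh_nonneg _
  have hsq : √u ^ 2 = u := Real.sq_sqrt hu0
  have hs0 : 0 ≤ √u := Real.sqrt_nonneg _
  have hk : 0 ≤ kq m := by unfold kq; positivity
  -- the first term
  have t1 : |∑ a, ∑ b, e a * (j b * (j b ^ 2 - 1)) * m3 μ x x x a b b|
      ≤ √u * (ρ * ω * nX μ x) := by
    have e1 : ∑ a, ∑ b, e a * (j b * (j b ^ 2 - 1)) * m3 μ x x x a b b
        = s3 fun a b c => (e a * (j b * (j b ^ 2 - 1)) * (if b = c then 1 else 0))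
          * m3 μ x x x a b c := by
      unfold s3
      refine Finset.sum_congr rfl fun a _ => Finset.sum_congr rfl fun b _ => ?_
      simp
    rw [e1]
    refine (s3_cs_abs _ _).trans ?_
    have e2 : (s3 fun a b c => (e a * (j b * (j b ^ 2 - 1)) * (if b = c then (1 : ℝ) else 0)) ^ 2)
        = u * ∑ b, (j b * (j b ^ 2 - 1)) ^ 2 := by
      unfold s3
      rw [hu, uu, Finset.sum_mul_sum]
      refine Finset.sum_congr rfl fun a _ => Finset.sum_congr rfl fun b _ => ?_
      simp [mul_ite, ite_pow]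
      ring
    have e3 : ∑ b, (j b * (j b ^ 2 - 1)) ^ 2 ≤ (ρ * ω) ^ 2 := by
      have e4 : ∑ b, (j b * (j b ^ 2 - 1)) ^ 2 ≤ ρ ^ 2 * ∑ b, (j b ^ 2 - 1) ^ 2 := by
        rw [Finset.mul_sum]
        refine Finset.sum_le_sum fun b _ => ?_
        rw [mul_pow]
        refine mul_le_mul_of_nonneg_right ?_ (sq_nonneg _)
        rw [← sq_abs]
        exact pow_le_pow_left₀ (abs_nonneg _) (hj b) 2
      rw [mul_pow]
      exact e4.trans (mul_le_mul_of_nonneg_left hw (sq_nonneg _))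
    rw [e2]
    have e5 : √(u * ∑ b, (j b * (j b ^ 2 - 1)) ^ 2) ≤ √u * (ρ * ω) := by
      rw [Real.sqrt_mul hu0]
      refine mul_le_mul_of_nonneg_left ?_ hs0
      rw [← Real.sqrt_sq (mul_nonneg hρ hω)]
      exact Real.sqrt_le_sqrt e3
    calc _ ≤ √u * (ρ * ω) * nX μ x := mul_le_mul_of_nonneg_right e5 (Real.sqrt_nonneg _)
      _ = _ := by ring
  -- the second term
  have t2 : |∑ b, ∑ c, (j b ^ 2 - 1) * e c * m3 μ (zd j x N) x x b c b|
      ≤ √u * (ω * (√(kq m * H0) + √u / (m + 2))) := by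
    have b1 := h.bessel hm j fun b => Matrix.of fun c d =>
      (j b ^ 2 - 1) * e c * (if b = d then 1 else 0)
    have e1 : ∑ b, ∑ c, ∑ d, (Matrix.of fun c d : ι =>
        (j b ^ 2 - 1) * e c * (if b = d then (1 : ℝ) else 0)) c d * m3 μ (zd j x N) x x b c d
        = ∑ b, ∑ c, (j b ^ 2 - 1) * e c * m3 μ (zd j x N) x x b c b := by
      refine Finset.sum_congr rfl fun b _ => Finset.sum_congr rfl fun c _ => ?_
      simp
    have e2 : ∀ b, (Matrix.of fun c d : ι =>
        (j b ^ 2 - 1) * e c * (if b = d then (1 : ℝ) else 0)).trace = (j b ^ 2 - 1) * e b := by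
      intro b
      simp [Matrix.trace]
    have e3 : (fro3 fun b => Matrix.of fun c d : ι =>
        (j b ^ 2 - 1) * e c * (if b = d then (1 : ℝ) else 0)) = (∑ b, (j b ^ 2 - 1) ^ 2) * u := by
      unfold fro3 fro
      rw [Finset.sum_mul]
      refine Finset.sum_congr rfl fun b _ => ?_
      rw [hu, uu, Finset.mul_sum]
      refine Finset.sum_congr rfl fun c _ => ?_
      simp [mul_ite, ite_pow]
      ring
    rw [e1, e3, ← h.hh_sum, ← hH0] at b1
    simp only [e2] at b1
    set S := ∑ b, ∑ c, (j b ^ 2 - 1) * e c * m3 μ (zd j x N) x x b c b with hS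
    set R := ∑ b, m1 μ N b * ((j b ^ 2 - 1) * e b) / (m + 2) with hR
    have k1 : |S - R| ≤ ω * √u * √(kq m * H0) := by
      have k2 : (S - R) ^ 2 ≤ (ω * √u * √(kq m * H0)) ^ 2 := by
        have k3 : (ω * √u * √(kq m * H0)) ^ 2 = kq m * H0 * (ω ^ 2 * u) := by
          rw [mul_pow, mul_pow, hsq, Real.sq_sqrt (mul_nonneg hk hH)]
          ring
        rw [k3]
        refine b1.trans ?_
        have k4 : 16 / ((m + 1) * (7 * m + 23)) = kq m := rfl
        rw [k4]
        exact mul_le_mul_of_nonneg_left (mul_le_mul_of_nonneg_right hw hu0)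
          (mul_nonneg hk hH)
      exact abs_le_of_sq_le_sq k2 (by positivity)
    have k5 : |R| ≤ ω * u / (m + 2) := by
      rw [hR, ← Finset.sum_div, abs_div, abs_of_pos (by positivity : (0 : ℝ) < m + 2)]
      refine div_le_div_of_nonneg_right ?_ (by positivity)
      refine (Finset.abs_sum_le_sum_abs _ _).trans ?_
      rw [hu, uu, Finset.mul_sum]
      refine Finset.sum_le_sum fun b _ => ?_
      have k6 : |j b ^ 2 - 1| ≤ ω := by
        refine abs_le_of_sq_le_sq ((Finset.single_le_sum (f := fun b => (j b ^ 2 - 1) ^ 2)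
          (fun b _ => sq_nonneg _) (Finset.mem_univ b)).trans hw) hω
      rw [← he]
      have k7 : e b * ((j b ^ 2 - 1) * e b) = (j b ^ 2 - 1) * e b ^ 2 := by ring
      rw [k7, abs_mul, abs_of_nonneg (sq_nonneg (e b))]
      exact mul_le_mul_of_nonneg_right k6 (sq_nonneg _)
    have k8 : |S| ≤ |S - R| + |R| := by
      calc |S| = |(S - R) + R| := by ring_nf
        _ ≤ _ := abs_add_le _ _
    have k9 : √u * (ω * (√(kq m * H0) + √u / (m + 2)))
        = ω * √u * √(kq m * H0) + ω * u / (m + 2) := by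
      rw [← hsq]
      rw [hsq]
      have : √u * (ω * (√u / (m + 2))) = ω * (√u ^ 2) / (m + 2) := by ring
      rw [hsq] at this
      rw [mul_add, mul_add, this]
      ring
    rw [k9]
    linarith
  -- the third term
  have t3 : |∑ a, ∑ b, e a * j b * m3 μ x (zd j x N) (zd j x N) a b b| ≤ √u * (ρ * H0) := by
    set z := zd j x N with hz
    have bp : BM fun ω => ∑ a, e a * x a ω := BM.sum _ fun a _ => (h.bx a).const_mul _
    have bq : BM fun ω => ∑ b, j b * (z b ω * z b ω) :=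
      BM.sum _ fun b _ => ((bz b).mul (bz b)).const_mul _
    have bS : BM fun ω => ∑ b, z b ω * z b ω := BM.sum _ fun b _ => (bz b).mul (bz b)
    have e1 : ∑ a, ∑ b, e a * j b * m3 μ x z z a b b
        = ∫ ω, (∑ a, e a * x a ω) * ∑ b, j b * (z b ω * z b ω) ∂μ := by
      have k1 : ∀ ω, (∑ a, e a * x a ω) * ∑ b, j b * (z b ω * z b ω)
          = ∑ a, ∑ b, e a * j b * (x a ω * z b ω * z b ω) := by
        intro ω
        rw [Finset.sum_mul_sum]
        exact Finset.sum_congr rfl fun a _ => Finset.sum_congr rfl fun b _ => by ring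
      simp only [k1]
      unfold m3
      rw [integral_finsetSum _ fun a _ => (BM.sum _ fun b _ =>
        (((h.bx a).mul (bz b)).mul (bz b)).const_mul (e a * j b)).int]
      refine Finset.sum_congr rfl fun a _ => ?_
      rw [integral_finsetSum _ fun b _ =>
        ((((h.bx a).mul (bz b)).mul (bz b)).const_mul (e a * j b)).int]
      exact Finset.sum_congr rfl fun b _ => (integral_const_mul _ _).symm
    have e2 : H0 = ∫ ω, ∑ b, z b ω * z b ω ∂μ := by
      rw [hH0, h.hh_sum]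
      unfold m2
      rw [← integral_finsetSum _ fun b _ => ((bz b).mul (bz b)).int]
    have e3 : √u * (ρ * H0) = ∫ ω, √u * ρ * ∑ b, z b ω * z b ω ∂μ := by
      rw [integral_const_mul, ← e2]
      ring
    rw [e1, e3]
    refine (abs_integral_le_integral_abs).trans
      (integral_mono (bp.mul bq).int.abs (bS.const_mul _).int ?_)
    intro ω
    change |(∑ a, e a * x a ω) * ∑ b, j b * (z b ω * z b ω)| ≤ √u * ρ * ∑ b, z b ω * z b ω
    rw [abs_mul]
    have k1 : |∑ a, e a * x a ω| ≤ √u := by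
      refine Real.abs_le_sqrt ?_
      have k2 := Finset.sum_mul_sq_le_sq_mul_sq Finset.univ e fun a => x a ω
      rw [h.ux, mul_one] at k2
      exact k2
    have k3 : |∑ b, j b * (z b ω * z b ω)| ≤ ρ * ∑ b, z b ω * z b ω := by
      refine (Finset.abs_sum_le_sum_abs _ _).trans ?_
      rw [Finset.mul_sum]
      refine Finset.sum_le_sum fun b _ => ?_
      rw [abs_mul, abs_of_nonneg (mul_self_nonneg (z b ω))]
      exact mul_le_mul_of_nonneg_right (hj b) (mul_self_nonneg _)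
    calc _ ≤ √u * (ρ * ∑ b, z b ω * z b ω) :=
          mul_le_mul k1 k3 (abs_nonneg _) hs0
      _ = _ := by ring
  have e0 := h.xi_eq j e
  have hm2 : 0 ≤ (m + 2) / 2 - 1 := by linarith
  have e9 : ((m + 2) / 2 - 1) * |∑ a, e a * xi μ j x a|
      = |((m + 2) / 2 - 1) * ∑ a, e a * xi μ j x a| := by
    rw [abs_mul, abs_of_nonneg hm2]
  rw [e9, e0]
  have a1 := abs_le.1 t1
  have a2 := abs_le.1 t2
  have a3 := abs_le.1 t3
  rw [abs_le]
  constructor
  · nlinarith [a1.1, a1.2, a2.1, a2.2, a3.1, a3.2]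
  · nlinarith [a1.1, a1.2, a2.1, a2.2, a3.1, a3.2]

/-- the lower bound of the mean of `(p - t)^2 s` -/
theorem pts_ge (hm : 0 ≤ m) (j : ι → ℝ) :
    -(2 * kq m * hh μ (diagonal j) x N + 2 * nX μ x * hh μ (diagonal j) x N
        + 4 / (m + 1) * |∑ b, m1 μ N b * xi μ j x b|)
      ≤ ∫ q, (ip N x q.1 q.2 - ip x N q.1 q.2) ^ 2 * ip x x q.1 q.2 ∂(μ.prod μ) := by
  have hm1 : m + 1 ≠ 0 := by positivity
  have e1 := h.E_pts hm1
  have e2 := h.third_eq hm1 j
  have e3 := h.Z_sq_le hm j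
  have e4 : 0 ≤ s3 fun a b c => (j a - j b) ^ 2 * m3 μ x x x a b c ^ 2 :=
    s3_nonneg fun a b c => by positivity
  have e5 := (abs_le.1 (h.XY_le j (m3 μ x x x))).1
  have e6 := neg_abs_le (∑ b, m1 μ N b * xi μ j x b)
  have hu0 : 0 ≤ uu μ N := Finset.sum_nonneg fun a _ => sq_nonneg _
  have e7 : 0 ≤ 4 / (m + 1) := by positivity
  have e8 := mul_le_mul_of_nonneg_left e6 e7
  rw [e1]
  have e9 : ∑ a, ∑ b, ∑ c, m3 μ x x x a b c ^ 2 = s3 fun a b c => m3 μ x x x a b c ^ 2 := rfl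
  have e10 : ∑ a, ∑ b, ∑ c, m3 μ N x x a b c ^ 2 = s3 fun a b c => m3 μ N x x a b c ^ 2 := rfl
  rw [e9, e10]
  change _ ≤ -((m + 2) * s3 fun a b c => m3 μ x x x a b c ^ 2)
    - 2 * (s3 fun a b c => m3 μ N x x a b c ^ 2) + 2 * uu μ N / (m + 1)
  have e11 : uu μ N / (m + 2) ≤ uu μ N / (m + 1) :=
    div_le_div_of_nonneg_left hu0 (by positivity) (by linarith)
  have e12 : 2 * uu μ N / (m + 1) = 2 * (uu μ N / (m + 1)) := by ring
  change -(nX μ x * _) ≤ _ at e5
  rw [e12]
  nlinarith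

/-- the norm of the third moments of the normal -/
theorem Nxx_le (hm : 0 ≤ m) (j : ι → ℝ) :
    2 * (s3 fun a b c => m3 μ N x x a b c ^ 2)
      ≤ 2 * (kq m * hh μ (diagonal j) x N + uu μ N / (m + 2))
        + 2 * nX μ x * hh μ (diagonal j) x N
        + 4 / (m + 1) * |∑ b, m1 μ N b * xi μ j x b| - (m + 2) * nX μ x ^ 2 := by
  have hm1 : m + 1 ≠ 0 := by positivity
  have e2 := h.third_eq hm1 j
  have e3 := h.Z_sq_le hm j
  have e4 : 0 ≤ s3 fun a b c => (j a - j b) ^ 2 * m3 μ x x x a b c ^ 2 :=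
    s3_nonneg fun a b c => by positivity
  have e5 := (abs_le.1 (h.XY_le j (m3 μ x x x))).1
  have e6 := neg_abs_le (∑ b, m1 μ N b * xi μ j x b)
  have e7 : 0 ≤ 4 / (m + 1) := by positivity
  have e8 := mul_le_mul_of_nonneg_left e6 e7
  have e9 : nX μ x ^ 2 = s3 fun a b c => m3 μ x x x a b c ^ 2 :=
    Real.sq_sqrt (s3_nonneg fun a b c => sq_nonneg _)
  change -(nX μ x * _) ≤ _ at e5
  rw [e9]
  nlinarith

end T0Data

end

end Vale.Agent.P224.R2.H728
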