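import Vale.Agent.P224.R2.H728.T0c

/-!
The mean normal identity.
-/

namespace Vale.Agent.P224.R2.H728

open MeasureTheory Set Filter Function Real Finset Matrix

set_option linter.unusedSectionVars false

section

variable {ι Ω : Type*} [Fintype ι] [DecidableEq ι] [MeasurableSpace Ω] {μ : Measure Ω}
  {m : ℝ} {x N : ι → Ω → ℝ}

/-- the vector at a point -/
def vc (x : ι → Ω → ℝ) (ω : Ω) : ι → ℝ := fun a => x a ω

/-- the defect from the linear field J -/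
def et (J : Matrix ι ι ℝ) (x N : ι → Ω → ℝ) (ω : Ω) : ι → ℝ := vc N ω - J *ᵥ vc x ω

lemma qf_eq (B : Matrix ι ι ℝ) (f g : ι → Ω → ℝ) (ω : Ω) :
    vc f ω ⬝ᵥ (B *ᵥ vc g ω) = ∑ b, ∑ c, B b c * (f b ω * g c ω) := by
  simp only [dotProduct, mulVec, vc, Finset.mul_sum]
  exact Finset.sum_congr rfl fun b _ => Finset.sum_congr rfl fun c _ => by ring

lemma BM.qf (B : Matrix ι ι ℝ) {f g : ι → Ω → ℝ} (hf : ∀ a, BM (f a)) (hg : ∀ a, BM (g a)) :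
    BM (fun ω => vc f ω ⬝ᵥ (B *ᵥ vc g ω)) := by
  simp_rw [qf_eq]
  exact BM.sum _ fun b _ => BM.sum _ fun c _ => ((hf b).mul (hg c)).const_mul _

lemma int_qf [IsFiniteMeasure μ] (B : Matrix ι ι ℝ) {k : Ω → ℝ} {f g : ι → Ω → ℝ} (hk : BM k)
    (hf : ∀ a, BM (f a)) (hg : ∀ a, BM (g a)) :
    ∫ ω, k ω * (vc f ω ⬝ᵥ (B *ᵥ vc g ω)) ∂μ
      = ∑ b, ∑ c, B b c * ∫ ω, k ω * f b ω * g c ω ∂μ := by
  have e : ∀ ω, k ω * (vc f ω ⬝ᵥ (B *ᵥ vc g ω)) = ∑ b, ∑ c, B b c * (k ω * f b ω * g c ω) := by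
    intro ω
    rw [qf_eq, Finset.mul_sum]
    refine Finset.sum_congr rfl fun b _ => ?_
    rw [Finset.mul_sum]
    exact Finset.sum_congr rfl fun c _ => by ring
  simp_rw [e]
  have i1 : ∀ b c, BM (fun ω => B b c * (k ω * f b ω * g c ω)) := fun b c =>
    ((hk.mul (hf b)).mul (hg c)).const_mul (B b c)
  have i2 : ∀ b, BM (fun ω => ∑ c, B b c * (k ω * f b ω * g c ω)) := fun b =>
    BM.sum _ fun c _ => i1 b c
  refine (integral_finsetSum _ fun b _ => (i2 b).int).trans ?_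
  refine Finset.sum_congr rfl fun b _ => ?_
  refine (integral_finsetSum _ fun c _ => (i1 b c).int).trans ?_
  exact Finset.sum_congr rfl fun c _ => integral_const_mul _ _

lemma vecMul_symm {J : Matrix ι ι ℝ} (hJ : J.IsSymm) (v : ι → ℝ) : v ᵥ* J = J *ᵥ v := by
  rw [← Matrix.mulVec_transpose, hJ]

lemma dot_symm {J : Matrix ι ι ℝ} (hJ : J.IsSymm) (v w : ι → ℝ) :
    (J *ᵥ v) ⬝ᵥ w = v ⬝ᵥ (J *ᵥ w) := by
  rw [dotProduct_mulVec, vecMul_symm hJ]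

/-- the deviation of J from an involution -/
def Wm (J : Matrix ι ι ℝ) : Matrix ι ι ℝ := J * J - 1

lemma et_norm {J : Matrix ι ι ℝ} (hJ : J.IsSymm) {v n : ι → ℝ} (hv : v ⬝ᵥ v = 1)
    (hn : n ⬝ᵥ n = 1) :
    (n - J *ᵥ v) ⬝ᵥ (n - J *ᵥ v) = 2 + v ⬝ᵥ (Wm J *ᵥ v) - 2 * (n ⬝ᵥ (J *ᵥ v)) := by
  have h1 : (J *ᵥ v) ⬝ᵥ (J *ᵥ v) = v ⬝ᵥ (Wm J *ᵥ v) + 1 := by
    rw [dot_symm hJ, Wm, sub_mulVec, one_mulVec, dotProduct_sub, hv, mulVec_mulVec]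
    ring
  rw [sub_dotProduct, dotProduct_sub, dotProduct_sub, h1, hn, dotProduct_comm (J *ᵥ v) n]
  ring

lemma et_J {J : Matrix ι ι ℝ} (hJ : J.IsSymm) {v n : ι → ℝ} (hvn : n ⬝ᵥ v = 0) :
    (n - J *ᵥ v) ⬝ᵥ (J *ᵥ (n - J *ᵥ v)) = n ⬝ᵥ (J *ᵥ n) - 2 * (n ⬝ᵥ (Wm J *ᵥ v))
      + v ⬝ᵥ (J *ᵥ v) + v ⬝ᵥ ((J * Wm J) *ᵥ v) := by
  have h2 : (J *ᵥ v) ⬝ᵥ (J *ᵥ n) = n ⬝ᵥ (Wm J *ᵥ v) := by
    rw [dotProduct_comm, dot_symm hJ, Wm, sub_mulVec, one_mulVec, dotProduct_sub, hvn,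
      mulVec_mulVec]
    ring
  have h3 : n ⬝ᵥ (J *ᵥ (J *ᵥ v)) = n ⬝ᵥ (Wm J *ᵥ v) := by
    rw [Wm, sub_mulVec, one_mulVec, dotProduct_sub, hvn, mulVec_mulVec]
    ring
  have h4 : (J *ᵥ v) ⬝ᵥ (J *ᵥ (J *ᵥ v)) = v ⬝ᵥ (J *ᵥ v) + v ⬝ᵥ ((J * Wm J) *ᵥ v) := by
    rw [dot_symm hJ, Wm, mul_sub, mul_one, sub_mulVec, dotProduct_sub, mulVec_mulVec,
      mulVec_mulVec, Matrix.mul_assoc]
    ring
  rw [mulVec_sub, sub_dotProduct, dotProduct_sub, dotProduct_sub, h2, h3, h4]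
  ring

lemma et_W {J : Matrix ι ι ℝ} (hJ : J.IsSymm) {v n : ι → ℝ} :
    (n - J *ᵥ v) ⬝ᵥ (Wm J *ᵥ v) = n ⬝ᵥ (Wm J *ᵥ v) - v ⬝ᵥ ((J * Wm J) *ᵥ v) := by
  rw [sub_dotProduct, dot_symm hJ, mulVec_mulVec]

namespace T0Data

lemma vv (h : T0Data μ m x N) (ω : Ω) : vc x ω ⬝ᵥ vc x ω = 1 := by
  rw [← h.ux ω]
  exact Finset.sum_congr rfl fun a _ => (sq _).symm

lemma nn (h : T0Data μ m x N) (ω : Ω) : vc N ω ⬝ᵥ vc N ω = 1 := by
  rw [← h.uN ω]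
  exact Finset.sum_congr rfl fun a _ => (sq _).symm

lemma nv (h : T0Data μ m x N) (ω : Ω) : vc N ω ⬝ᵥ vc x ω = 0 := by
  rw [← h.xN ω]
  exact Finset.sum_congr rfl fun a _ => mul_comm _ _

/-- the mean normal identity -/
theorem mean_normal (h : T0Data μ m x N) (hm0 : m ≠ 0) (hm : m + 1 ≠ 0) {J : Matrix ι ι ℝ}
    (hJ : J.IsSymm) (a : ι) :
    m1 μ N a = 1 / 2 * ∫ ω, N a ω * (et J x N ω ⬝ᵥ et J x N ω) ∂μ
      + (m + 2) / m * ∫ ω, x a ω * (et J x N ω ⬝ᵥ (J *ᵥ et J x N ω)) ∂μ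
      + ((m + 2) / m - 1 / 2) * ∫ ω, N a ω * (vc x ω ⬝ᵥ (Wm J *ᵥ vc x ω)) ∂μ
      + (m + 2) / m * ∫ ω, x a ω * (et J x N ω ⬝ᵥ (Wm J *ᵥ vc x ω)) ∂μ
      + (m + 2) / (m * (m + 1)) * ((Wm J *ᵥ m1 μ N) a - m1 μ N a * (Wm J).trace) := by
  have := h.prob
  have bN := h.bN a
  have bx := h.bx a
  -- the six basic integrals
  have b1 := BM.qf J h.bN h.bx
  have b2 := BM.qf (Wm J) h.bx h.bx
  have b3 := BM.qf J h.bN h.bN
  have b4 := BM.qf J h.bx h.bx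
  have b5 := BM.qf (Wm J) h.bN h.bx
  have b6 := BM.qf (J * Wm J) h.bx h.bx
  set I1 : ℝ := ∫ ω, N a ω * (vc N ω ⬝ᵥ (J *ᵥ vc x ω)) ∂μ with hI1
  set I2 : ℝ := ∫ ω, N a ω * (vc x ω ⬝ᵥ (Wm J *ᵥ vc x ω)) ∂μ with hI2
  set I3 : ℝ := ∫ ω, x a ω * (vc N ω ⬝ᵥ (J *ᵥ vc N ω)) ∂μ with hI3
  set I4 : ℝ := ∫ ω, x a ω * (vc x ω ⬝ᵥ (J *ᵥ vc x ω)) ∂μ with hI4
  set I5 : ℝ := ∫ ω, x a ω * (vc N ω ⬝ᵥ (Wm J *ᵥ vc x ω)) ∂μ with hI5
  set I6 : ℝ := ∫ ω, x a ω * (vc x ω ⬝ᵥ ((J * Wm J) *ᵥ vc x ω)) ∂μ with hI6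
  have k1 : ∫ ω, N a ω * (et J x N ω ⬝ᵥ et J x N ω) ∂μ = 2 * m1 μ N a + I2 - 2 * I1 := by
    have e : ∀ ω, N a ω * (et J x N ω ⬝ᵥ et J x N ω)
        = 2 * N a ω + N a ω * (vc x ω ⬝ᵥ (Wm J *ᵥ vc x ω))
          - 2 * (N a ω * (vc N ω ⬝ᵥ (J *ᵥ vc x ω))) := by
      intro ω
      unfold et
      rw [et_norm hJ (h.vv ω) (h.nn ω)]
      ring
    simp_rw [e]
    rw [integral_sub ((bN.const_mul 2).add (bN.mul b2)).int ((bN.mul b1).const_mul 2).int,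
      integral_add (bN.const_mul 2).int (bN.mul b2).int, integral_const_mul, integral_const_mul]
    rfl
  have k2 : ∫ ω, x a ω * (et J x N ω ⬝ᵥ (J *ᵥ et J x N ω)) ∂μ = I3 - 2 * I5 + I4 + I6 := by
    have e : ∀ ω, x a ω * (et J x N ω ⬝ᵥ (J *ᵥ et J x N ω))
        = x a ω * (vc N ω ⬝ᵥ (J *ᵥ vc N ω)) - 2 * (x a ω * (vc N ω ⬝ᵥ (Wm J *ᵥ vc x ω)))
          + x a ω * (vc x ω ⬝ᵥ (J *ᵥ vc x ω)) + x a ω * (vc x ω ⬝ᵥ ((J * Wm J) *ᵥ vc x ω)) := by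
      intro ω
      unfold et
      rw [et_J hJ (h.nv ω)]
      ring
    simp_rw [e]
    rw [integral_add (((bx.mul b3).sub ((bx.mul b5).const_mul 2)).add (bx.mul b4)).int
      (bx.mul b6).int, integral_add ((bx.mul b3).sub ((bx.mul b5).const_mul 2)).int
      (bx.mul b4).int, integral_sub (bx.mul b3).int ((bx.mul b5).const_mul 2).int,
      integral_const_mul]
  have k3 : ∫ ω, x a ω * (et J x N ω ⬝ᵥ (Wm J *ᵥ vc x ω)) ∂μ = I5 - I6 := by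
    have e : ∀ ω, x a ω * (et J x N ω ⬝ᵥ (Wm J *ᵥ vc x ω))
        = x a ω * (vc N ω ⬝ᵥ (Wm J *ᵥ vc x ω)) - x a ω * (vc x ω ⬝ᵥ ((J * Wm J) *ᵥ vc x ω)) := by
      intro ω
      unfold et
      rw [et_W hJ]
      ring
    simp_rw [e]
    rw [integral_sub (bx.mul b5).int (bx.mul b6).int]
  -- relations
  have q1 : I1 = -((m + 2) / 2) * I4 := by
    rw [hI1, hI4, int_qf J bN h.bN h.bx, int_qf J bx h.bx h.bx, Finset.mul_sum]
    refine Finset.sum_congr rfl fun b _ => ?_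
    rw [Finset.mul_sum]
    refine Finset.sum_congr rfl fun c _ => ?_
    have := h.NNx a b c
    unfold m3 at this
    rw [this]
    ring
  have q3 : I3 = -((m + 2) / 2) * I4 := by
    rw [hI3, hI4, int_qf J bx h.bN h.bN, int_qf J bx h.bx h.bx, Finset.mul_sum]
    refine Finset.sum_congr rfl fun b _ => ?_
    rw [Finset.mul_sum]
    refine Finset.sum_congr rfl fun c _ => ?_
    have h1 := h.NNx b c a
    have e1 : ∫ ω, x a ω * N b ω * N c ω ∂μ = m3 μ N N x b c a :=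
      integral_congr_ae (Eventually.of_forall fun ω => by ring)
    have e2 : ∫ ω, x a ω * x b ω * x c ω ∂μ = m3 μ x x x b c a :=
      integral_congr_ae (Eventually.of_forall fun ω => by ring)
    rw [e1, e2, h1]
    ring
  have q5 : (m + 1) * (I2 - I5) = m1 μ N a * (Wm J).trace - (Wm J *ᵥ m1 μ N) a := by
    rw [hI2, hI5, int_qf (Wm J) bN h.bx h.bx, int_qf (Wm J) bx h.bN h.bx, ← Finset.sum_sub_distrib,
      Finset.mul_sum]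
    have e : ∀ b, (m + 1) * (∑ c, Wm J b c * ∫ ω, N a ω * x b ω * x c ω ∂μ
        - ∑ c, Wm J b c * ∫ ω, x a ω * N b ω * x c ω ∂μ)
        = m1 μ N a * Wm J b b - m1 μ N b * Wm J b a := by
      intro b
      rw [← Finset.sum_sub_distrib, Finset.mul_sum]
      have e1 : ∀ c, (m + 1) * (Wm J b c * ∫ ω, N a ω * x b ω * x c ω ∂μ
          - Wm J b c * ∫ ω, x a ω * N b ω * x c ω ∂μ)
          = Wm J b c * (m1 μ N a * (if b = c then 1 else 0)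
            - m1 μ N b * (if a = c then 1 else 0)) := by
        intro c
        have h1 := h.Nxx_sub a b c
        have e2 : ∫ ω, x a ω * N b ω * x c ω ∂μ = m3 μ N x x b a c :=
          integral_congr_ae (Eventually.of_forall fun ω => by ring)
        rw [← h1, e2]
        unfold m3
        ring
      simp_rw [e1]
      simp only [mul_sub, Finset.sum_sub_distrib, mul_ite, mul_one, mul_zero, Finset.sum_ite_eq,
        Finset.mem_univ, if_true]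
      ring
    simp_rw [e]
    rw [Finset.sum_sub_distrib, ← Finset.mul_sum]
    congr 1
    simp only [mulVec, dotProduct]
    refine Finset.sum_congr rfl fun b _ => ?_
    have hs : Wm J b a = Wm J a b := by
      have : (Wm J).IsSymm := by
        unfold Wm Matrix.IsSymm
        rw [transpose_sub, transpose_mul, hJ, transpose_one]
      exact this.apply a b
    rw [hs]
    ring
  rw [k1, k2, k3, q1, q3]
  have q6 : (Wm J *ᵥ m1 μ N) a - m1 μ N a * (Wm J).trace = -((m + 1) * (I2 - I5)) := by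
    rw [q5]; ring
  rw [q6]
  field_simp
  ring

end T0Data

end

end Vale.Agent.P224.R2.H728
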