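import Vale.Agent.P224.R2.H728.Nc
import Vale.Agent.P224.R2.H579.ELaw

/-!
The mean normal law on a box, with a rational checker.
-/

namespace Vale.Agent.P224.R2.H728

open MeasureTheory Set Filter Function Real Finset Matrix Vale.Agent.P224.R2.H582
open Vale.Agent.P224.R2.H579

set_option linter.unusedSectionVars false

/-- the loss -/
def EwQ (δ η : ℚ) : ℚ := η + ((δ + η) ^ 2 + η * (δ + η)) / (1 - δ)

/-- the conditions for the bound of the mean normal on a box -/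
def e7OK (m : ℚ) (f : ElQ) (ρ T : ℚ) : Bool :=
  decide (0 < m) && decide (0 ≤ f.d) && decide (f.d < 1) && decide (0 < ρ)
    && decide (1 + (m + 2) * (f.d / (1 - f.d)) ≤ ρ ^ 2) && decide (ρ ^ 2 + 2 * ρ ≤ (m + 2) / 2)
    && decide (0 ≤ T)
    && decide (f.d ^ 2 * (m + 2 + f.d * ((m + 2) * ((f.d + f.h) / (1 - f.d))))
      ≤ ((m + 1) * T) ^ 2)
    && decide (T / 2 + 4 * EwQ f.d f.h / (m + 1) ≤ (m - 4) / ((m + 1) * (m + 4)))
    && decide (0 ≤ f.L)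
    && decide (f.L ≤ m / (m + 1) - (m - 4) / ((m + 1) * (m + 4)) - T / 2
      - 2 * EwQ f.d f.h * (m + 2) / (m + 1))
    && decide (1 + ρ ≤ f.K)

section

variable {ι Ω : Type*} [Fintype ι] [DecidableEq ι] [MeasurableSpace Ω] {μ : Measure Ω}
  {x N : ι → Ω → ℝ} {j : ι → ℝ}

lemma Ew_cast (δ η : ℚ) : ((EwQ δ η : ℚ) : ℝ) = Ew δ η := by
  unfold EwQ Ew
  push_cast
  ring

/-- soundness -/
theorem e7_sound {m : ℚ} {f : ElQ} {ρ T : ℚ} (hok : e7OK m f ρ T = true)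
    (h : T0Data μ (m : ℝ) x N) (hL : LSq μ (diagonal j) x N)
    (hd : √(fro (De μ x N)) ≤ f.d) (hh' : hh μ (diagonal j) x N ≤ f.h) :
    f.L * √(uu μ N) ≤ f.K * hh μ (diagonal j) x N := by
  simp only [e7OK, Bool.and_eq_true, decide_eq_true_eq] at hok
  obtain ⟨⟨⟨⟨⟨⟨⟨⟨⟨⟨⟨hm, hd0⟩, hd1⟩, hρ⟩, hρ2⟩, hρm⟩, hT0⟩, hT⟩, hc⟩, hL0⟩, hLe⟩, hK⟩ := hok
  have hmR : (0 : ℝ) < m := by exact_mod_cast hm
  have hd0R : (0 : ℝ) ≤ f.d := by exact_mod_cast hd0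
  have hd1R : (f.d : ℝ) < 1 := by exact_mod_cast hd1
  have hρR : (0 : ℝ) < ρ := by exact_mod_cast hρ
  have hT0R : (0 : ℝ) ≤ T := by exact_mod_cast hT0
  have hL0R : (0 : ℝ) ≤ f.L := by exact_mod_cast hL0
  have hρ2R : 1 + ((m : ℝ) + 2) * ((f.d : ℝ) / (1 - f.d)) ≤ (ρ : ℝ) ^ 2 := by
    exact_mod_cast hρ2
  have hρmR : (ρ : ℝ) ^ 2 + 2 * ρ ≤ ((m : ℝ) + 2) / 2 := by exact_mod_cast hρm
  have hTR : (f.d : ℝ) ^ 2 * (m + 2 + f.d * (((m : ℝ) + 2) * ((f.d + f.h) / (1 - f.d))))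
      ≤ (((m : ℝ) + 1) * T) ^ 2 := by exact_mod_cast hT
  have hcR : (T : ℝ) / 2 + 4 * Ew f.d f.h / (m + 1) ≤ (m - 4) / ((m + 1) * (m + 4)) := by
    rw [← Ew_cast]
    exact_mod_cast hc
  have hLeR : (f.L : ℝ) ≤ m / (m + 1) - (m - 4) / ((m + 1) * (m + 4)) - T / 2
      - 2 * Ew f.d f.h * (m + 2) / (m + 1) := by
    rw [← Ew_cast]
    exact_mod_cast hLe
  have hKR : (1 : ℝ) + ρ ≤ f.K := by exact_mod_cast hK
  have hH0 : 0 ≤ hh μ (diagonal j) x N := h.hh_nonneg _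
  have hh0 : (0 : ℝ) ≤ f.h := hH0.trans hh'
  have h1d : (0 : ℝ) < 1 - f.d := by linarith
  have hf0 : 0 ≤ fro (De μ x N) := fro_nonneg _
  have hfb : fro (De μ x N) ≤ (f.d : ℝ) ^ 2 := by
    rw [← Real.sq_sqrt hf0]
    exact pow_le_pow_left₀ (Real.sqrt_nonneg _) hd 2
  have hω0 : 0 ≤ ((m : ℝ) + 2) * ((f.d + f.h) / (1 - f.d)) := by positivity
  have hwf : ∑ b, (j b ^ 2 - 1) ^ 2 ≤ (((m : ℝ) + 2) * ((f.d + f.h) / (1 - f.d))) ^ 2 := by
    refine (h.w_fro hmR.le hL hd0R hd1R hfb).trans ?_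
    refine pow_le_pow_left₀ (by positivity) ?_ 2
    gcongr
  have k1 := tr_le h hmR hL hd0R hfb hω0 hwf hT0R hTR
  have k2 := e_law_closed h hmR hL hd0R hd1R hfb hh' hρR hρ2R hρmR k1 hcR (hL0R.trans hLeR)
  have hu : 0 ≤ √(uu μ N) := Real.sqrt_nonneg _
  calc (f.L : ℝ) * √(uu μ N) ≤ (m / (m + 1) - (m - 4) / ((m + 1) * (m + 4)) - T / 2
      - 2 * Ew f.d f.h * (m + 2) / (m + 1)) * √(uu μ N) := mul_le_mul_of_nonneg_right hLeR hu
    _ ≤ (1 + ρ) * hh μ (diagonal j) x N := k2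
    _ ≤ f.K * hh μ (diagonal j) x N := mul_le_mul_of_nonneg_right hKR hH0

/-- the list of boxes with the data for the check -/
def e7All (m : ℚ) : List (ElQ × ℚ × ℚ) → Bool
  | [] => true
  | (f, ρ, T) :: l => e7OK m f ρ T && e7All m l

theorem e7All_sound {m : ℚ} (l : List (ElQ × ℚ × ℚ)) (hok : e7All m l = true)
    (h : T0Data μ (m : ℝ) x N) (hL : LSq μ (diagonal j) x N) :
    ∀ f ∈ l.map Prod.fst, √(fro (De μ x N)) ≤ f.d → hh μ (diagonal j) x N ≤ f.h →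
      f.L * √(uu μ N) ≤ f.K * hh μ (diagonal j) x N := by
  induction l with
  | nil => intro f hf; simp at hf
  | cons c l ih =>
    obtain ⟨g, ρ, T⟩ := c
    simp only [e7All, Bool.and_eq_true] at hok
    intro f hf
    simp only [List.map_cons, List.mem_cons] at hf
    rcases hf with hf | hf
    · subst hf
      exact e7_sound hok.1 h hL
    · exact ih hok.2 f hf

end

end Vale.Agent.P224.R2.H728
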