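import Vale.Agent.P224.R2.H728.T0n

/-!
The scalar relations in the eigenbasis.
-/

namespace Vale.Agent.P224.R2.H728

open MeasureTheory Set Filter Function Real Finset Matrix

set_option linter.unusedSectionVars false

section

variable {ι Ω : Type*} [Fintype ι] [DecidableEq ι] [MeasurableSpace Ω] {μ : Measure Ω}
  {m : ℝ} {x N : ι → Ω → ℝ} {j : ι → ℝ}

variable (μ) in
/-- diagonal deviation -/
noncomputable def dd (x N : ι → Ω → ℝ) (a : ι) : ℝ := m2 μ N N a a - m2 μ x x a a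

variable (μ) in
/-- diagonal defect covariance -/
noncomputable def ss (j : ι → ℝ) (x N : ι → Ω → ℝ) (a : ι) : ℝ :=
  m2 μ (zd j x N) (zd j x N) a a

namespace T0Data

variable (h : T0Data μ m x N)
include h

lemma ss_nonneg (j : ι → ℝ) (a : ι) : 0 ≤ ss μ j x N a :=
  integral_nonneg fun ω => mul_self_nonneg _

lemma G_eq (a : ι) : (m + 2) * m2 μ x x a a = 1 - dd μ x N a := by
  have h1 := h.GP a a
  rw [if_pos rfl] at h1
  unfold dd
  linarith

lemma P_eq (a : ι) : (m + 2) * m2 μ N N a a = 1 + (m + 1) * dd μ x N a := by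
  have h1 := h.GP a a
  have h2 := h.G_eq a
  rw [if_pos rfl] at h1
  unfold dd at *
  linarith

lemma dd_le_one (hm : 0 ≤ m) (a : ι) : dd μ x N a ≤ 1 := by
  have h1 := h.G_eq a
  have h2 : 0 ≤ m2 μ x x a a := integral_nonneg fun ω => mul_self_nonneg _
  nlinarith

lemma neg_le_dd (hm : 0 ≤ m) (a : ι) : -1 ≤ (m + 1) * dd μ x N a := by
  have h1 := h.P_eq a
  have h2 : 0 ≤ m2 μ N N a a := integral_nonneg fun ω => mul_self_nonneg _
  nlinarith

lemma sum_dd : ∑ a, dd μ x N a = 0 := by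
  unfold dd
  rw [Finset.sum_sub_distrib, h.trP, h.trG, sub_self]

lemma sum_ss (j : ι → ℝ) : ∑ a, ss μ j x N a = hh μ (Matrix.diagonal j) x N := by
  rw [h.hh_eq, ze_diag]
  rfl

lemma zx_zero (hL : LSq μ (Matrix.diagonal j) x N) (a : ι) : m2 μ (zd j x N) x a a = 0 := by
  have h1 := hL a a
  rw [ze_diag] at h1
  linarith

/-- `E N_a x_a = j_a E x_a^2` -/
lemma C_eq (hL : LSq μ (Matrix.diagonal j) x N) (a : ι) :
    m2 μ N x a a = j a * m2 μ x x a a := by
  have := h.prob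
  have h1 := h.zx_zero hL a
  have e : m2 μ (zd j x N) x a a = m2 μ N x a a - j a * m2 μ x x a a := by
    unfold m2
    rw [← integral_const_mul, ← integral_sub ((h.bN a).mul (h.bx a)).int
      (((h.bx a).mul (h.bx a)).const_mul _).int]
    refine integral_congr_ae (Eventually.of_forall fun ω => ?_)
    simp only [zd]
    ring
  rw [e] at h1
  linarith

lemma P_ss (hL : LSq μ (Matrix.diagonal j) x N) (a : ι) :
    m2 μ N N a a = j a ^ 2 * m2 μ x x a a + ss μ j x N a := by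
  have := h.prob
  have h1 := h.C_eq hL a
  have bN := h.bN a
  have bx := h.bx a
  have e : ss μ j x N a = m2 μ N N a a - 2 * j a * m2 μ N x a a + j a ^ 2 * m2 μ x x a a := by
    unfold ss m2
    rw [← integral_const_mul, ← integral_const_mul, ← integral_sub (bN.mul bN).int
      ((bN.mul bx).const_mul _).int, ← integral_add ((bN.mul bN).sub
      ((bN.mul bx).const_mul _)).int ((bx.mul bx).const_mul _).int]
    refine integral_congr_ae (Eventually.of_forall fun ω => ?_)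
    simp only [zd]
    ring
  rw [e, h1]
  ring

/-- the weights in terms of the deviation -/
theorem w_eq (hL : LSq μ (Matrix.diagonal j) x N) (a : ι) :
    (j a ^ 2 - 1) * (1 - dd μ x N a) = (m + 2) * (dd μ x N a - ss μ j x N a) := by
  have h1 := h.G_eq a
  have h2 := h.P_ss hL a
  rw [← h1]
  have h3 : dd μ x N a = m2 μ N N a a - m2 μ x x a a := rfl
  rw [h3, h2]
  ring

/-- the trace of the least squares matrix -/
theorem j_sum (hL : LSq μ (Matrix.diagonal j) x N) : ∑ a, j a * (1 - dd μ x N a) = 0 := by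
  have h1 := h.trC
  have h2 : ∀ a, j a * (1 - dd μ x N a) = (m + 2) * m2 μ N x a a := fun a => by
    rw [h.C_eq hL, ← h.G_eq a]
    ring
  simp_rw [h2]
  rw [← Finset.mul_sum, h1, mul_zero]

/-- bounds in terms of the Frobenius norm of the deviation -/
lemma sum_dd_sq : ∑ a, dd μ x N a ^ 2 ≤ fro (De μ x N) := by
  unfold fro
  refine Finset.sum_le_sum fun a _ => ?_
  refine Finset.single_le_sum (f := fun b => De μ x N a b ^ 2) (fun b _ => sq_nonneg _)
    (Finset.mem_univ a)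

lemma abs_dd_le {δ : ℝ} (hδ : 0 ≤ δ) (hf : fro (De μ x N) ≤ δ ^ 2) (a : ι) :
    |dd μ x N a| ≤ δ := by
  have h1 := h.sum_dd_sq
  have h2 : dd μ x N a ^ 2 ≤ ∑ a, dd μ x N a ^ 2 :=
    Finset.single_le_sum (f := fun a => dd μ x N a ^ 2) (fun b _ => sq_nonneg _)
      (Finset.mem_univ a)
  exact abs_le_of_sq_le_sq (h2.trans (h1.trans hf)) hδ

/-- the weights are bounded -/
theorem w_le (hm : 0 ≤ m) (hL : LSq μ (Matrix.diagonal j) x N) {δ : ℝ} (hδ : 0 ≤ δ) (hδ1 : δ < 1)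
    (hf : fro (De μ x N) ≤ δ ^ 2) (a : ι) : j a ^ 2 - 1 ≤ (m + 2) * (δ / (1 - δ)) := by
  have h1 := h.w_eq hL a
  have h2 := h.abs_dd_le hδ hf a
  have h3 := h.ss_nonneg j a
  have h4 : dd μ x N a ≤ δ := (le_abs_self _).trans h2
  have h5 : 0 < 1 - dd μ x N a := by linarith
  have h6 : (1 - δ) * (j a ^ 2 - 1) ≤ (m + 2) * δ := by
    by_cases hw : 0 ≤ j a ^ 2 - 1
    · nlinarith
    · push Not at hw
      have : (1 - δ) * (j a ^ 2 - 1) ≤ 0 := by nlinarith
      have : 0 ≤ (m + 2) * δ := by positivity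
      linarith
  have h7 : (0 : ℝ) < 1 - δ := by linarith
  rw [← mul_div_assoc, le_div_iff₀ h7]
  linarith

/-- the Frobenius norm of the weights -/
theorem w_fro (hm : 0 ≤ m) (hL : LSq μ (Matrix.diagonal j) x N) {δ : ℝ} (hδ : 0 ≤ δ) (hδ1 : δ < 1)
    (hf : fro (De μ x N) ≤ δ ^ 2) :
    ∑ a, (j a ^ 2 - 1) ^ 2
      ≤ ((m + 2) * ((δ + hh μ (Matrix.diagonal j) x N) / (1 - δ))) ^ 2 := by
  set η := hh μ (Matrix.diagonal j) x N with hη
  have h7 : (0 : ℝ) < 1 - δ := by linarith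
  have hη0 : 0 ≤ η := h.hh_nonneg _
  have e1 : ∀ a, (1 - δ) ^ 2 * (j a ^ 2 - 1) ^ 2
      ≤ (m + 2) ^ 2 * (dd μ x N a - ss μ j x N a) ^ 2 := by
    intro a
    have h1 := h.w_eq hL a
    have h2 := h.abs_dd_le hδ hf a
    have h4 : dd μ x N a ≤ δ := (le_abs_self _).trans h2
    have h5 : (1 - δ) ^ 2 ≤ (1 - dd μ x N a) ^ 2 := by
      apply pow_le_pow_left₀ h7.le
      linarith
    calc (1 - δ) ^ 2 * (j a ^ 2 - 1) ^ 2 ≤ (1 - dd μ x N a) ^ 2 * (j a ^ 2 - 1) ^ 2 :=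
          mul_le_mul_of_nonneg_right h5 (sq_nonneg _)
      _ = (m + 2) ^ 2 * (dd μ x N a - ss μ j x N a) ^ 2 := by
          rw [← mul_pow, mul_comm (1 - dd μ x N a), h1, mul_pow]
  have e2 : ∑ a, (dd μ x N a - ss μ j x N a) ^ 2 ≤ (δ + η) ^ 2 := by
    have k1 : ∑ a, dd μ x N a ^ 2 ≤ δ ^ 2 := h.sum_dd_sq.trans hf
    have k2 : ∑ a, ss μ j x N a ^ 2 ≤ η ^ 2 := by
      rw [hη, ← h.sum_ss j]
      exact Finset.sum_sq_le_sq_sum_of_nonneg fun a _ => h.ss_nonneg j a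
    have k3 : (∑ a, dd μ x N a * ss μ j x N a) ^ 2 ≤ δ ^ 2 * η ^ 2 :=
      (Finset.sum_mul_sq_le_sq_mul_sq _ _ _).trans
        (mul_le_mul k1 k2 (Finset.sum_nonneg fun _ _ => sq_nonneg _) (sq_nonneg _))
    have k4 : -(δ * η) ≤ ∑ a, dd μ x N a * ss μ j x N a := by
      rw [← mul_pow] at k3
      exact (abs_le.1 (abs_le_of_sq_le_sq k3 (by positivity))).1
    have k5 : ∑ a, (dd μ x N a - ss μ j x N a) ^ 2
        = ∑ a, dd μ x N a ^ 2 - 2 * ∑ a, dd μ x N a * ss μ j x N a + ∑ a, ss μ j x N a ^ 2 := by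
      rw [Finset.mul_sum, ← Finset.sum_sub_distrib, ← Finset.sum_add_distrib]
      exact Finset.sum_congr rfl fun a _ => by ring
    rw [k5]
    nlinarith
  have e3 : (1 - δ) ^ 2 * ∑ a, (j a ^ 2 - 1) ^ 2 ≤ (m + 2) ^ 2 * (δ + η) ^ 2 := by
    rw [Finset.mul_sum]
    refine (Finset.sum_le_sum fun a _ => e1 a).trans ?_
    rw [← Finset.mul_sum]
    exact mul_le_mul_of_nonneg_left e2 (sq_nonneg _)
  have e4 : ((m + 2) * ((δ + η) / (1 - δ))) ^ 2 = (m + 2) ^ 2 * (δ + η) ^ 2 / (1 - δ) ^ 2 := by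
    field_simp
  rw [e4, le_div_iff₀ (by positivity)]
  linarith

/-- lower bound of the trace of the weights -/
theorem w_tr_ge (hm : 0 ≤ m) (hL : LSq μ (Matrix.diagonal j) x N) {δ : ℝ} (hδ : 0 ≤ δ)
    (hδ1 : δ < 1) (hf : fro (De μ x N) ≤ δ ^ 2) :
    -((m + 2) * (hh μ (Matrix.diagonal j) x N / (1 - δ))) ≤ ∑ a, (j a ^ 2 - 1) := by
  have h7 : (0 : ℝ) < 1 - δ := by linarith
  have e1 : ∀ a, (m + 2) * (dd μ x N a) - (m + 2) / (1 - δ) * ss μ j x N a ≤ j a ^ 2 - 1 := by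
    intro a
    have h1 := h.w_eq hL a
    have h2 := h.abs_dd_le hδ hf a
    have h3 := h.ss_nonneg j a
    have h4 : dd μ x N a ≤ δ := (le_abs_self _).trans h2
    set d := dd μ x N a
    set s := ss μ j x N a
    have h5 : 0 < 1 - d := by linarith
    have e : j a ^ 2 - 1 = (m + 2) * (d - s) / (1 - d) := by
      rw [eq_div_iff h5.ne', h1]
    rw [e, le_div_iff₀ h5]
    have k1 : (m + 2) / (1 - δ) * s * (1 - d) ≥ (m + 2) * s := by
      have : (m + 2) / (1 - δ) * s * (1 - d) = (m + 2) * s * ((1 - d) / (1 - δ)) := by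
        field_simp
      rw [this]
      have k2 : 1 ≤ (1 - d) / (1 - δ) := by
        rw [le_div_iff₀ h7]; linarith
      have k3 : 0 ≤ (m + 2) * s := by positivity
      nlinarith
    have k4 : (m + 2) * d * (1 - d) ≤ (m + 2) * d := by nlinarith [sq_nonneg d]
    nlinarith
  have e2 := Finset.sum_le_sum fun a (_ : a ∈ Finset.univ) => e1 a
  rw [Finset.sum_sub_distrib, ← Finset.mul_sum, ← Finset.mul_sum, h.sum_dd, h.sum_ss, mul_zero,
    zero_sub] at e2
  refine le_trans (le_of_eq ?_) e2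
  ring

/-- upper bound of the trace of the weights -/
theorem w_tr_le (hm : 0 ≤ m) (hL : LSq μ (Matrix.diagonal j) x N) {δ ω : ℝ} (hδ : 0 ≤ δ)
    (hf : fro (De μ x N) ≤ δ ^ 2) (hω : 0 ≤ ω) (hw : ∑ a, (j a ^ 2 - 1) ^ 2 ≤ ω ^ 2) :
    ∑ a, (j a ^ 2 - 1) ≤ δ * ω := by
  have e1 : ∑ a, (j a ^ 2 - 1) = ∑ a, dd μ x N a * (j a ^ 2 - 1)
      - (m + 2) * hh μ (Matrix.diagonal j) x N := by
    have k : ∀ a, j a ^ 2 - 1 = dd μ x N a * (j a ^ 2 - 1)
        + ((m + 2) * dd μ x N a - (m + 2) * ss μ j x N a) := fun a => by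
      have h1 := h.w_eq hL a
      linarith
    calc ∑ a, (j a ^ 2 - 1) = ∑ a, (dd μ x N a * (j a ^ 2 - 1)
        + ((m + 2) * dd μ x N a - (m + 2) * ss μ j x N a)) :=
          Finset.sum_congr rfl fun a _ => k a
      _ = _ := by
        rw [Finset.sum_add_distrib, Finset.sum_sub_distrib, ← Finset.mul_sum, ← Finset.mul_sum,
          h.sum_dd, h.sum_ss]
        ring
  have e2 : (∑ a, dd μ x N a * (j a ^ 2 - 1)) ^ 2 ≤ (δ * ω) ^ 2 := by
    rw [mul_pow]
    exact (Finset.sum_mul_sq_le_sq_mul_sq _ _ _).trans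
      (mul_le_mul (h.sum_dd_sq.trans hf) hw (Finset.sum_nonneg fun _ _ => sq_nonneg _)
        (sq_nonneg _))
  have e3 := (abs_le.1 (abs_le_of_sq_le_sq e2 (by positivity))).2
  have e4 : 0 ≤ (m + 2) * hh μ (Matrix.diagonal j) x N :=
    mul_nonneg (by linarith) (h.hh_nonneg _)
  linarith

/-- bound of the trace of the least squares matrix -/
theorem j_tr_sq (hm : 0 ≤ m) (hL : LSq μ (Matrix.diagonal j) x N) {δ ω : ℝ} (hδ : 0 ≤ δ)
    (hf : fro (De μ x N) ≤ δ ^ 2) (hω : 0 ≤ ω) (hw : ∑ a, (j a ^ 2 - 1) ^ 2 ≤ ω ^ 2) :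
    (∑ a, j a) ^ 2 ≤ δ ^ 2 * (m + 2 + δ * ω) := by
  have e1 : ∑ a, j a = ∑ a, dd μ x N a * j a := by
    have := h.j_sum hL
    have k : ∑ a, j a * (1 - dd μ x N a) = ∑ a, j a - ∑ a, dd μ x N a * j a := by
      rw [← Finset.sum_sub_distrib]
      exact Finset.sum_congr rfl fun a _ => by ring
    rw [k] at this
    linarith
  have e2 : ∑ a, j a ^ 2 ≤ m + 2 + δ * ω := by
    have := h.w_tr_le hm hL hδ hf hω hw
    have k : ∑ a, (j a ^ 2 - 1) = ∑ a, j a ^ 2 - (m + 2) := by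
      rw [Finset.sum_sub_distrib, Finset.sum_const, nsmul_eq_mul, mul_one, ← h.card]
      rfl
    rw [k] at this
    linarith
  rw [e1]
  exact (Finset.sum_mul_sq_le_sq_mul_sq _ _ _).trans
    (mul_le_mul (h.sum_dd_sq.trans hf) e2 (Finset.sum_nonneg fun _ _ => sq_nonneg _)
      (sq_nonneg _))

end T0Data

end

end Vale.Agent.P224.R2.H728
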