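import Vale.Agent.P224.R2.H728.T0d

/-!
Bounds for quadratic forms of the position vector.
-/

namespace Vale.Agent.P224.R2.H728

open MeasureTheory Set Filter Function Real Finset Matrix

set_option linter.unusedSectionVars false

section

variable {ι Ω : Type*} [Fintype ι] [DecidableEq ι] [MeasurableSpace Ω] {μ : Measure Ω}
  {m : ℝ} {x N : ι → Ω → ℝ}

/-- squared Frobenius norm -/
def fro (A : Matrix ι ι ℝ) : ℝ := ∑ a, ∑ b, A a b ^ 2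

lemma fro_nonneg (A : Matrix ι ι ℝ) : 0 ≤ fro A :=
  Finset.sum_nonneg fun _ _ => Finset.sum_nonneg fun _ _ => sq_nonneg _

/-- `int f g h k` against two matrices -/
lemma int_qf2 [IsFiniteMeasure μ] (A B : Matrix ι ι ℝ) {f g k l : ι → Ω → ℝ}
    (hf : ∀ a, BM (f a)) (hg : ∀ a, BM (g a)) (hk : ∀ a, BM (k a)) (hl : ∀ a, BM (l a)) :
    ∫ ω, (vc f ω ⬝ᵥ (A *ᵥ vc g ω)) * (vc k ω ⬝ᵥ (B *ᵥ vc l ω)) ∂μ
      = ∑ a, ∑ b, ∑ c, ∑ d, A a b * B c d * ∫ ω, f a ω * g b ω * k c ω * l d ω ∂μ := by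
  have e : ∀ ω, (vc f ω ⬝ᵥ (A *ᵥ vc g ω)) * (vc k ω ⬝ᵥ (B *ᵥ vc l ω))
      = ∑ a, ∑ b, A a b * ((f a ω * g b ω) * (vc k ω ⬝ᵥ (B *ᵥ vc l ω))) := by
    intro ω
    rw [qf_eq A f g, Finset.sum_mul]
    refine Finset.sum_congr rfl fun b _ => ?_
    rw [Finset.sum_mul]
    exact Finset.sum_congr rfl fun c _ => by ring
  simp_rw [e]
  have i1 : ∀ a b, BM (fun ω => A a b * ((f a ω * g b ω) * (vc k ω ⬝ᵥ (B *ᵥ vc l ω)))) :=
    fun a b => (((hf a).mul (hg b)).mul (BM.qf B hk hl)).const_mul (A a b)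
  have i2 : ∀ a, BM (fun ω => ∑ b, A a b * ((f a ω * g b ω) * (vc k ω ⬝ᵥ (B *ᵥ vc l ω)))) :=
    fun a => BM.sum _ fun b _ => i1 a b
  refine (integral_finsetSum _ fun a _ => (i2 a).int).trans ?_
  refine Finset.sum_congr rfl fun a _ => ?_
  refine (integral_finsetSum _ fun b _ => (i1 a b).int).trans ?_
  refine Finset.sum_congr rfl fun b _ => ?_
  rw [integral_const_mul, int_qf B ((hf a).mul (hg b)) hk hl, Finset.mul_sum]
  refine Finset.sum_congr rfl fun c _ => ?_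
  rw [Finset.mul_sum]
  exact Finset.sum_congr rfl fun d _ => by ring

lemma int_qf1 [IsFiniteMeasure μ] (A : Matrix ι ι ℝ) {f g : ι → Ω → ℝ}
    (hf : ∀ a, BM (f a)) (hg : ∀ a, BM (g a)) :
    ∫ ω, vc f ω ⬝ᵥ (A *ᵥ vc g ω) ∂μ = ∑ a, ∑ b, A a b * m2 μ f g a b := by
  have := int_qf (μ := μ) A (BM.const (Ω := Ω) 1) hf hg
  simp only [one_mul] at this
  exact this

lemma mulVec_dot_mulVec {A : Matrix ι ι ℝ} (hA : A.IsSymm) (v : ι → ℝ) :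
    (A *ᵥ v) ⬝ᵥ (A *ᵥ v) = v ⬝ᵥ ((A * A) *ᵥ v) := by
  rw [dot_symm hA, mulVec_mulVec]

lemma tr_mul_self {A : Matrix ι ι ℝ} (hA : A.IsSymm) : ∑ a, (A * A) a a = fro A := by
  unfold fro
  refine Finset.sum_congr rfl fun a _ => ?_
  rw [Matrix.mul_apply]
  refine Finset.sum_congr rfl fun b _ => ?_
  rw [hA.apply a b, sq]

namespace T0Data

/-- the row of order four against a symmetric matrix -/
theorem quad_row (h : T0Data μ m x N) {A : Matrix ι ι ℝ} (hA : A.IsSymm) :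
    (m + 3) * ∫ ω, (vc x ω ⬝ᵥ (A *ᵥ vc x ω)) ^ 2 ∂μ
      + ∫ ω, (vc N ω ⬝ᵥ (A *ᵥ vc N ω)) * (vc x ω ⬝ᵥ (A *ᵥ vc x ω)) ∂μ
      + 2 * ∫ ω, (vc N ω ⬝ᵥ (A *ᵥ vc x ω)) ^ 2 ∂μ
      = A.trace * ∫ ω, vc x ω ⬝ᵥ (A *ᵥ vc x ω) ∂μ
        + 2 * ∫ ω, (A *ᵥ vc x ω) ⬝ᵥ (A *ᵥ vc x ω) ∂μ := by
  have := h.prob
  have hx := h.bx
  have hN := h.bN
  have hAs : ∀ a b, A a b = A b a := fun a b => (hA.apply a b).symm
  have t1 : ∫ ω, (vc x ω ⬝ᵥ (A *ᵥ vc x ω)) ^ 2 ∂μ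
      = ∑ a, ∑ b, ∑ c, ∑ d, A a b * A c d * ∫ ω, x a ω * x b ω * x c ω * x d ω ∂μ := by
    simp_rw [sq]
    exact int_qf2 A A hx hx hx hx
  have t2 := int_qf2 (μ := μ) A A hN hN hx hx
  have t3 : ∫ ω, (vc N ω ⬝ᵥ (A *ᵥ vc x ω)) ^ 2 ∂μ
      = ∑ a, ∑ b, ∑ c, ∑ d, A a b * A c d * ∫ ω, N a ω * N c ω * x b ω * x d ω ∂μ := by
    simp_rw [sq]
    rw [int_qf2 A A hN hx hN hx]
    refine Finset.sum_congr rfl fun a _ => Finset.sum_congr rfl fun b _ =>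
      Finset.sum_congr rfl fun c _ => Finset.sum_congr rfl fun d _ => ?_
    congr 1
    exact integral_congr_ae (Eventually.of_forall fun ω => by ring)
  have t3' : ∫ ω, (vc N ω ⬝ᵥ (A *ᵥ vc x ω)) ^ 2 ∂μ
      = ∑ a, ∑ b, ∑ c, ∑ d, A a b * A c d * ∫ ω, N a ω * N d ω * x b ω * x c ω ∂μ := by
    rw [t3]
    refine Finset.sum_congr rfl fun a _ => Finset.sum_congr rfl fun b _ => ?_
    rw [Finset.sum_comm]
    refine Finset.sum_congr rfl fun c _ => Finset.sum_congr rfl fun d _ => ?_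
    rw [hAs d c]
  have t4 : A.trace * ∫ ω, vc x ω ⬝ᵥ (A *ᵥ vc x ω) ∂μ
      = ∑ a, ∑ b, ∑ c, ∑ d, A a b * A c d * ((if a = b then 1 else 0) * ∫ ω, x c ω * x d ω ∂μ) := by
    rw [int_qf1 A hx hx, Matrix.trace, Finset.sum_mul]
    refine Finset.sum_congr rfl fun a _ => ?_
    refine Eq.trans ?_ (Finset.sum_eq_single a ?_ ?_).symm
    · rw [Matrix.diag_apply, Finset.mul_sum]
      refine Finset.sum_congr rfl fun c _ => ?_
      rw [Finset.mul_sum]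
      refine Finset.sum_congr rfl fun d _ => ?_
      unfold m2
      simp only [if_true]
      ring
    · intro b _ hb
      refine Finset.sum_eq_zero fun c _ => Finset.sum_eq_zero fun d _ => ?_
      rw [if_neg (Ne.symm hb)]
      ring
    · exact fun h => absurd (Finset.mem_univ a) h
  have t5 : ∫ ω, (A *ᵥ vc x ω) ⬝ᵥ (A *ᵥ vc x ω) ∂μ
      = ∑ a, ∑ b, ∑ c, ∑ d, A a b * A c d * ((if a = c then 1 else 0) * ∫ ω, x b ω * x d ω ∂μ) := by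
    simp_rw [mulVec_dot_mulVec hA]
    rw [int_qf1 (A * A) hx hx]
    have e1 : ∀ b d, (A * A) b d * m2 μ x x b d = ∑ a, A a b * A a d * m2 μ x x b d := by
      intro b d
      rw [Matrix.mul_apply, Finset.sum_mul]
      exact Finset.sum_congr rfl fun a _ => by rw [hAs b a]
    simp_rw [e1]
    have e2 : ∀ a b c d, A a b * A c d * ((if a = c then 1 else 0) * ∫ ω, x b ω * x d ω ∂μ)
        = if a = c then A a b * A c d * m2 μ x x b d else 0 := by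
      intro a b c d
      split_ifs <;> simp [m2]
    simp_rw [e2]
    have e3 : ∀ a b, ∑ c, ∑ d, (if a = c then A a b * A c d * m2 μ x x b d else 0)
        = ∑ d, A a b * A a d * m2 μ x x b d := by
      intro a b
      rw [Finset.sum_comm]
      refine Finset.sum_congr rfl fun d _ => ?_
      rw [Finset.sum_ite_eq]
      simp
    simp_rw [e3]
    have e4 : ∀ b, ∑ d, ∑ a, A a b * A a d * m2 μ x x b d = ∑ a, ∑ d, A a b * A a d * m2 μ x x b d :=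
      fun b => Finset.sum_comm
    simp_rw [e4]
    rw [Finset.sum_comm]
  have t5' : ∫ ω, (A *ᵥ vc x ω) ⬝ᵥ (A *ᵥ vc x ω) ∂μ
      = ∑ a, ∑ b, ∑ c, ∑ d, A a b * A c d * ((if a = d then 1 else 0) * ∫ ω, x b ω * x c ω ∂μ) := by
    rw [t5]
    refine Finset.sum_congr rfl fun a _ => Finset.sum_congr rfl fun b _ => ?_
    rw [Finset.sum_comm]
    refine Finset.sum_congr rfl fun c _ => Finset.sum_congr rfl fun d _ => ?_
    rw [hAs d c]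
  have key : (m + 3) * ∫ ω, (vc x ω ⬝ᵥ (A *ᵥ vc x ω)) ^ 2 ∂μ
      + ∫ ω, (vc N ω ⬝ᵥ (A *ᵥ vc N ω)) * (vc x ω ⬝ᵥ (A *ᵥ vc x ω)) ∂μ
      + ∫ ω, (vc N ω ⬝ᵥ (A *ᵥ vc x ω)) ^ 2 ∂μ + ∫ ω, (vc N ω ⬝ᵥ (A *ᵥ vc x ω)) ^ 2 ∂μ
      = A.trace * ∫ ω, vc x ω ⬝ᵥ (A *ᵥ vc x ω) ∂μ
        + ∫ ω, (A *ᵥ vc x ω) ⬝ᵥ (A *ᵥ vc x ω) ∂μ + ∫ ω, (A *ᵥ vc x ω) ⬝ᵥ (A *ᵥ vc x ω) ∂μ := by
    rw [t1, t2]
    nth_rewrite 1 [t3]
    rw [t3', t4]
    nth_rewrite 1 [t5]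
    rw [t5']
    rw [Finset.mul_sum]
    simp only [← Finset.sum_add_distrib]
    refine Finset.sum_congr rfl fun a _ => ?_
    rw [Finset.mul_sum]
    simp only [← Finset.sum_add_distrib]
    refine Finset.sum_congr rfl fun b _ => ?_
    rw [Finset.mul_sum]
    simp only [← Finset.sum_add_distrib]
    refine Finset.sum_congr rfl fun c _ => ?_
    rw [Finset.mul_sum]
    simp only [← Finset.sum_add_distrib]
    refine Finset.sum_congr rfl fun d _ => ?_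
    have := h.r6 a b c d
    linear_combination A a b * A c d * this
  linarith

/-- the second moments against the square of a matrix -/
theorem sq_row (h : T0Data μ m x N) {A : Matrix ι ι ℝ} (hA : A.IsSymm) :
    (m + 1) * ∫ ω, (A *ᵥ vc x ω) ⬝ᵥ (A *ᵥ vc x ω) ∂μ + ∫ ω, (A *ᵥ vc N ω) ⬝ᵥ (A *ᵥ vc N ω) ∂μ
      = fro A := by
  have := h.prob
  simp_rw [mulVec_dot_mulVec hA]
  rw [int_qf1 (A * A) h.bx h.bx, int_qf1 (A * A) h.bN h.bN, ← tr_mul_self hA, Finset.mul_sum,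
    ← Finset.sum_add_distrib]
  refine Finset.sum_congr rfl fun a _ => ?_
  rw [Finset.mul_sum, ← Finset.sum_add_distrib]
  have e : ∀ b, (m + 1) * ((A * A) a b * m2 μ x x a b) + (A * A) a b * m2 μ N N a b
      = if a = b then (A * A) a b else 0 := by
    intro b
    have h1 := h.GP a b
    have h2 : (if a = b then (A * A) a b else 0) = (A * A) a b * (if a = b then 1 else 0) := by
      split_ifs <;> simp
    rw [h2, ← h1]
    ring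
  simp_rw [e]
  simp

lemma cs_unit {v w : ι → ℝ} (hv : v ⬝ᵥ v = 1) : (v ⬝ᵥ w) ^ 2 ≤ w ⬝ᵥ w := by
  have h1 : 0 ≤ (w - (v ⬝ᵥ w) • v) ⬝ᵥ (w - (v ⬝ᵥ w) • v) :=
    Finset.sum_nonneg fun a _ => mul_self_nonneg _
  have h2 : (w - (v ⬝ᵥ w) • v) ⬝ᵥ (w - (v ⬝ᵥ w) • v) = w ⬝ᵥ w - (v ⬝ᵥ w) ^ 2 := by
    rw [sub_dotProduct, dotProduct_sub, dotProduct_sub, smul_dotProduct, smul_dotProduct,
      dotProduct_smul, dotProduct_smul, hv, dotProduct_comm w v]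
    simp only [smul_eq_mul]
    ring
  linarith

/-- the norm of the quadratic forms of trace zero -/
theorem quad_bound (h : T0Data μ m x N) (hm : 0 ≤ m) {A : Matrix ι ι ℝ} (hA : A.IsSymm)
    (htr : A.trace = 0) :
    ∫ ω, (vc x ω ⬝ᵥ (A *ᵥ vc x ω)) ^ 2 ∂μ ≤ 16 / ((m + 1) * (7 * m + 23)) * fro A := by
  have := h.prob
  have hx := h.bx
  have hN := h.bN
  have h1 := h.quad_row hA
  have h2 := h.sq_row hA
  rw [htr, zero_mul, zero_add] at h1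
  set Q : ℝ := ∫ ω, (vc x ω ⬝ᵥ (A *ᵥ vc x ω)) ^ 2 ∂μ with hQ
  set S : ℝ := ∫ ω, (vc N ω ⬝ᵥ (A *ᵥ vc N ω)) * (vc x ω ⬝ᵥ (A *ᵥ vc x ω)) ∂μ with hS
  set U : ℝ := ∫ ω, (vc N ω ⬝ᵥ (A *ᵥ vc x ω)) ^ 2 ∂μ with hU
  set a1 : ℝ := ∫ ω, (A *ᵥ vc x ω) ⬝ᵥ (A *ᵥ vc x ω) ∂μ with ha1
  set a2 : ℝ := ∫ ω, (A *ᵥ vc N ω) ⬝ᵥ (A *ᵥ vc N ω) ∂μ with ha2
  have hU0 : 0 ≤ U := integral_nonneg fun ω => sq_nonneg _
  have b1 := BM.qf A hx hx
  have b2 := BM.qf A hN hN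
  have b3 : BM (fun ω => (A *ᵥ vc N ω) ⬝ᵥ (A *ᵥ vc N ω)) := by
    simp_rw [mulVec_dot_mulVec hA]
    exact BM.qf (A * A) hN hN
  have hS0 : -S ≤ (m + 1) / 8 * Q + 2 / (m + 1) * a2 := by
    rw [hS, hQ, ha2, ← integral_neg, ← integral_const_mul, ← integral_const_mul,
      ← integral_add ((b1.pow 2).const_mul _).int (b3.const_mul _).int]
    refine integral_mono (b2.mul b1).neg.int (((b1.pow 2).const_mul _).add (b3.const_mul _)).int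
      fun ω => ?_
    have k1 := cs_unit (w := A *ᵥ vc N ω) (h.nn ω)
    simp only
    set X := vc x ω ⬝ᵥ (A *ᵥ vc x ω)
    set Y := vc N ω ⬝ᵥ (A *ᵥ vc N ω)
    set Z := (A *ᵥ vc N ω) ⬝ᵥ (A *ᵥ vc N ω)
    have k2 : 2 / (m + 1) * Y ^ 2 ≤ 2 / (m + 1) * Z := mul_le_mul_of_nonneg_left k1 (by positivity)
    have k3 : 0 ≤ (m + 1) / 8 * (X + 4 / (m + 1) * Y) ^ 2 := by positivity
    have k4 : (m + 1) / 8 * (X + 4 / (m + 1) * Y) ^ 2
        = (m + 1) / 8 * X ^ 2 + Y * X + 2 / (m + 1) * Y ^ 2 := by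
      field_simp
      ring
    linarith
  have k5 : a1 = (fro A - a2) / (m + 1) := by
    field_simp
    linarith
  have k6 : (m + 3) * Q ≤ 2 * ((fro A - a2) / (m + 1)) + ((m + 1) / 8 * Q + 2 / (m + 1) * a2) := by
    rw [← k5]
    linarith
  have k7 : (7 * m + 23) * Q ≤ 16 / (m + 1) * fro A := by
    have e : 2 * ((fro A - a2) / (m + 1)) + ((m + 1) / 8 * Q + 2 / (m + 1) * a2)
        = 2 / (m + 1) * fro A + (m + 1) / 8 * Q := by
      field_simp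
      ring
    rw [e] at k6
    have e2 : 16 / (m + 1) * fro A = 8 * (2 / (m + 1) * fro A) := by ring
    rw [e2]
    linarith
  have e3 : 16 / ((m + 1) * (7 * m + 23)) * fro A = 16 / (m + 1) * fro A / (7 * m + 23) := by
    field_simp
  rw [e3, le_div_iff₀ (by positivity)]
  linarith

end T0Data

end

end Vale.Agent.P224.R2.H728
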