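import Mathlib

/-!
The algebra of the two point quantities at level zero: abstract one point rows.
-/

namespace Vale.Agent.P224.R2.H728

open MeasureTheory Set Filter Function Real Finset

set_option linter.unusedSectionVars false

/-- bounded measurable functions -/
def BM {Ω : Type*} [MeasurableSpace Ω] (f : Ω → ℝ) : Prop := Measurable f ∧ ∃ C, ∀ ω, |f ω| ≤ C

section BMs

variable {Ω : Type*} [MeasurableSpace Ω] {f g : Ω → ℝ}

lemma BM.const (c : ℝ) : BM (fun _ : Ω => c) := ⟨measurable_const, |c|, fun _ => le_rfl⟩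

lemma BM.add (hf : BM f) (hg : BM g) : BM (fun ω => f ω + g ω) := by
  obtain ⟨h1, C, h2⟩ := hf
  obtain ⟨h3, D, h4⟩ := hg
  exact ⟨h1.add h3, C + D, fun ω => (abs_add_le _ _).trans (add_le_add (h2 ω) (h4 ω))⟩

lemma BM.neg (hf : BM f) : BM (fun ω => -f ω) := by
  obtain ⟨h1, C, h2⟩ := hf
  exact ⟨h1.neg, C, fun ω => by rw [abs_neg]; exact h2 ω⟩

lemma BM.sub (hf : BM f) (hg : BM g) : BM (fun ω => f ω - g ω) := by
  simpa [sub_eq_add_neg] using hf.add hg.neg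

lemma BM.mul (hf : BM f) (hg : BM g) : BM (fun ω => f ω * g ω) := by
  obtain ⟨h1, C, h2⟩ := hf
  obtain ⟨h3, D, h4⟩ := hg
  refine ⟨h1.mul h3, C * D, fun ω => ?_⟩
  rw [abs_mul]
  exact mul_le_mul (h2 ω) (h4 ω) (abs_nonneg _) ((abs_nonneg _).trans (h2 ω))

lemma BM.const_mul (hf : BM f) (c : ℝ) : BM (fun ω => c * f ω) := (BM.const c).mul hf

lemma BM.pow (hf : BM f) (n : ℕ) : BM (fun ω => f ω ^ n) := by
  induction n with
  | zero => simpa using BM.const (Ω := Ω) 1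
  | succ n ih => simpa [pow_succ] using ih.mul hf

lemma BM.sum {κ : Type*} (s : Finset κ) {f : κ → Ω → ℝ} (hf : ∀ k ∈ s, BM (f k)) :
    BM (fun ω => ∑ k ∈ s, f k ω) := by
  classical
  induction s using Finset.induction_on with
  | empty => simpa using BM.const (Ω := Ω) 0
  | insert a s ha ih =>
    simp only [Finset.sum_insert ha]
    exact (hf a (Finset.mem_insert_self a s)).add (ih fun k hk => hf k (Finset.mem_insert_of_mem hk))

lemma BM.int (hf : BM f) {μ : Measure Ω} [IsFiniteMeasure μ] : Integrable f μ := by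
  obtain ⟨h1, C, h2⟩ := hf
  exact Integrable.of_bound h1.aestronglyMeasurable C (Eventually.of_forall fun ω => by
    rw [Real.norm_eq_abs]; exact h2 ω)

end BMs

/-- the one point rows of a minimal hypersurface of the sphere in an orthonormal basis -/
structure T0Data {ι Ω : Type*} [Fintype ι] [DecidableEq ι] [MeasurableSpace Ω] (μ : Measure Ω)
    (m : ℝ) (x N : ι → Ω → ℝ) : Prop where
  prob : IsProbabilityMeasure μ
  card : (Fintype.card ι : ℝ) = m + 2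
  mx : ∀ a, Measurable (x a)
  mN : ∀ a, Measurable (N a)
  ux : ∀ ω, ∑ a, x a ω ^ 2 = 1
  uN : ∀ ω, ∑ a, N a ω ^ 2 = 1
  xN : ∀ ω, ∑ a, x a ω * N a ω = 0
  r1 : ∀ a, ∫ ω, x a ω ∂μ = 0
  r2 : ∀ a b, (m + 1) * ∫ ω, x a ω * x b ω ∂μ + ∫ ω, N a ω * N b ω ∂μ = if a = b then 1 else 0
  r3 : ∀ a b, ∫ ω, N a ω * x b ω ∂μ = ∫ ω, N b ω * x a ω ∂μ
  r4 : ∀ a b c, (m + 1) * (∫ ω, N a ω * x b ω * x c ω ∂μ - ∫ ω, N b ω * x a ω * x c ω ∂μ)
    = (∫ ω, N a ω ∂μ) * (if b = c then 1 else 0) - (∫ ω, N b ω ∂μ) * (if a = c then 1 else 0)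
  r5 : ∀ a b c, (m + 2) * ∫ ω, x a ω * x b ω * x c ω ∂μ + ∫ ω, N a ω * N b ω * x c ω ∂μ
    + ∫ ω, N a ω * N c ω * x b ω ∂μ = 0
  r6 : ∀ a b c d, (m + 3) * ∫ ω, x a ω * x b ω * x c ω * x d ω ∂μ
    + ∫ ω, N a ω * N b ω * x c ω * x d ω ∂μ + ∫ ω, N a ω * N c ω * x b ω * x d ω ∂μ
    + ∫ ω, N a ω * N d ω * x b ω * x c ω ∂μ
    = (if a = b then 1 else 0) * ∫ ω, x c ω * x d ω ∂μ
      + (if a = c then 1 else 0) * ∫ ω, x b ω * x d ω ∂μ
      + (if a = d then 1 else 0) * ∫ ω, x b ω * x c ω ∂μ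

section

variable {ι Ω : Type*} [Fintype ι] [DecidableEq ι] [MeasurableSpace Ω] {μ : Measure Ω}
  {m : ℝ} {x N : ι → Ω → ℝ} {f : Ω → ℝ}

lemma T0Data.bx (h : T0Data μ m x N) (a : ι) : BM (x a) := by
  refine ⟨h.mx a, 1, fun ω => ?_⟩
  have h1 : x a ω ^ 2 ≤ ∑ b, x b ω ^ 2 :=
    Finset.single_le_sum (f := fun b => x b ω ^ 2) (fun b _ => sq_nonneg _) (Finset.mem_univ a)
  rw [h.ux] at h1
  exact abs_le_one_iff_mul_self_le_one.2 (by nlinarith)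

lemma T0Data.bN (h : T0Data μ m x N) (a : ι) : BM (N a) := by
  refine ⟨h.mN a, 1, fun ω => ?_⟩
  have h1 : N a ω ^ 2 ≤ ∑ b, N b ω ^ 2 :=
    Finset.single_le_sum (f := fun b => N b ω ^ 2) (fun b _ => sq_nonneg _) (Finset.mem_univ a)
  rw [h.uN] at h1
  exact abs_le_one_iff_mul_self_le_one.2 (by nlinarith)

lemma BM.fst (hf : BM f) : BM (fun q : Ω × Ω => f q.1) := by
  obtain ⟨h1, C, h2⟩ := hf
  exact ⟨h1.comp measurable_fst, C, fun q => h2 q.1⟩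

lemma BM.snd (hf : BM f) : BM (fun q : Ω × Ω => f q.2) := by
  obtain ⟨h1, C, h2⟩ := hf
  exact ⟨h1.comp measurable_snd, C, fun q => h2 q.2⟩

/-- separation of variables -/
lemma E2_sum {κ : Type*} [Fintype κ] {μ : Measure Ω} [IsFiniteMeasure μ] {f g : κ → Ω → ℝ}
    (hf : ∀ k, BM (f k)) (hg : ∀ k, BM (g k)) :
    ∫ q, ∑ k, f k q.1 * g k q.2 ∂(μ.prod μ) = ∑ k, (∫ ω, f k ω ∂μ) * ∫ ω, g k ω ∂μ := by
  rw [integral_finsetSum _ fun k _ => ((hf k).fst.mul (hg k).snd).int (μ := μ.prod μ)]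
  exact Finset.sum_congr rfl fun k _ => integral_prod_mul _ _

/-- coordinates of the two point functions -/
def ip (x y : ι → Ω → ℝ) (ω ω' : Ω) : ℝ := ∑ a, x a ω * y a ω'

variable (μ) in
/-- second moments -/
noncomputable def m2 (x y : ι → Ω → ℝ) (a b : ι) : ℝ := ∫ ω, x a ω * y b ω ∂μ

variable (μ) in
/-- third moments -/
noncomputable def m3 (x y z : ι → Ω → ℝ) (a b c : ι) : ℝ := ∫ ω, x a ω * y b ω * z c ω ∂μ

/-- a product of two pairings -/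
lemma E2_two {μ : Measure Ω} [IsFiniteMeasure μ] {f1 g1 f2 g2 : ι → Ω → ℝ} (h1 : ∀ a, BM (f1 a))
    (h2 : ∀ a, BM (g1 a)) (h3 : ∀ a, BM (f2 a)) (h4 : ∀ a, BM (g2 a)) :
    ∫ q, ip f1 g1 q.1 q.2 * ip f2 g2 q.1 q.2 ∂(μ.prod μ)
      = ∑ a, ∑ b, m2 μ f1 f2 a b * m2 μ g1 g2 a b := by
  have e : ∀ q : Ω × Ω, ip f1 g1 q.1 q.2 * ip f2 g2 q.1 q.2
      = ∑ k : ι × ι, (f1 k.1 q.1 * f2 k.2 q.1) * (g1 k.1 q.2 * g2 k.2 q.2) := by
    intro q
    unfold ip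
    rw [Finset.sum_mul_sum, Fintype.sum_prod_type]
    exact Finset.sum_congr rfl fun a _ => Finset.sum_congr rfl fun b _ => by ring
  simp_rw [e]
  rw [E2_sum (f := fun k : ι × ι => fun ω => f1 k.1 ω * f2 k.2 ω)
    (g := fun k : ι × ι => fun ω => g1 k.1 ω * g2 k.2 ω) (fun k => (h1 _).mul (h3 _))
    (fun k => (h2 _).mul (h4 _)), Fintype.sum_prod_type]
  rfl

/-- a product of three pairings -/
lemma E2_three {μ : Measure Ω} [IsFiniteMeasure μ] {f1 g1 f2 g2 f3 g3 : ι → Ω → ℝ}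
    (h1 : ∀ a, BM (f1 a)) (h2 : ∀ a, BM (g1 a)) (h3 : ∀ a, BM (f2 a)) (h4 : ∀ a, BM (g2 a))
    (h5 : ∀ a, BM (f3 a)) (h6 : ∀ a, BM (g3 a)) :
    ∫ q, ip f1 g1 q.1 q.2 * ip f2 g2 q.1 q.2 * ip f3 g3 q.1 q.2 ∂(μ.prod μ)
      = ∑ a, ∑ b, ∑ c, m3 μ f1 f2 f3 a b c * m3 μ g1 g2 g3 a b c := by
  have e : ∀ q : Ω × Ω, ip f1 g1 q.1 q.2 * ip f2 g2 q.1 q.2 * ip f3 g3 q.1 q.2
      = ∑ k : ι × ι × ι, (f1 k.1 q.1 * f2 k.2.1 q.1 * f3 k.2.2 q.1)
        * (g1 k.1 q.2 * g2 k.2.1 q.2 * g3 k.2.2 q.2) := by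
    intro q
    unfold ip
    rw [Finset.sum_mul_sum, Finset.sum_mul, Fintype.sum_prod_type]
    refine Finset.sum_congr rfl fun a _ => ?_
    rw [Finset.sum_mul, Fintype.sum_prod_type]
    refine Finset.sum_congr rfl fun b _ => ?_
    rw [Finset.mul_sum]
    exact Finset.sum_congr rfl fun c _ => by ring
  simp_rw [e]
  rw [E2_sum (f := fun k : ι × ι × ι => fun ω => f1 k.1 ω * f2 k.2.1 ω * f3 k.2.2 ω)
    (g := fun k : ι × ι × ι => fun ω => g1 k.1 ω * g2 k.2.1 ω * g3 k.2.2 ω)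
    (fun k => ((h1 _).mul (h3 _)).mul (h5 _))
    (fun k => ((h2 _).mul (h4 _)).mul (h6 _)), Fintype.sum_prod_type]
  refine Finset.sum_congr rfl fun a _ => ?_
  rw [Fintype.sum_prod_type]
  rfl

lemma BM.ip2 {f g : ι → Ω → ℝ} (hf : ∀ a, BM (f a)) (hg : ∀ a, BM (g a)) :
    BM (fun q : Ω × Ω => ip f g q.1 q.2) :=
  BM.sum _ fun a _ => (hf a).fst.mul (hg a).snd

end

end Vale.Agent.P224.R2.H728
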