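import Vale.Agent.P224.SM2.Rows
import Vale.Agent.P224.R2.H728.T0

/-!
The one point rows of a minimal hypersurface.
-/

namespace Vale.Agent.P224.R2.H728

open Matrix MeasureTheory Module Function Set Vale.Agent.P224 Vale.Agent.P224.FV
open Vale.Agent.P224.SM2
open scoped RealInnerProductSpace Topology ContDiff Manifold

set_option linter.unusedSectionVars false

section

variable {V W M : Type*} [NormedAddCommGroup V] [InnerProductSpace ℝ V] [FiniteDimensional ℝ V]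
  [NormedAddCommGroup W] [InnerProductSpace ℝ W] [FiniteDimensional ℝ W]
  [TopologicalSpace M] [ChartedSpace V M]
  [MeasurableSpace V] [BorelSpace V] [MeasurableSpace M] [BorelSpace M]
  [IsManifold 𝓘(ℝ, V) ∞ M] [CompactSpace M] [T2Space M]

lemma dl_one {F : M → W} (a : W) (p : M) : dl V F a (fun _ => (1 : ℝ)) p = 0 := by
  unfold dl
  have e : rep (V := V) (fun _ : M => (1 : ℝ)) p = fun _ => (1 : ℝ) := rfl
  rw [e]
  simp

/-- the divergence theorem for a function -/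
theorem row_B (hW : finrank ℝ W = finrank ℝ V + 2) {F : M → W}
    (hF : SphImm V F) (hmin : ∀ x n, IsUnitNormal V F x n → meanCurv V F x n = 0)
    (a : W) {K : M → ℝ} (hK : ContMDiff 𝓘(ℝ, V) 𝓘(ℝ, ℝ) ∞ K) {L : M → ℝ}
    (hL : ∀ x, dl V F a K x = L x) :
    ∫ x, (L x - (finrank ℝ V : ℝ) * (⟪F x, a⟫ * K x)) ∂(volM V F) = 0 := by
  have hV : VolChart V F := volChart_of_sphImm hF
  have hfin : IsFiniteMeasure (volM V F) := isFiniteMeasure_volM hF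
  have hcF : Continuous F := hF.smooth.continuous
  have e : (fun x => L x - (finrank ℝ V : ℝ) * (⟪F x, a⟫ * K x))
      = fun x => dl V F a K x - (finrank ℝ V : ℝ) * (⟪a, F x⟫ * K x) := by
    funext x
    rw [hL, real_inner_comm (F x) a]
  have i1 := integrable_of_cont (volM V F) (continuous_dl hF a hK)
  have i2 := integrable_of_cont (volM V F) (g := fun x => ⟪a, F x⟫ * K x)
    ((continuous_const.inner hcF).mul hK.continuous)
  rw [e, integral_sub i1 (i2.const_mul _), integral_const_mul,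
    first_variation hW hF hmin hV _ hK, sub_self]

/-- the closedness identity for a function -/
theorem row_C (hW : finrank ℝ W = finrank ℝ V + 2) {F : M → W}
    (hF : SphImm V F) (hmin : ∀ x n, IsUnitNormal V F x n → meanCurv V F x n = 0)
    {N : M → W} (hNs : ContMDiff 𝓘(ℝ, V) 𝓘(ℝ, W) ∞ N) (hN : ∀ x, IsUnitNormal V F x (N x))
    (a b : W) {K : M → ℝ} (hK : ContMDiff 𝓘(ℝ, V) 𝓘(ℝ, ℝ) ∞ K) {La Lb : M → ℝ}
    (ha : ∀ x, dl V F a K x = La x) (hb : ∀ x, dl V F b K x = Lb x) :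
    ∫ x, (⟪N x, a⟫ * Lb x - ⟪N x, b⟫ * La x
      - (finrank ℝ V : ℝ) * ((⟪N x, a⟫ * ⟪F x, b⟫ - ⟪N x, b⟫ * ⟪F x, a⟫) * K x)) ∂(volM V F) = 0 := by
  have hfin : IsFiniteMeasure (volM V F) := isFiniteMeasure_volM hF
  have hcF : Continuous F := hF.smooth.continuous
  have hcN : Continuous N := hNs.continuous
  have e : (fun x => ⟪N x, a⟫ * Lb x - ⟪N x, b⟫ * La x
      - (finrank ℝ V : ℝ) * ((⟪N x, a⟫ * ⟪F x, b⟫ - ⟪N x, b⟫ * ⟪F x, a⟫) * K x))
      = fun x => (⟪N x, a⟫ * dl V F b K x - ⟪N x, b⟫ * dl V F a K x)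
        - (finrank ℝ V : ℝ) * ((⟪N x, a⟫ * ⟪F x, b⟫ - ⟪N x, b⟫ * ⟪F x, a⟫) * K x) := by
    funext x
    rw [ha, hb]
  have i1 : Integrable (fun x => ⟪N x, a⟫ * dl V F b K x - ⟪N x, b⟫ * dl V F a K x)
      (volM V F) := integrable_of_cont _
    (((hcN.inner continuous_const).mul (continuous_dl hF b hK)).sub
      ((hcN.inner continuous_const).mul (continuous_dl hF a hK)))
  have i2 : Integrable (fun x => (⟪N x, a⟫ * ⟪F x, b⟫ - ⟪N x, b⟫ * ⟪F x, a⟫) * K x)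
      (volM V F) := integrable_of_cont _
    ((((hcN.inner continuous_const).mul (hcF.inner continuous_const)).sub
      ((hcN.inner continuous_const).mul (hcF.inner continuous_const))).mul hK.continuous)
  rw [e, integral_sub i1 (i2.const_mul _), integral_const_mul,
    closed_id hW hF hmin hNs hN a b hK, sub_self]

/-- the one point rows in an orthonormal basis -/
theorem t0Data_of_min [Nonempty M] (hm : 1 ≤ finrank ℝ V)
    (hW : finrank ℝ W = finrank ℝ V + 2) {F : M → W}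
    (hF : SphImm V F) (hmin : ∀ x n, IsUnitNormal V F x n → meanCurv V F x n = 0)
    {N : M → W} (hNs : ContMDiff 𝓘(ℝ, V) 𝓘(ℝ, W) ∞ N) (hN : ∀ x, IsUnitNormal V F x (N x))
    {ι : Type*} [Fintype ι] [DecidableEq ι] (b : OrthonormalBasis ι ℝ W) :
    T0Data ((volM V F univ)⁻¹ • volM V F) (finrank ℝ V) (fun a p => ⟪F p, b a⟫)
      (fun a p => ⟪N p, b a⟫) := by
  have hfin : IsFiniteMeasure (volM V F) := isFiniteMeasure_volM hF
  have hcF : Continuous F := hF.smooth.continuous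
  have hcN : Continuous N := hNs.continuous
  have hmR : (finrank ℝ V : ℝ) ≠ 0 := by
    have : 0 < finrank ℝ V := by omega
    exact_mod_cast this.ne'
  set μ := volM V F with hμ
  have hpos : 0 < μ univ := volM_pos_of_isOpen hW hF isOpen_univ univ_nonempty
  set m : ℝ := (finrank ℝ V : ℝ) with hmdef
  set c : ℝ := ((μ univ)⁻¹).toReal with hc
  have hcμ : c * μ.real univ = 1 := by
    rw [hc, ENNReal.toReal_inv]
    exact inv_mul_cancel₀ (ENNReal.toReal_pos hpos.ne' (measure_ne_top _ _)).ne'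
  have hint : ∀ f : M → ℝ, ∫ x, f x ∂((μ univ)⁻¹ • μ) = c * ∫ x, f x ∂μ := fun f => by
    rw [integral_smul_measure, smul_eq_mul]
  have I : ∀ {g : M → ℝ}, Continuous g → Integrable g μ := fun hg => integrable_of_cont μ hg
  have cF : ∀ a, Continuous fun x => ⟪F x, b a⟫ := fun a => hcF.inner continuous_const
  have cN : ∀ a, Continuous fun x => ⟪N x, b a⟫ := fun a => hcN.inner continuous_const
  have sF := fun a => smooth_inner hF.smooth (b a)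
  have dF : ∀ a d x, dl V F (b a) (fun q => ⟪F q, b d⟫) x
      = (if a = d then 1 else 0) - ⟪F x, b a⟫ * ⟪F x, b d⟫ - ⟪N x, b a⟫ * ⟪N x, b d⟫ := by
    intro a d x
    rw [dl_FF hW hF hN, b.inner_eq_ite]
  have iF : ∀ a, Integrable (fun x => ⟪F x, b a⟫) μ := fun a => I (cF a)
  have iN : ∀ a, Integrable (fun x => ⟪N x, b a⟫) μ := fun a => I (cN a)
  have iFF : ∀ a d, Integrable (fun x => ⟪F x, b a⟫ * ⟪F x, b d⟫) μ := fun a d =>
    I ((cF a).mul (cF d))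
  have iNN : ∀ a d, Integrable (fun x => ⟪N x, b a⟫ * ⟪N x, b d⟫) μ := fun a d =>
    I ((cN a).mul (cN d))
  have iNF : ∀ a d, Integrable (fun x => ⟪N x, b a⟫ * ⟪F x, b d⟫) μ := fun a d =>
    I ((cN a).mul (cF d))
  have iFFF : ∀ a d g, Integrable (fun x => ⟪F x, b a⟫ * ⟪F x, b d⟫ * ⟪F x, b g⟫) μ :=
    fun a d g => I (((cF a).mul (cF d)).mul (cF g))
  have iNFF : ∀ a d g, Integrable (fun x => ⟪N x, b a⟫ * ⟪F x, b d⟫ * ⟪F x, b g⟫) μ :=
    fun a d g => I (((cN a).mul (cF d)).mul (cF g))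
  have iNNF : ∀ a d g, Integrable (fun x => ⟪N x, b a⟫ * ⟪N x, b d⟫ * ⟪F x, b g⟫) μ :=
    fun a d g => I (((cN a).mul (cN d)).mul (cF g))
  have iFFFF : ∀ a d g k, Integrable
      (fun x => ⟪F x, b a⟫ * ⟪F x, b d⟫ * ⟪F x, b g⟫ * ⟪F x, b k⟫) μ :=
    fun a d g k => I ((((cF a).mul (cF d)).mul (cF g)).mul (cF k))
  have iNNFF : ∀ a d g k, Integrable
      (fun x => ⟪N x, b a⟫ * ⟪N x, b d⟫ * ⟪F x, b g⟫ * ⟪F x, b k⟫) μ :=
    fun a d g k => I ((((cN a).mul (cN d)).mul (cF g)).mul (cF k))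
  have sFF : ∀ d g, ContMDiff 𝓘(ℝ, V) 𝓘(ℝ, ℝ) ∞ (fun q => ⟪F q, b d⟫ * ⟪F q, b g⟫) :=
    fun d g => (sF d).mul (sF g)
  have sFFF : ∀ d g k, ContMDiff 𝓘(ℝ, V) 𝓘(ℝ, ℝ) ∞
      (fun q => ⟪F q, b d⟫ * ⟪F q, b g⟫ * ⟪F q, b k⟫) := fun d g k => (sFF d g).mul (sF k)
  have j : ∀ a, ∫ x, ⟪F x, b a⟫ ∂μ = 0 := by
    intro a
    have h1 := row_B hW hF hmin (b a) (K := fun _ => (1 : ℝ)) contMDiff_const
      (L := fun _ => 0) (fun x => dl_one _ _)
    have e : (fun x => (0 : ℝ) - (finrank ℝ V : ℝ) * (⟪F x, b a⟫ * 1))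
        = fun x => -m * ⟪F x, b a⟫ := by
      funext x
      rw [← hmdef]
      ring
    rw [e, integral_const_mul] at h1
    rcases mul_eq_zero.1 h1 with h3 | h3
    · exact absurd (neg_eq_zero.1 h3) hmR
    · exact h3
  refine ⟨⟨?_⟩, ?_, ?_, ?_, ?_, ?_, ?_, ?_, ?_, ?_, ?_, ?_, ?_⟩
  · rw [Measure.smul_apply, smul_eq_mul]
    exact ENNReal.inv_mul_cancel hpos.ne' (measure_ne_top _ _)
  · have := Module.finrank_eq_card_basis b.toBasis
    rw [← this, hW]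
    push_cast
    ring
  · exact fun a => (cF a).measurable
  · exact fun a => (cN a).measurable
  · intro p
    have := b.sum_sq_norm_inner_left (F p)
    rw [hF.unit p] at this
    simpa using this
  · intro p
    have := b.sum_sq_norm_inner_left (N p)
    rw [(hN p).1] at this
    simpa using this
  · intro p
    have := b.sum_inner_mul_inner (F p) (N p)
    rw [(hN p).2.1] at this
    rw [← this]
    exact Finset.sum_congr rfl fun a _ => by rw [real_inner_comm (N p) (b a)]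
  · intro a
    rw [hint, j, mul_zero]
  · intro a d
    rw [hint, hint]
    have h1 := row_B hW hF hmin (b a) (sF d) (fun x => dF a d x)
    have e : ∫ x, ((if a = d then 1 else 0) - ⟪F x, b a⟫ * ⟪F x, b d⟫ - ⟪N x, b a⟫ * ⟪N x, b d⟫
        - (finrank ℝ V : ℝ) * (⟪F x, b a⟫ * ⟪F x, b d⟫)) ∂μ
        = (if a = d then 1 else 0) * μ.real univ - ((m + 1) * ∫ x, ⟪F x, b a⟫ * ⟪F x, b d⟫ ∂μ
          + ∫ x, ⟪N x, b a⟫ * ⟪N x, b d⟫ ∂μ) := by
      have i1 : Integrable (fun x => (m + 1) * (⟪F x, b a⟫ * ⟪F x, b d⟫)) μ :=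
        (iFF a d).const_mul _
      have i12 : Integrable (fun x => (m + 1) * (⟪F x, b a⟫ * ⟪F x, b d⟫)
        + ⟪N x, b a⟫ * ⟪N x, b d⟫) μ := i1.add (iNN a d)
      have i0 : Integrable (fun _ : M => (if a = d then (1 : ℝ) else 0)) μ := integrable_const _
      have e0 : (if a = d then (1 : ℝ) else 0) * μ.real univ
          = ∫ _x : M, (if a = d then (1 : ℝ) else 0) ∂μ := by
        rw [integral_const, smul_eq_mul, mul_comm]
      rw [← integral_const_mul, ← integral_add i1 (iNN a d), e0, ← integral_sub i0 i12]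
      refine integral_congr_ae (Filter.Eventually.of_forall fun x => ?_)
      simp only
      rw [← hmdef]
      ring
    rw [e] at h1
    have h2 : (m + 1) * (c * ∫ x, ⟪F x, b a⟫ * ⟪F x, b d⟫ ∂μ)
        + c * ∫ x, ⟪N x, b a⟫ * ⟪N x, b d⟫ ∂μ
        = c * ((if a = d then 1 else 0) * μ.real univ) := by
      linear_combination -c * h1
    rw [h2]
    rw [show c * ((if a = d then (1 : ℝ) else 0) * μ.real univ)
      = (if a = d then (1 : ℝ) else 0) * (c * μ.real univ) by ring, hcμ, mul_one]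
  · intro a d
    rw [hint, hint]
    have h1 := row_C hW hF hmin hNs hN (b a) (b d) (K := fun _ => (1 : ℝ)) contMDiff_const
      (La := fun _ => 0) (Lb := fun _ => 0) (fun x => dl_one _ _) (fun x => dl_one _ _)
    have e : ∫ x, (⟪N x, b a⟫ * (0 : ℝ) - ⟪N x, b d⟫ * 0 - (finrank ℝ V : ℝ)
        * ((⟪N x, b a⟫ * ⟪F x, b d⟫ - ⟪N x, b d⟫ * ⟪F x, b a⟫) * 1)) ∂μ
        = -m * (∫ x, ⟪N x, b a⟫ * ⟪F x, b d⟫ ∂μ - ∫ x, ⟪N x, b d⟫ * ⟪F x, b a⟫ ∂μ) := by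
      rw [← integral_sub (iNF a d) (iNF d a), ← integral_const_mul]
      refine integral_congr_ae (Filter.Eventually.of_forall fun x => ?_)
      simp only
      rw [← hmdef]
      ring
    rw [e] at h1
    rcases mul_eq_zero.1 h1 with h3 | h3
    · exact absurd (neg_eq_zero.1 h3) hmR
    · rw [sub_eq_zero.1 h3]
  · intro a d g
    simp only [hint]
    have h1 := row_C hW hF hmin hNs hN (b a) (b d) (sF g) (fun x => dF a g x) (fun x => dF d g x)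
    have e : ∫ x, (⟪N x, b a⟫ * ((if d = g then 1 else 0) - ⟪F x, b d⟫ * ⟪F x, b g⟫
          - ⟪N x, b d⟫ * ⟪N x, b g⟫) - ⟪N x, b d⟫ * ((if a = g then 1 else 0)
          - ⟪F x, b a⟫ * ⟪F x, b g⟫ - ⟪N x, b a⟫ * ⟪N x, b g⟫)
        - (finrank ℝ V : ℝ) * ((⟪N x, b a⟫ * ⟪F x, b d⟫ - ⟪N x, b d⟫ * ⟪F x, b a⟫) * ⟪F x, b g⟫)) ∂μ
        = ((if d = g then 1 else 0) * ∫ x, ⟪N x, b a⟫ ∂μ - (if a = g then 1 else 0)
            * ∫ x, ⟪N x, b d⟫ ∂μ) - (m + 1) * (∫ x, ⟪N x, b a⟫ * ⟪F x, b d⟫ * ⟪F x, b g⟫ ∂μ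
          - ∫ x, ⟪N x, b d⟫ * ⟪F x, b a⟫ * ⟪F x, b g⟫ ∂μ) := by
      have k1 : Integrable (fun x => (if d = g then 1 else 0) * ⟪N x, b a⟫) μ := (iN a).const_mul _
      have k2 : Integrable (fun x => (if a = g then 1 else 0) * ⟪N x, b d⟫) μ := (iN d).const_mul _
      have k12 : Integrable (fun x => (if d = g then 1 else 0) * ⟪N x, b a⟫
        - (if a = g then 1 else 0) * ⟪N x, b d⟫) μ := k1.sub k2
      have k3 : Integrable (fun x => (m + 1) * (⟪N x, b a⟫ * ⟪F x, b d⟫ * ⟪F x, b g⟫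
        - ⟪N x, b d⟫ * ⟪F x, b a⟫ * ⟪F x, b g⟫)) μ := ((iNFF a d g).sub (iNFF d a g)).const_mul _
      rw [← integral_const_mul, ← integral_const_mul, ← integral_sub (iNFF a d g) (iNFF d a g),
        ← integral_const_mul, ← integral_sub k1 k2, ← integral_sub k12 k3]
      refine integral_congr_ae (Filter.Eventually.of_forall fun x => ?_)
      simp only
      rw [← hmdef]
      ring
    rw [e] at h1
    linear_combination -c * h1
  · intro a d g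
    simp only [hint]
    have h1 := row_B hW hF hmin (b a) (sFF d g) (L := fun x =>
      ((if a = d then 1 else 0) - ⟪F x, b a⟫ * ⟪F x, b d⟫ - ⟪N x, b a⟫ * ⟪N x, b d⟫) * ⟪F x, b g⟫
      + ⟪F x, b d⟫ * ((if a = g then 1 else 0) - ⟪F x, b a⟫ * ⟪F x, b g⟫
        - ⟪N x, b a⟫ * ⟪N x, b g⟫)) (fun x => by
        rw [dl_mul (F := F) (b a) (sF d) (sF g) x, dF, dF])
    have e : ∫ x, (((if a = d then 1 else 0) - ⟪F x, b a⟫ * ⟪F x, b d⟫ - ⟪N x, b a⟫ * ⟪N x, b d⟫)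
          * ⟪F x, b g⟫ + ⟪F x, b d⟫ * ((if a = g then 1 else 0) - ⟪F x, b a⟫ * ⟪F x, b g⟫
          - ⟪N x, b a⟫ * ⟪N x, b g⟫)
        - (finrank ℝ V : ℝ) * (⟪F x, b a⟫ * (⟪F x, b d⟫ * ⟪F x, b g⟫))) ∂μ
        = ((if a = d then 1 else 0) * ∫ x, ⟪F x, b g⟫ ∂μ + (if a = g then 1 else 0)
            * ∫ x, ⟪F x, b d⟫ ∂μ) - ((m + 2) * ∫ x, ⟪F x, b a⟫ * ⟪F x, b d⟫ * ⟪F x, b g⟫ ∂μ
          + ∫ x, ⟪N x, b a⟫ * ⟪N x, b d⟫ * ⟪F x, b g⟫ ∂μ
          + ∫ x, ⟪N x, b a⟫ * ⟪N x, b g⟫ * ⟪F x, b d⟫ ∂μ) := by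
      have k1 : Integrable (fun x => (if a = d then 1 else 0) * ⟪F x, b g⟫) μ := (iF g).const_mul _
      have k2 : Integrable (fun x => (if a = g then 1 else 0) * ⟪F x, b d⟫) μ := (iF d).const_mul _
      have k12 : Integrable (fun x => (if a = d then 1 else 0) * ⟪F x, b g⟫
        + (if a = g then 1 else 0) * ⟪F x, b d⟫) μ := k1.add k2
      have k3 : Integrable (fun x => (m + 2) * (⟪F x, b a⟫ * ⟪F x, b d⟫ * ⟪F x, b g⟫)) μ :=
        (iFFF a d g).const_mul _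
      have k4 : Integrable (fun x => (m + 2) * (⟪F x, b a⟫ * ⟪F x, b d⟫ * ⟪F x, b g⟫)
        + ⟪N x, b a⟫ * ⟪N x, b d⟫ * ⟪F x, b g⟫) μ := k3.add (iNNF a d g)
      have k5 : Integrable (fun x => (m + 2) * (⟪F x, b a⟫ * ⟪F x, b d⟫ * ⟪F x, b g⟫)
        + ⟪N x, b a⟫ * ⟪N x, b d⟫ * ⟪F x, b g⟫ + ⟪N x, b a⟫ * ⟪N x, b g⟫ * ⟪F x, b d⟫) μ :=
        k4.add (iNNF a g d)
      rw [← integral_const_mul, ← integral_const_mul, ← integral_const_mul,
        ← integral_add k3 (iNNF a d g), ← integral_add k4 (iNNF a g d), ← integral_add k1 k2,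
        ← integral_sub k12 k5]
      refine integral_congr_ae (Filter.Eventually.of_forall fun x => ?_)
      simp only
      rw [← hmdef]
      ring
    rw [e, j, j] at h1
    linear_combination -c * h1
  · intro a d g k
    simp only [hint]
    have h1 := row_B hW hF hmin (b a) (sFFF d g k) (L := fun x =>
      (((if a = d then 1 else 0) - ⟪F x, b a⟫ * ⟪F x, b d⟫ - ⟪N x, b a⟫ * ⟪N x, b d⟫) * ⟪F x, b g⟫
      + ⟪F x, b d⟫ * ((if a = g then 1 else 0) - ⟪F x, b a⟫ * ⟪F x, b g⟫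
        - ⟪N x, b a⟫ * ⟪N x, b g⟫)) * ⟪F x, b k⟫ + ⟪F x, b d⟫ * ⟪F x, b g⟫
        * ((if a = k then 1 else 0) - ⟪F x, b a⟫ * ⟪F x, b k⟫
        - ⟪N x, b a⟫ * ⟪N x, b k⟫)) (fun x => by
        rw [dl_mul (F := F) (b a) (sFF d g) (sF k) x, dl_mul (F := F) (b a) (sF d) (sF g) x,
          dF, dF, dF])
    have e : ∫ x, ((((if a = d then 1 else 0) - ⟪F x, b a⟫ * ⟪F x, b d⟫ - ⟪N x, b a⟫ * ⟪N x, b d⟫)
          * ⟪F x, b g⟫ + ⟪F x, b d⟫ * ((if a = g then 1 else 0) - ⟪F x, b a⟫ * ⟪F x, b g⟫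
          - ⟪N x, b a⟫ * ⟪N x, b g⟫)) * ⟪F x, b k⟫ + ⟪F x, b d⟫ * ⟪F x, b g⟫
          * ((if a = k then 1 else 0) - ⟪F x, b a⟫ * ⟪F x, b k⟫ - ⟪N x, b a⟫ * ⟪N x, b k⟫)
        - (finrank ℝ V : ℝ) * (⟪F x, b a⟫ * (⟪F x, b d⟫ * ⟪F x, b g⟫ * ⟪F x, b k⟫))) ∂μ
        = ((if a = d then 1 else 0) * ∫ x, ⟪F x, b g⟫ * ⟪F x, b k⟫ ∂μ + (if a = g then 1 else 0)
            * ∫ x, ⟪F x, b d⟫ * ⟪F x, b k⟫ ∂μ + (if a = k then 1 else 0)
            * ∫ x, ⟪F x, b d⟫ * ⟪F x, b g⟫ ∂μ)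
          - ((m + 3) * ∫ x, ⟪F x, b a⟫ * ⟪F x, b d⟫ * ⟪F x, b g⟫ * ⟪F x, b k⟫ ∂μ
          + ∫ x, ⟪N x, b a⟫ * ⟪N x, b d⟫ * ⟪F x, b g⟫ * ⟪F x, b k⟫ ∂μ
          + ∫ x, ⟪N x, b a⟫ * ⟪N x, b g⟫ * ⟪F x, b d⟫ * ⟪F x, b k⟫ ∂μ
          + ∫ x, ⟪N x, b a⟫ * ⟪N x, b k⟫ * ⟪F x, b d⟫ * ⟪F x, b g⟫ ∂μ) := by
      have k1 : Integrable (fun x => (if a = d then 1 else 0) * (⟪F x, b g⟫ * ⟪F x, b k⟫)) μ :=
        (iFF g k).const_mul _
      have k2 : Integrable (fun x => (if a = g then 1 else 0) * (⟪F x, b d⟫ * ⟪F x, b k⟫)) μ :=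
        (iFF d k).const_mul _
      have k3 : Integrable (fun x => (if a = k then 1 else 0) * (⟪F x, b d⟫ * ⟪F x, b g⟫)) μ :=
        (iFF d g).const_mul _
      have k12 : Integrable (fun x => (if a = d then 1 else 0) * (⟪F x, b g⟫ * ⟪F x, b k⟫)
        + (if a = g then 1 else 0) * (⟪F x, b d⟫ * ⟪F x, b k⟫)) μ := k1.add k2
      have k123 : Integrable (fun x => (if a = d then 1 else 0) * (⟪F x, b g⟫ * ⟪F x, b k⟫)
        + (if a = g then 1 else 0) * (⟪F x, b d⟫ * ⟪F x, b k⟫)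
        + (if a = k then 1 else 0) * (⟪F x, b d⟫ * ⟪F x, b g⟫)) μ := k12.add k3
      have l1 : Integrable (fun x => (m + 3)
        * (⟪F x, b a⟫ * ⟪F x, b d⟫ * ⟪F x, b g⟫ * ⟪F x, b k⟫)) μ := (iFFFF a d g k).const_mul _
      have l2 : Integrable (fun x => (m + 3)
        * (⟪F x, b a⟫ * ⟪F x, b d⟫ * ⟪F x, b g⟫ * ⟪F x, b k⟫)
        + ⟪N x, b a⟫ * ⟪N x, b d⟫ * ⟪F x, b g⟫ * ⟪F x, b k⟫) μ := l1.add (iNNFF a d g k)
      have l3 : Integrable (fun x => (m + 3)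
        * (⟪F x, b a⟫ * ⟪F x, b d⟫ * ⟪F x, b g⟫ * ⟪F x, b k⟫)
        + ⟪N x, b a⟫ * ⟪N x, b d⟫ * ⟪F x, b g⟫ * ⟪F x, b k⟫
        + ⟪N x, b a⟫ * ⟪N x, b g⟫ * ⟪F x, b d⟫ * ⟪F x, b k⟫) μ := l2.add (iNNFF a g d k)
      have l4 : Integrable (fun x => (m + 3)
        * (⟪F x, b a⟫ * ⟪F x, b d⟫ * ⟪F x, b g⟫ * ⟪F x, b k⟫)
        + ⟪N x, b a⟫ * ⟪N x, b d⟫ * ⟪F x, b g⟫ * ⟪F x, b k⟫
        + ⟪N x, b a⟫ * ⟪N x, b g⟫ * ⟪F x, b d⟫ * ⟪F x, b k⟫
        + ⟪N x, b a⟫ * ⟪N x, b k⟫ * ⟪F x, b d⟫ * ⟪F x, b g⟫) μ := l3.add (iNNFF a k d g)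
      rw [← integral_const_mul, ← integral_const_mul, ← integral_const_mul, ← integral_const_mul,
        ← integral_add l1 (iNNFF a d g k), ← integral_add l2 (iNNFF a g d k),
        ← integral_add l3 (iNNFF a k d g), ← integral_add k1 k2, ← integral_add k12 k3,
        ← integral_sub k123 l4]
      refine integral_congr_ae (Filter.Eventually.of_forall fun x => ?_)
      simp only
      rw [← hmdef]
      ring
    rw [e] at h1
    linear_combination -c * h1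

end

end Vale.Agent.P224.R2.H728
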