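import Vale.Agent.P224.R2.H728.S2Tail
import Vale.Agent.P224.R2.H255.SFacts
import Vale.Agent.P224.R2.H545.S2List
import Vale.Agent.P224.R2.H579.ElF
import Vale.Agent.P224.R2.H579.ElB

/-!
The near range of the dimensions `m ≥ 400` from the relative tails.
-/

namespace Vale.Agent.P224.R2.H728

open MeasureTheory Set Filter Function Real Module Vale.Agent.P224 Vale.Agent.P224.FV
open Vale.Agent.P224.SM2 Vale.Agent.P224.R2.H820
open Vale.Agent.P224.R2.H627 Vale.Agent.P224.R2.H582 Vale.Agent.P224.R2.H470
open Vale.Agent.P224.R2.H460 (ParS tlsOK NearS allOK)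
open Vale.Agent.P224.R2.H925 (Fra lamX lamX_mul abs_X RelU absTail_mono)
open Vale.Agent.P224.R2.H484 (AbsTail)
open Vale.Agent.P224.R2.H176 (NearData)
open scoped Topology RealInnerProductSpace ContDiff Manifold

set_option linter.unusedSectionVars false

lemma par_m0 : H545.par.m0 = 400 := rfl

lemma par_nuf : H545.par.nuf = 21 / 5000 := rfl

lemma par_ab : H545.par.ab = 13 / 200000 := rfl

lemma par_tls : tlsOK H545.par = true := by
  have h := H545.all_ok
  simp only [allOK, Bool.and_eq_true] at h
  exact h.1.1.1.1.1.1.1.1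

section

variable {V W M : Type*} [NormedAddCommGroup V] [InnerProductSpace ℝ V] [FiniteDimensional ℝ V]
  [NormedAddCommGroup W] [InnerProductSpace ℝ W] [FiniteDimensional ℝ W]
  [TopologicalSpace M] [ChartedSpace V M]
  [MeasurableSpace V] [BorelSpace V] [MeasurableSpace M] [BorelSpace M]
  [MeasurableSpace W] [BorelSpace W] [IsManifold 𝓘(ℝ, V) ∞ M]
  [CompactSpace M] [T2Space M]

/-- **The near range of the dimensions from `400` on**, from the relative tails. -/
theorem nearS_400 [Nonempty M] (hm : 400 ≤ finrank ℝ V) (hW : finrank ℝ W = finrank ℝ V + 2)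
    {F : M → W} (hF : SphImm V F) (hmin : ∀ x n, IsUnitNormal V F x n → meanCurv V F x n = 0)
    (hrel : RelU (193 / 10) (133 / 10) V W M H545.par.tls H545.par.nuf (finrank ℝ V) F)
    {N : M → W} {b : OrthonormalBasis (Fin (finrank ℝ W)) ℝ W} {j : Fin (finrank ℝ W) → ℝ}
    (hd : NearData V F N b j H545.par.nuf) : NearS V F N b j := by
  have hmQ : (((400 : ℚ)) : ℝ) ≤ finrank ℝ V := by
    push_cast
    exact_mod_cast hm
  exact nearS_of hm hW hF hmin H545.all_ok par_m0 (by rw [par_nuf]; norm_num)
    (by rw [par_ab]; norm_num) hrel (H255.factA hm hW hF hmin hd)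
    (H255.factB hW hF hmin hd H255.risB_ok (H579.el_field hW hF hmin hd hmQ H579.elsB_ok)) hd

end

end Vale.Agent.P224.R2.H728
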