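import Vale.Agent.P224.R2.H533.CsD400
import Vale.Agent.P224.R2.H545.Par

/-!
The relative tails of the dimensions `m ≥ 400`.
-/

namespace Vale.Agent.P224.R2.H728

open MeasureTheory Set Filter Function Real Module Vale.Agent.P224
open Vale.Agent.P224.R2.H925 (RelU)
open scoped Topology RealInnerProductSpace ContDiff Manifold

set_option linter.unusedSectionVars false

section

variable {V W M : Type*} [NormedAddCommGroup V] [InnerProductSpace ℝ V] [FiniteDimensional ℝ V]
  [NormedAddCommGroup W] [InnerProductSpace ℝ W] [FiniteDimensional ℝ W]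
  [TopologicalSpace M] [ChartedSpace V M]
  [MeasurableSpace V] [BorelSpace V] [MeasurableSpace M] [BorelSpace M]
  [MeasurableSpace W] [BorelSpace W] [IsManifold 𝓘(ℝ, V) ∞ M]
  [CompactSpace M] [T2Space M]

/-- **The relative tails of the dimensions from `400` on.** -/
theorem relU_400 [Nonempty M] (hm : 400 ≤ finrank ℝ V) (hW : finrank ℝ W = finrank ℝ V + 2)
    {F : M → W} (hF : SphImm V F) (hmin : ∀ x n, IsUnitNormal V F x n → meanCurv V F x n = 0)
    {ν : ℝ} : RelU (193 / 10) (133 / 10) V W M H545.par.tls ν (finrank ℝ V) F :=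
  H533.relU_D400 hm hW hF hmin

end

end Vale.Agent.P224.R2.H728
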