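import Vale.Agent.P224.R2.H728.T0p
import Vale.Agent.P224.R2.H728.T0o

/-!
Bounds of the third moments by the defect.
-/

namespace Vale.Agent.P224.R2.H728

open MeasureTheory Set Filter Function Real Finset Matrix

set_option linter.unusedSectionVars false

section

variable {ι Ω : Type*} [Fintype ι] [DecidableEq ι] [MeasurableSpace Ω] {μ : Measure Ω}
  {m : ℝ} {x N : ι → Ω → ℝ} {j : ι → ℝ}

/-- the constant of the quadratic block -/
noncomputable def kq (m : ℝ) : ℝ := 16 / ((m + 1) * (7 * m + 23))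

variable (μ) in
/-- the norm of the third moments of the position -/
noncomputable def nX (x : ι → Ω → ℝ) : ℝ := √(s3 fun a b c => m3 μ x x x a b c ^ 2)

variable (μ) in
/-- the square of the mean normal -/
noncomputable def uu (N : ι → Ω → ℝ) : ℝ := ∑ a, m1 μ N a ^ 2

namespace T0Data

variable (h : T0Data μ m x N)
include h

lemma hh_sum (j : ι → ℝ) : hh μ (diagonal j) x N = ∑ b, m2 μ (zd j x N) (zd j x N) b b := by
  rw [h.hh_eq, ze_diag]

lemma trZ (j : ι → ℝ) (b : ι) : ∑ c, m3 μ (zd j x N) x x b c c = m1 μ N b := by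
  have := h.prob
  have bz := h.bzd j
  rw [← h.m1_zd j b]
  unfold m3 m1
  rw [← integral_finsetSum _ fun c _ => (((bz b).mul (h.bx c)).mul (h.bx c)).int]
  refine integral_congr_ae (Eventually.of_forall fun ω => ?_)
  have e : ∑ c, zd j x N b ω * x c ω * x c ω = zd j x N b ω * ∑ c, x c ω ^ 2 := by
    rw [Finset.mul_sum]
    exact Finset.sum_congr rfl fun c _ => by ring
  change ∑ c, zd j x N b ω * x c ω * x c ω = zd j x N b ω
  rw [e, h.ux, mul_one]

lemma card_eq : ((Finset.univ : Finset ι).card : ℝ) = m + 2 := by rw [← h.card]; rfl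

/-- the norm of `E z x x` -/
theorem Z_sq_le (hm : 0 ≤ m) (j : ι → ℝ) :
    (s3 fun a b c => m3 μ (zd j x N) x x a b c ^ 2)
      ≤ kq m * hh μ (diagonal j) x N + uu μ N / (m + 2) := by
  have hm2 : m + 2 ≠ 0 := by positivity
  set Z := m3 μ (zd j x N) x x with hZ
  set H0 := hh μ (diagonal j) x N with hH0
  have hH : 0 ≤ H0 := h.hh_nonneg _
  set A0 : ι → Matrix ι ι ℝ := fun b => Matrix.of fun c d =>
    Z b c d - m1 μ N b / (m + 2) * (if c = d then 1 else 0) with hA0
  have tr := h.trZ j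
  rw [← hZ] at tr
  have tA : ∀ b, (A0 b).trace = 0 := by
    intro b
    simp only [Matrix.trace, Matrix.diag_apply, hA0, Matrix.of_apply, if_true, mul_one,
      Finset.sum_sub_distrib]
    rw [tr, Finset.sum_const, nsmul_eq_mul, h.card_eq]
    field_simp
    ring
  have b1 := h.bessel hm j A0
  have e0 : ∑ b, m1 μ N b * (A0 b).trace / (m + 2) = 0 :=
    Finset.sum_eq_zero fun b _ => by rw [tA, mul_zero, zero_div]
  rw [e0, sub_zero, ← h.hh_sum, ← hH0] at b1
  have dl : ∀ b, ∑ c, ∑ d, A0 b c d * (m1 μ N b / (m + 2) * (if c = d then 1 else 0)) = 0 := by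
    intro b
    have k1 : ∀ c, ∑ d, A0 b c d * (m1 μ N b / (m + 2) * (if c = d then 1 else 0))
        = A0 b c c * (m1 μ N b / (m + 2)) := by
      intro c
      simp
    simp only [k1, ← Finset.sum_mul]
    have t := tA b
    simp only [Matrix.trace, Matrix.diag_apply] at t
    rw [t, zero_mul]
  have e1 : ∑ b, ∑ c, ∑ d, A0 b c d * m3 μ (zd j x N) x x b c d = fro3 A0 := by
    unfold fro3 fro
    refine Finset.sum_congr rfl fun b _ => ?_
    have k1 := dl b
    have k2 : ∑ c, ∑ d, A0 b c d * m3 μ (zd j x N) x x b c d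
        = ∑ c, ∑ d, A0 b c d ^ 2
          + ∑ c, ∑ d, A0 b c d * (m1 μ N b / (m + 2) * (if c = d then 1 else 0)) := by
      simp only [← Finset.sum_add_distrib]
      refine Finset.sum_congr rfl fun c _ => Finset.sum_congr rfl fun d _ => ?_
      simp only [hA0, Matrix.of_apply, ← hZ]
      ring
    rw [k2, k1, add_zero]
  rw [e1] at b1
  have f0 : 0 ≤ fro3 A0 := fro3_nonneg A0
  have k0 : 0 ≤ kq m := by unfold kq; positivity
  have f1 : fro3 A0 ≤ kq m * H0 := by
    rcases f0.eq_or_lt with h0 | h0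
    · rw [← h0]; positivity
    · have : fro3 A0 * fro3 A0 ≤ kq m * H0 * fro3 A0 := by
        have e : kq m * H0 * fro3 A0 = 16 / ((m + 1) * (7 * m + 23)) * H0 * fro3 A0 := rfl
        rw [e, ← sq]
        exact b1
      exact le_of_mul_le_mul_right this h0
  have e2 : (s3 fun a b c => Z a b c ^ 2) = fro3 A0 + uu μ N / (m + 2) := by
    unfold s3 fro3 fro uu
    rw [Finset.sum_div, ← Finset.sum_add_distrib]
    refine Finset.sum_congr rfl fun b _ => ?_
    have k1 := dl b
    have k2 : ∑ c, ∑ d, Z b c d ^ 2 = ∑ c, ∑ d, A0 b c d ^ 2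
        + 2 * (∑ c, ∑ d, A0 b c d * (m1 μ N b / (m + 2) * (if c = d then 1 else 0)))
        + ∑ c : ι, ∑ d : ι, (m1 μ N b / (m + 2) * (if c = d then (1 : ℝ) else 0)) ^ 2 := by
      simp only [Finset.mul_sum, ← Finset.sum_add_distrib]
      refine Finset.sum_congr rfl fun c _ => Finset.sum_congr rfl fun d _ => ?_
      simp only [hA0, Matrix.of_apply]
      ring
    have k3 : ∑ c : ι, ∑ d : ι, (m1 μ N b / (m + 2) * (if c = d then (1 : ℝ) else 0)) ^ 2
        = m1 μ N b ^ 2 / (m + 2) := by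
      have k4 : ∀ c : ι, ∑ d : ι, (m1 μ N b / (m + 2) * (if c = d then (1 : ℝ) else 0)) ^ 2
          = (m1 μ N b / (m + 2)) ^ 2 := by
        intro c
        simp [mul_ite, ite_pow]
      simp only [k4, Finset.sum_const, nsmul_eq_mul, h.card_eq]
      field_simp
    rw [k2, k1, k3]
    ring
  rw [e2]
  linarith

/-- the trilinear term -/
theorem XY_le (j : ι → ℝ) (T : ι → ι → ι → ℝ) :
    |s3 fun a b c => T a b c * m3 μ x (zd j x N) (zd j x N) a b c|
      ≤ √(s3 fun a b c => T a b c ^ 2) * hh μ (diagonal j) x N := by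
  have := h.prob
  have bz := h.bzd j
  set z := zd j x N with hz
  have e1 : (s3 fun a b c => T a b c * m3 μ x z z a b c)
      = ∫ ω, (s3 fun a b c => T a b c * (x a ω * z b ω * z c ω)) ∂μ := by
    unfold s3 m3
    rw [integral_finsetSum _ fun a _ => (BM.sum _ fun b _ => BM.sum _ fun c _ =>
      (((h.bx a).mul (bz b)).mul (bz c)).const_mul (T a b c)).int]
    refine Finset.sum_congr rfl fun a _ => ?_
    rw [integral_finsetSum _ fun b _ => (BM.sum _ fun c _ =>
      (((h.bx a).mul (bz b)).mul (bz c)).const_mul (T a b c)).int]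
    refine Finset.sum_congr rfl fun b _ => ?_
    rw [integral_finsetSum _ fun c _ => ((((h.bx a).mul (bz b)).mul (bz c)).const_mul (T a b c)).int]
    refine Finset.sum_congr rfl fun c _ => ?_
    rw [integral_const_mul]
  have bI : BM fun ω => s3 fun a b c => T a b c * (x a ω * z b ω * z c ω) :=
    BM.sum _ fun a _ => BM.sum _ fun b _ => BM.sum _ fun c _ =>
      (((h.bx a).mul (bz b)).mul (bz c)).const_mul (T a b c)
  have bS : BM fun ω => ∑ b, z b ω * z b ω := BM.sum _ fun b _ => (bz b).mul (bz b)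
  have e2 : hh μ (diagonal j) x N = ∫ ω, ∑ b, z b ω * z b ω ∂μ := by
    rw [h.hh_sum]
    unfold m2
    rw [← integral_finsetSum _ fun b _ => ((bz b).mul (bz b)).int]
  rw [e1, e2, ← integral_const_mul]
  refine (abs_integral_le_integral_abs).trans (integral_mono bI.int.abs (bS.const_mul _).int ?_)
  intro ω
  have k1 := s3_cs_abs T fun a b c => x a ω * z b ω * z c ω
  have k2 : (s3 fun a b c => (x a ω * z b ω * z c ω) ^ 2) = (∑ b, z b ω * z b ω) ^ 2 := by
    have k3 : (s3 fun a b c => (x a ω * z b ω * z c ω) ^ 2)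
        = (∑ a, x a ω ^ 2) * ((∑ b, z b ω * z b ω) * ∑ b, z b ω * z b ω) := by
      unfold s3
      rw [Finset.sum_mul_sum, Finset.sum_mul]
      refine Finset.sum_congr rfl fun a _ => ?_
      rw [Finset.mul_sum]
      refine Finset.sum_congr rfl fun b _ => ?_
      rw [Finset.mul_sum]
      exact Finset.sum_congr rfl fun c _ => by ring
    rw [k3, h.ux]
    ring
  have k4 : 0 ≤ ∑ b, z b ω * z b ω := Finset.sum_nonneg fun b _ => mul_self_nonneg _
  have k5 : √(s3 fun a b c => (x a ω * z b ω * z c ω) ^ 2) = ∑ b, z b ω * z b ω := by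
    rw [k2, Real.sqrt_sq k4]
  rw [k5] at k1
  exact k1

/-- the norm of the third moments of the position -/
theorem nX_le (hm : 0 ≤ m) (j : ι → ℝ) {ρ : ℝ} (hρ : 0 ≤ ρ) (hj : ∀ a, |j a| ≤ ρ) :
    ((m + 2) / 2 - ρ ^ 2 / 2) * nX μ x
      ≤ 2 * ρ * √(kq m * hh μ (diagonal j) x N + uu μ N / (m + 2))
        + hh μ (diagonal j) x N := by
  have hm1 : m + 1 ≠ 0 := by positivity
  obtain ⟨k1, -, -⟩ := h.rel3 hm1 j
  set X := m3 μ x x x with hX
  set Z := m3 μ (zd j x N) x x with hZ
  set S1 := s3 fun a b c => X a b c ^ 2 with hS1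
  set S3 := s3 fun a b c => j a * j b * X a b c ^ 2 with hS3
  have hS1n : 0 ≤ S1 := s3_nonneg fun a b c => sq_nonneg _
  have hj2 : ∀ a, j a ^ 2 ≤ ρ ^ 2 := fun a => by
    rw [← sq_abs]
    exact pow_le_pow_left₀ (abs_nonneg _) (hj a) 2
  have x12 := h.X12
  have x23 := h.X23
  rw [← hX] at x12 x23
  -- the square of the sum of the three eigenvalues
  have q1 : 0 ≤ 3 * (s3 fun a b c => j a ^ 2 * X a b c ^ 2) + 6 * S3 := by
    have e1 : ∀ a b c, (j a + j b + j c) ^ 2 * X a b c ^ 2
        = (j a ^ 2 * X a b c ^ 2 + j b ^ 2 * X a b c ^ 2 + j c ^ 2 * X a b c ^ 2)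
          + 2 * (j a * j b * X a b c ^ 2 + j b * j c * X a b c ^ 2 + j a * j c * X a b c ^ 2) :=
      fun a b c => by ring
    have e2 : 0 ≤ s3 fun a b c => (j a + j b + j c) ^ 2 * X a b c ^ 2 :=
      s3_nonneg fun a b c => by positivity
    rw [s3_congr e1, s3_add, s3_smul, s3_add, s3_add, s3_add, s3_add] at e2
    have r1 : (s3 fun a b c => j b ^ 2 * X a b c ^ 2) = s3 fun a b c => j a ^ 2 * X a b c ^ 2 := by
      rw [s3_12]
      exact s3_congr fun a b c => by rw [x12 b a c]
    have r2 : (s3 fun a b c => j c ^ 2 * X a b c ^ 2) = s3 fun a b c => j a ^ 2 * X a b c ^ 2 := by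
      rw [s3_23, s3_12]
      exact s3_congr fun a b c => by rw [x12 b c a, x23 c b a, x12 c a b, x23 a c b]
    have r3 : (s3 fun a b c => j b * j c * X a b c ^ 2) = S3 := by
      rw [s3_12, s3_23, hS3]
      exact s3_congr fun a b c => by rw [x12 c a b, x23 a c b]
    have r4 : (s3 fun a b c => j a * j c * X a b c ^ 2) = S3 := by
      rw [s3_23, hS3]
      exact s3_congr fun a b c => by rw [x23 a c b]
    rw [r1, r2, r3, r4] at e2
    linarith
  have q2 : (s3 fun a b c => j a ^ 2 * X a b c ^ 2) ≤ ρ ^ 2 * S1 := by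
    rw [hS1, ← s3_smul]
    exact s3_le fun a b c => mul_le_mul_of_nonneg_right (hj2 a) (sq_nonneg _)
  -- the pairing with `E z x x`
  have q3 : |s3 fun a b c => j a * (X a b c * Z b a c)|
      ≤ ρ * √S1 * √(s3 fun a b c => Z a b c ^ 2) := by
    have e1 : (s3 fun a b c => j a * (X a b c * Z b a c))
        = s3 fun a b c => (j a * X a b c) * Z b a c := s3_congr fun a b c => by ring
    rw [e1]
    refine (s3_cs_abs (fun a b c => j a * X a b c) fun a b c => Z b a c).trans ?_
    have e2 : (s3 fun a b c => Z b a c ^ 2) = s3 fun a b c => Z a b c ^ 2 := by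
      rw [s3_12]
    rw [e2]
    refine mul_le_mul_of_nonneg_right ?_ (Real.sqrt_nonneg _)
    rw [← Real.sqrt_sq hρ, ← Real.sqrt_mul (sq_nonneg ρ)]
    refine Real.sqrt_le_sqrt ?_
    have e3 : (s3 fun a b c => (j a * X a b c) ^ 2) = s3 fun a b c => j a ^ 2 * X a b c ^ 2 :=
      s3_congr fun a b c => by ring
    rw [e3]
    exact q2
  have q4 : √(s3 fun a b c => Z a b c ^ 2)
      ≤ √(kq m * hh μ (diagonal j) x N + uu μ N / (m + 2)) :=
    Real.sqrt_le_sqrt (h.Z_sq_le hm j)
  have q5 := h.XY_le j X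
  have hn : nX μ x = √S1 := rfl
  have hs : √S1 * √S1 = S1 := Real.mul_self_sqrt hS1n
  rw [← hS1] at q5
  rw [hn]
  set s := √S1 with hsd
  have hs0 : 0 ≤ s := Real.sqrt_nonneg _
  set z := √(kq m * hh μ (diagonal j) x N + uu μ N / (m + 2)) with hz
  have q6 : |s3 fun a b c => j a * (X a b c * Z b a c)| ≤ ρ * s * z :=
    q3.trans (mul_le_mul_of_nonneg_left q4 (by positivity))
  have q7 := (abs_le.1 q6).1
  have q8 := (abs_le.1 q5).1
  rcases hs0.eq_or_lt with h0 | h0
  · rw [← h0, mul_zero]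
    have := h.hh_nonneg (diagonal j)
    positivity
  · have q9 : ((m + 2) / 2 - ρ ^ 2 / 2) * s * s
        ≤ (2 * ρ * z + hh μ (diagonal j) x N) * s := by
      have : ((m + 2) / 2 - ρ ^ 2 / 2) * s * s = (m + 2) / 2 * S1 - ρ ^ 2 / 2 * S1 := by
        rw [← hs]; ring
      rw [this, k1]
      nlinarith
    exact le_of_mul_le_mul_right q9 h0

end T0Data

end

end Vale.Agent.P224.R2.H728
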