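import Vale.Agent.P224.R2.H728.Nc
import Vale.Agent.P224.R2.H728.T0m

/-!
The near law for a minimal hypersurface: from the instances of the law and the checked table to
the sharp inequality or to the small box.
-/

namespace Vale.Agent.P224.R2.H728

open MeasureTheory Set Filter Function Real Finset Matrix Module Vale.Agent.P224
  Vale.Agent.P224.FV Vale.Agent.P224.R2.H582 Vale.Agent.P224.R2.H820 Vale.Agent.P224.R2.H627
open Vale.Agent.P224.SM2 hiding ker
open scoped Topology RealInnerProductSpace ContDiff Manifold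

set_option linter.unusedSectionVars false

lemma wQ_cast (m : ℚ) : ((wQ m : ℚ) : ℝ) = m / (((m : ℝ) + 2) * (m + 4)) := by
  unfold wQ
  push_cast
  ring

section

variable {V W M : Type*} [NormedAddCommGroup V] [InnerProductSpace ℝ V] [FiniteDimensional ℝ V]
  [NormedAddCommGroup W] [InnerProductSpace ℝ W] [FiniteDimensional ℝ W]
  [TopologicalSpace M] [ChartedSpace V M]
  [MeasurableSpace V] [BorelSpace V] [MeasurableSpace M] [BorelSpace M]
  [MeasurableSpace W] [BorelSpace W] [IsManifold 𝓘(ℝ, V) ∞ M]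
  [CompactSpace M] [T2Space M]

/-- the instances of the law needed by the checker, in a basis -/
structure LawIn (V : Type*) [NormedAddCommGroup V] [InnerProductSpace ℝ V]
    [FiniteDimensional ℝ V] [MeasurableSpace V] [BorelSpace V]
    {W M : Type*} [NormedAddCommGroup W] [InnerProductSpace ℝ W] [FiniteDimensional ℝ W]
    [MeasurableSpace W] [BorelSpace W] [TopologicalSpace M] [ChartedSpace V M]
    [MeasurableSpace M] [BorelSpace M] (F N : M → W) (m : ℕ) (p : ParQ) (laws : List LawQ)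
    {ι : Type*} [Fintype ι] [DecidableEq ι] (b : OrthonormalBasis ι ℝ W) (j : ι → ℝ) : Prop where
  main : ∀ q ∈ laws, √(fro (De (nrm (volM V F)) (co b F) (co b N))) ≤ q.d →
    hh (nrm (volM V F)) (diagonal j) (co b F) (co b N) ≤ q.h →
    ∃ W0 W1 τ : ℝ, (q.W0 : ℝ) ≤ W0 ∧ W1 ≤ q.W1
      ∧ τ ≤ q.rel * hh (nrm (volM V F)) (diagonal j) (co b F) (co b N) ∧ τ ≤ q.ab
      ∧ 2 * lamM m * (sphereVol m / (volM V F).real univ)
        + (W0 * Qpt (nrm (volM V F)) m (co b F) (co b N)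
        + W1 * min (Qpts (nrm (volM V F)) m (co b F) (co b N)
          + q.σ * Qpt (nrm (volM V F)) m (co b F) (co b N)) 0
        + m / ((m + 2) * (m + 4)) * Qcs (nrm (volM V F)) (co b F) (co b N)
        + m * (m + 1) * EM m 1 * Qcss (nrm (volM V F)) m (co b F) (co b N) - τ)
      ≤ 1 + m * rM m 0 * ∑ i, m1 (nrm (volM V F)) (co b N) i ^ 2
  crude : ∃ WU τ : ℝ, (p.WU : ℝ) ≤ WU ∧ τ ≤ p.tU
      ∧ 2 * lamM m * (sphereVol m / (volM V F).real univ)
        + (WU * Qpt (nrm (volM V F)) m (co b F) (co b N) - τ)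
      ≤ 1 + m * rM m 0 * ∑ i, m1 (nrm (volM V F)) (co b N) i ^ 2
  first : ∃ τ : ℝ, τ ≤ p.tV
      ∧ 2 * lamM m * (sphereVol m / (volM V F).real univ)
        + (m / ((m + 2) * (m + 4)) * Qcs (nrm (volM V F)) (co b F) (co b N)
        + m * (m + 1) * EM m 1 * Qcss (nrm (volM V F)) m (co b F) (co b N) - τ)
      ≤ 1 + m * rM m 0 * ∑ i, m1 (nrm (volM V F)) (co b N) i ^ 2

/-- **The near law.** -/
theorem near_box [Nonempty M] (hm : 1 ≤ finrank ℝ V) (hW : finrank ℝ W = finrank ℝ V + 2)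
    {F : M → W} (hF : SphImm V F) (hmin : ∀ x n, IsUnitNormal V F x n → meanCurv V F x n = 0)
    {N : M → W} (hNs : ContMDiff 𝓘(ℝ, V) 𝓘(ℝ, W) ∞ N) (hN : ∀ x, IsUnitNormal V F x (N x))
    {m : ℕ} (hmm : m = finrank ℝ V)
    {p : ParQ} {laws : List LawQ} {els : List ElQ} {cols : List ColQ}
    (hok : nearOK p laws els cols = true) (hpm : p.m = m)
    (hγ : m * rM m 0 ≤ p.Γ) (hEL : (p.EL : ℝ) ≤ m * (m + 1) * EM m 1)
    (hE : m * (m + 1) * EM m 1 ≤ p.E)
    (hν : ‖∫ x, N x ∂(volM V F)‖ ≤ p.ν * (volM V F).real univ)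
    (hlaw : ∀ (b : OrthonormalBasis (Fin (finrank ℝ W)) ℝ W) (j : Fin (finrank ℝ W) → ℝ),
      T0Data (nrm (volM V F)) m (co b F) (co b N) →
      LSq (nrm (volM V F)) (diagonal j) (co b F) (co b N) → LawIn V F N m p laws b j)
    (hel : ∀ (b : OrthonormalBasis (Fin (finrank ℝ W)) ℝ W) (j : Fin (finrank ℝ W) → ℝ),
      T0Data (nrm (volM V F)) m (co b F) (co b N) →
      LSq (nrm (volM V F)) (diagonal j) (co b F) (co b N) →
      ∀ f ∈ els, √(fro (De (nrm (volM V F)) (co b F) (co b N))) ≤ f.d →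
        hh (nrm (volM V F)) (diagonal j) (co b F) (co b N) ≤ f.h →
        f.L * √(uu (nrm (volM V F)) (co b N))
          ≤ f.K * hh (nrm (volM V F)) (diagonal j) (co b F) (co b N))
    (hgap : 1 - p.gp < 2 * lamM m * (sphereVol m / (volM V F).real univ)) :
    ∃ (b : OrthonormalBasis (Fin (finrank ℝ W)) ℝ W) (j : Fin (finrank ℝ W) → ℝ),
      T0Data (nrm (volM V F)) m (co b F) (co b N) ∧
      LSq (nrm (volM V F)) (diagonal j) (co b F) (co b N) ∧
      hh (nrm (volM V F)) (diagonal j) (co b F) (co b N) ≤ p.h1 ∧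
      √(fro (De (nrm (volM V F)) (co b F) (co b N))) ≤ p.d1 := by
  subst hmm
  have hfin : IsFiniteMeasure (volM V F) := isFiniteMeasure_volM hF
  have hvpos : 0 < volM V F univ := volM_pos_of_isOpen hW hF isOpen_univ univ_nonempty
  have hnz : NeZero (volM V F) := ⟨fun h => by rw [h] at hvpos; simp at hvpos⟩
  have hA : 0 < (volM V F).real univ := ENNReal.toReal_pos hvpos.ne' (measure_ne_top _ _)
  obtain ⟨b, j, hT, hL⟩ := exists_eigen hm hW hF hmin hNs hN
  change T0Data (nrm (volM V F)) (finrank ℝ V) (co b F) (co b N) at hT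
  change LSq (nrm (volM V F)) (diagonal j) (co b F) (co b N) at hL
  have hl := hlaw b j hT hL
  have hcN : Continuous N := hNs.continuous
  have e6 : ‖∫ x, N x ∂(volM V F)‖ ^ 2
      = (volM V F).real univ ^ 2 * ∑ i, m1 (nrm (volM V F)) (co b N) i ^ 2 :=
    sum_m1_sq b (hcN.integrable_of_hasCompactSupport (HasCompactSupport.of_compactSpace N))
  have hpmR : (p.m : ℝ) = (finrank ℝ V : ℝ) := by
    rw [hpm]
    push_cast
    rfl
  have huu : uu (nrm (volM V F)) (co b N) = ∑ i, m1 (nrm (volM V F)) (co b N) i ^ 2 := rfl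
  have hs : √(uu (nrm (volM V F)) (co b N)) ≤ p.ν := by
    rw [← huu] at e6
    have k1 : √(uu (nrm (volM V F)) (co b N)) * (volM V F).real univ
        = ‖∫ x, N x ∂(volM V F)‖ := by
      rw [← Real.sqrt_sq (norm_nonneg (∫ x, N x ∂(volM V F))), e6, Real.sqrt_mul (sq_nonneg _),
        Real.sqrt_sq hA.le, mul_comm]
    rw [← k1] at hν
    exact le_of_mul_le_mul_right hν hA
  have H : NearHyp (nrm (volM V F)) p laws els (co b F) (co b N) j
      (finrank ℝ V * rM (finrank ℝ V) 0)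
      (finrank ℝ V * (finrank ℝ V + 1) * EM (finrank ℝ V) 1) := by
    refine ⟨by rw [hpmR]; exact hT, hL, hγ, hEL, hE, hs, ?_, hel b j hT hL⟩
    intro q hq hd hh1
    obtain ⟨W0, W1, τ, k1, k2, k3, k4, k5⟩ := hl.main q hq hd hh1
    refine ⟨W0, W1, τ, k1, k2, k3, k4, ?_⟩
    unfold XL
    rw [wQ_cast, hpmR, huu]
    linarith
  obtain ⟨WU, τU, u1, u2, u3⟩ := hl.crude
  obtain ⟨τV, v1, v2⟩ := hl.first
  have hfinal := near_sound hok H u1 u2 v1 (by rw [hpmR, huu]; linarith)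
    (by unfold XL; rw [wQ_cast, hpmR, huu]; linarith)
  exact ⟨b, j, hT, hL, hfinal⟩

/-- **The near law in even dimension**: no small box. -/
theorem near_even [Nonempty M] (hm : 1 ≤ finrank ℝ V) (hW : finrank ℝ W = finrank ℝ V + 2)
    {F : M → W} (hF : SphImm V F) (hmin : ∀ x n, IsUnitNormal V F x n → meanCurv V F x n = 0)
    {N : M → W} (hNs : ContMDiff 𝓘(ℝ, V) 𝓘(ℝ, W) ∞ N) (hN : ∀ x, IsUnitNormal V F x (N x))
    {m : ℕ} (hmm : m = finrank ℝ V)
    {p : ParQ} {laws : List LawQ} {els : List ElQ} {cols : List ColQ}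
    (hok : nearOK p laws els cols = true) (hpm : p.m = m) (hp1 : p.h1 < 0) (hgp : p.gp = 0)
    (hγ : m * rM m 0 ≤ p.Γ) (hEL : (p.EL : ℝ) ≤ m * (m + 1) * EM m 1)
    (hE : m * (m + 1) * EM m 1 ≤ p.E)
    (hν : ‖∫ x, N x ∂(volM V F)‖ ≤ p.ν * (volM V F).real univ)
    (hlaw : ∀ (b : OrthonormalBasis (Fin (finrank ℝ W)) ℝ W) (j : Fin (finrank ℝ W) → ℝ),
      T0Data (nrm (volM V F)) m (co b F) (co b N) →
      LSq (nrm (volM V F)) (diagonal j) (co b F) (co b N) → LawIn V F N m p laws b j)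
    (hel : ∀ (b : OrthonormalBasis (Fin (finrank ℝ W)) ℝ W) (j : Fin (finrank ℝ W) → ℝ),
      T0Data (nrm (volM V F)) m (co b F) (co b N) →
      LSq (nrm (volM V F)) (diagonal j) (co b F) (co b N) →
      ∀ f ∈ els, √(fro (De (nrm (volM V F)) (co b F) (co b N))) ≤ f.d →
        hh (nrm (volM V F)) (diagonal j) (co b F) (co b N) ≤ f.h →
        f.L * √(uu (nrm (volM V F)) (co b N))
          ≤ f.K * hh (nrm (volM V F)) (diagonal j) (co b F) (co b N)) :
    2 * lamM m * (sphereVol m / (volM V F).real univ) ≤ 1 := by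
  by_contra hlt
  push Not at hlt
  have hgap : 1 - (p.gp : ℝ) < 2 * lamM m * (sphereVol m / (volM V F).real univ) := by
    rw [hgp]
    push_cast
    linarith
  obtain ⟨b, j, hT, -, h1, -⟩ := near_box hm hW hF hmin hNs hN hmm hok hpm hγ hEL hE hν hlaw hel
    hgap
  have h2 := hT.hh_nonneg (diagonal j)
  have h3 : (p.h1 : ℝ) < 0 := by exact_mod_cast hp1
  linarith

end

end Vale.Agent.P224.R2.H728
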