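import Vale.Agent.P224.R2.H728.S2Inst

/-!
The relative tail of the large dimensions for a volume below the sharp bound.
-/

namespace Vale.Agent.P224.R2.H728

open MeasureTheory Set Filter Function Real Module Vale.Agent.P224 Vale.Agent.P224.FV
open Vale.Agent.P224.SM2 Vale.Agent.P224.R2.H820
open Vale.Agent.P224.R2.H627 Vale.Agent.P224.R2.H582 Vale.Agent.P224.R2.H470
open Vale.Agent.P224.R2.H460 (ParS tlsOK NearS)
open Vale.Agent.P224.R2.H925 (Fra lamX lamX_mul abs_X RelU absTail_mono)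
open Vale.Agent.P224.R2.H484 (AbsTail)
open Vale.Agent.P224.R2.H176 (NearData)
open Vale.Agent.P224.R2.H662 (jj_bounds)
open scoped Topology RealInnerProductSpace ContDiff Manifold

set_option linter.unusedSectionVars false

section

variable {V W M : Type*} [NormedAddCommGroup V] [InnerProductSpace ℝ V] [FiniteDimensional ℝ V]
  [NormedAddCommGroup W] [InnerProductSpace ℝ W] [FiniteDimensional ℝ W]
  [TopologicalSpace M] [ChartedSpace V M]
  [MeasurableSpace V] [BorelSpace V] [MeasurableSpace M] [BorelSpace M]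
  [MeasurableSpace W] [BorelSpace W] [IsManifold 𝓘(ℝ, V) ∞ M]
  [CompactSpace M] [T2Space M]

/-- **The relative tail below the sharp bound.** -/
theorem tailS_low [Nonempty M] (hm : 400 ≤ finrank ℝ V) (hW : finrank ℝ W = finrank ℝ V + 2)
    {F : M → W} (hF : SphImm V F) (hmin : ∀ x n, IsUnitNormal V F x n → meanCurv V F x n = 0)
    {p : ParS} (htls : tlsOK p = true) (hnu : p.nuf ≤ 11 / 2000)
    (hrel : RelU (193 / 10) (133 / 10) V W M p.tls p.nuf (finrank ℝ V) F)
    {N : M → W} {b : OrthonormalBasis (Fin (finrank ℝ W)) ℝ W} {j : Fin (finrank ℝ W) → ℝ}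
    (hd : NearData V F N b j p.nuf) {gp : ℝ} (hgp : gp ≤ 1 / 10 ^ 8)
    (hlow : 1 < 2 * lamM (finrank ℝ V) * (sphereVol (finrank ℝ V) / (volM V F).real univ) + gp) :
    AbsTail (volM V F) (finrank ℝ V) F N (fun T => (1 - T ^ 2) * lamS T)
      (1 / 10 * hh (nrm (volM V F)) (Matrix.diagonal j) (co b F) (co b N)) := by
  have hfin : IsFiniteMeasure (volM V F) := isFiniteMeasure_volM hF
  have hmR : (400 : ℝ) ≤ finrank ℝ V := by exact_mod_cast hm
  have hu : uu (nrm (volM V F)) (co b N) ≤ (11 / 2000) ^ 2 := by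
    have hu0 : 0 ≤ uu (nrm (volM V F)) (co b N) := Finset.sum_nonneg fun i _ => sq_nonneg _
    have h1 : (p.nuf : ℝ) ≤ 11 / 2000 := by
      have h' : ((p.nuf : ℚ) : ℝ) ≤ ((11 / 2000 : ℚ) : ℝ) := by exact_mod_cast hnu
      push_cast at h'
      exact h'
    have h2 := pow_le_pow_left₀ (Real.sqrt_nonneg _) (hd.mean.le.trans h1) 2
    rwa [Real.sq_sqrt hu0] at h2
  have hs := step0_m2_11 hm hW hF hmin hd.smooth hd.unit hd.inj b rfl (fraS hm) (beR_low hm)
    (absS hm hW hF hmin hd.smooth hd.unit) hgp hu (H255.mr0_le_400 hm) hlow le_rfl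
  simp only [tlsOK, Bool.and_eq_true, decide_eq_true_eq, List.any_eq_true] at htls
  obtain ⟨-, ⟨k, hk, ka, kb⟩⟩ := htls
  have kaR : ((11 / 100 : ℚ) : ℝ) ≤ ((k.1 * (1 - 11 / 100) : ℚ) : ℝ) := by exact_mod_cast ka
  push_cast at kaR
  have kbR : ((k.2 : ℚ) : ℝ) ≤ ((1 / 10 : ℚ) : ℝ) := by exact_mod_cast kb
  push_cast at kbR
  have hj : ∀ a, j a ^ 2 ≤ (k.1 : ℝ) * (finrank ℝ V + 1) := by
    intro a
    obtain ⟨hj, -⟩ := jj_bounds b hd.t0 hd.lsq (by norm_num : (11 / 100 : ℝ) < 1) hs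
    refine (hj a).trans (mul_le_mul_of_nonneg_right ?_ (by positivity))
    rw [div_le_iff₀ (by linarith)]
    exact kaR
  have hh0 := hd.t0.hh_nonneg (Matrix.diagonal j)
  exact absTail_mono (hrel N b j hd k hk hj) (mul_le_mul_of_nonneg_right kbR hh0)

end

end Vale.Agent.P224.R2.H728
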