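import Vale.Agent.P224.R2.H728.Gau

/-!
The complex Gaussian form of the Mehler kernel.
-/

namespace Vale.Agent.P224.R2.H728

open MeasureTheory Set Filter Function Complex Real Module
open scoped Topology RealInnerProductSpace ComplexConjugate

set_option linter.unusedSectionVars false

section

variable {V : Type*} [NormedAddCommGroup V] [InnerProductSpace ℝ V] [FiniteDimensional ℝ V]
  [MeasurableSpace V] [BorelSpace V]

/-- the bilinear pairing with a complex vector -/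
noncomputable def cin (x : V) (z : V × V) : ℂ := ⟪x, z.1⟫ + I * ⟪x, z.2⟫

/-- the bilinear square of a complex vector -/
noncomputable def cq (z : V × V) : ℂ := ‖z.1‖ ^ 2 - ‖z.2‖ ^ 2 + 2 * I * ⟪z.1, z.2⟫

/-- the coherent state -/
noncomputable def coh (lam : ℂ) (X : V) (z : V × V) : ℂ := cexp (lam * cin X z - lam ^ 2 / 2 * cq z)

/-- the Gaussian weight -/
noncomputable def gwt (z : V × V) : ℝ := rexp (-‖z.1‖ ^ 2 - ‖z.2‖ ^ 2)

lemma continuous_cin (x : V) : Continuous (cin x) := by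
  unfold cin
  fun_prop

lemma continuous_cq : Continuous (cq : V × V → ℂ) := by
  unfold cq
  fun_prop

lemma continuous_coh (lam : ℂ) (X : V) : Continuous (coh lam X) := by
  have h1 := continuous_cin X
  have h2 := continuous_cq (V := V)
  unfold coh
  fun_prop

lemma continuous_gwt : Continuous (gwt : V × V → ℝ) := by
  unfold gwt
  fun_prop

lemma conj_cin (x : V) (z : V × V) : conj (cin x z) = ⟪x, z.1⟫ - I * ⟪x, z.2⟫ := by
  unfold cin
  simp [sub_eq_add_neg]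

lemma conj_cq (z : V × V) : conj (cq z) = ‖z.1‖ ^ 2 - ‖z.2‖ ^ 2 - 2 * I * ⟪z.1, z.2⟫ := by
  unfold cq
  simp only [map_sub, map_add, map_mul, map_pow, Complex.conj_ofReal, Complex.conj_I, map_ofNat]
  ring

/-- the Mehler kernel times the mass of the weight -/
noncomputable def MM (T : ℝ) (X Y : V) : ℝ :=
  (π / (1 + T)) ^ (finrank ℝ V / 2 : ℝ) * (π / (1 - T)) ^ (finrank ℝ V / 2 : ℝ)
    * rexp (-(T ^ 2 * (‖X‖ ^ 2 + ‖Y‖ ^ 2) - 2 * T * ⟪X, Y⟫) / (2 * (1 - T ^ 2)))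

lemma gc_eq {b : ℝ} (hb : 0 < b) : gc V b = (((π / b) ^ (finrank ℝ V / 2 : ℝ) : ℝ) : ℂ) := by
  unfold gc
  rw [Complex.ofReal_cpow (by positivity)]
  push_cast
  rfl

/-- the product of two coherent states with the weight -/
lemma coh_mul (T : ℝ) (hT : 0 ≤ T) (X Y : V) (z : V × V) :
    coh (√T : ℝ) X z * conj (coh (√T : ℝ) Y z) * gwt z
      = gw (1 + T) 1 (√T • (X + Y)) z.1 * gw (1 - T) I (√T • (X - Y)) z.2 := by
  unfold coh gwt gw
  rw [← Complex.exp_conj, Complex.ofReal_exp, ← Complex.exp_add, ← Complex.exp_add,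
    ← Complex.exp_add]
  congr 1
  simp only [map_sub, map_mul, map_div₀, map_pow, Complex.conj_ofReal, conj_cin, conj_cq,
    map_ofNat]
  unfold cin cq
  have h1 : ((√T : ℝ) : ℂ) ^ 2 = T := by
    rw [← Complex.ofReal_pow, Real.sq_sqrt hT]
  rw [h1]
  simp only [real_inner_smul_left, inner_add_left, inner_sub_left]
  push_cast
  ring

/-- the kernel integral -/
theorem kern_integral {T : ℝ} (h0 : 0 < T) (h1 : T < 1) (α β X Y : V) :
    ∫ z : V × V, cin α z * conj (cin β z) * (coh (√T : ℝ) X z * conj (coh (√T : ℝ) Y z) * gwt z)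
      = (((⟪α, β⟫ / (1 - T ^ 2) + T / (1 - T ^ 2) ^ 2 * ⟪α, Y - T • X⟫ * ⟪β, X - T • Y⟫)
        * MM T X Y : ℝ) : ℂ) := by
  have hp : 0 < 1 + T := by linarith
  have hm : 0 < 1 - T := by linarith
  set wa : V := √T • (X + Y) with hwa
  set wb : V := √T • (X - Y) with hwb
  set ga : V → ℂ := gw (1 + T) 1 wa with hga
  set gb : V → ℂ := gw (1 - T) I wb with hgb
  have bd1 : ∀ (γ : V) (v : V), ‖(⟪γ, v⟫ : ℂ)‖ ≤ ‖γ‖ * (1 + ‖v‖) ^ 1 := by
    intro γ v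
    rw [Complex.norm_real, Real.norm_eq_abs, pow_one]
    refine (abs_real_inner_le_norm γ v).trans ?_
    gcongr
    linarith
  have bd2 : ∀ (γ δ : V) (v : V), ‖(⟪γ, v⟫ : ℂ) * (⟪δ, v⟫ : ℂ)‖
      ≤ (‖γ‖ * ‖δ‖) * (1 + ‖v‖) ^ 2 := by
    intro γ δ v
    rw [norm_mul]
    have := mul_le_mul (bd1 γ v) (bd1 δ v) (norm_nonneg _) ((norm_nonneg _).trans (bd1 γ v))
    refine this.trans (le_of_eq (by ring))
  have bd0 : ∀ (v : V), ‖(1 : ℂ)‖ ≤ 1 * (1 + ‖v‖) ^ 0 := by intro v; simp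
  -- integrability
  have ia0 : Integrable ga := by
    have := integrable_mul_gw hp 1 wa (P := fun _ => 1) continuous_const bd0
    simpa using this
  have ib0 : Integrable gb := by
    have := integrable_mul_gw hm I wb (P := fun _ => 1) continuous_const bd0
    simpa using this
  have ia1 : ∀ γ, Integrable (fun v => (⟪γ, v⟫ : ℂ) * ga v) := fun γ =>
    integrable_mul_gw hp 1 wa (by fun_prop) (bd1 γ)
  have ib1 : ∀ γ, Integrable (fun v => (⟪γ, v⟫ : ℂ) * gb v) := fun γ =>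
    integrable_mul_gw hm I wb (by fun_prop) (bd1 γ)
  have ia2 : Integrable (fun v => (⟪α, v⟫ : ℂ) * (⟪β, v⟫ : ℂ) * ga v) :=
    integrable_mul_gw hp 1 wa (by fun_prop) (bd2 α β)
  have ib2 : Integrable (fun v => (⟪α, v⟫ : ℂ) * (⟪β, v⟫ : ℂ) * gb v) :=
    integrable_mul_gw hm I wb (by fun_prop) (bd2 α β)
  have e : (fun z : V × V => cin α z * conj (cin β z)
      * (coh (√T : ℝ) X z * conj (coh (√T : ℝ) Y z) * gwt z))
      = fun z => ((((⟪α, z.1⟫ : ℂ) * (⟪β, z.1⟫ : ℂ) * ga z.1) * gb z.2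
        + ga z.1 * ((⟪α, z.2⟫ : ℂ) * (⟪β, z.2⟫ : ℂ) * gb z.2))
        + I * (((⟪β, z.1⟫ : ℂ) * ga z.1) * ((⟪α, z.2⟫ : ℂ) * gb z.2)))
        - I * (((⟪α, z.1⟫ : ℂ) * ga z.1) * ((⟪β, z.2⟫ : ℂ) * gb z.2)) := by
    funext z
    rw [coh_mul T h0.le, conj_cin]
    unfold cin
    have hI : I * I = -1 := Complex.I_mul_I
    linear_combination (-(⟪α, z.2⟫ : ℂ) * ⟪β, z.2⟫ * (ga z.1 * gb z.2)) * hI
  rw [e]
  have j1 := ia2.mul_prod ib0
  have j2 := ia0.mul_prod ib2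
  have j3 := ((ia1 β).mul_prod (ib1 α)).const_mul I
  have j4 := ((ia1 α).mul_prod (ib1 β)).const_mul I
  have s1 := integral_prod_mul (μ := (volume : Measure V)) (ν := (volume : Measure V))
    (fun v => (⟪α, v⟫ : ℂ) * (⟪β, v⟫ : ℂ) * ga v) gb
  have s2 := integral_prod_mul (μ := (volume : Measure V)) (ν := (volume : Measure V))
    ga (fun v => (⟪α, v⟫ : ℂ) * (⟪β, v⟫ : ℂ) * gb v)
  have s3 := integral_prod_mul (μ := (volume : Measure V)) (ν := (volume : Measure V))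
    (fun v => (⟪β, v⟫ : ℂ) * ga v) (fun v => (⟪α, v⟫ : ℂ) * gb v)
  have s4 := integral_prod_mul (μ := (volume : Measure V)) (ν := (volume : Measure V))
    (fun v => (⟪α, v⟫ : ℂ) * ga v) (fun v => (⟪β, v⟫ : ℂ) * gb v)
  rw [Measure.volume_eq_prod]
  have e2 := integral_sub ((j1.add j2).add j3) j4
  have e3 := integral_add (j1.add j2) j3
  have e4 := integral_add j1 j2
  simp only [Pi.add_apply] at e2 e3 e4
  rw [e2, e3, e4, integral_const_mul, integral_const_mul, s1, s2, s3, s4]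
  rw [integral_inner_inner_gw hp one_ne_zero, integral_inner_inner_gw hm I_ne_zero,
    integral_inner_gw hp one_ne_zero, integral_inner_gw hp one_ne_zero,
    integral_inner_gw hm I_ne_zero, integral_inner_gw hm I_ne_zero, integral_gw hp,
    integral_gw hm, gc_eq hp, gc_eq hm]
  have hexp : cexp (1 ^ 2 * ‖wa‖ ^ 2 / (4 * ((1 + T : ℝ) : ℂ)))
      * cexp (I ^ 2 * ‖wb‖ ^ 2 / (4 * ((1 - T : ℝ) : ℂ)))
      = ((rexp (-(T ^ 2 * (‖X‖ ^ 2 + ‖Y‖ ^ 2) - 2 * T * ⟪X, Y⟫) / (2 * (1 - T ^ 2))) : ℝ) : ℂ) := by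
    rw [← Complex.exp_add, Complex.ofReal_exp]
    congr 1
    have n1 : ‖wa‖ ^ 2 = T * (‖X‖ ^ 2 + 2 * ⟪X, Y⟫ + ‖Y‖ ^ 2) := by
      rw [hwa, norm_smul, mul_pow, norm_add_sq_real, Real.norm_eq_abs, sq_abs, Real.sq_sqrt h0.le]
    have n2 : ‖wb‖ ^ 2 = T * (‖X‖ ^ 2 - 2 * ⟪X, Y⟫ + ‖Y‖ ^ 2) := by
      rw [hwb, norm_smul, mul_pow, norm_sub_sq_real, Real.norm_eq_abs, sq_abs, Real.sq_sqrt h0.le]
    rw [Complex.I_sq, ← Complex.ofReal_pow, ← Complex.ofReal_pow, n1, n2]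
    have hp' : (1 + T : ℂ) ≠ 0 := by exact_mod_cast hp.ne'
    have hm' : (1 - T : ℂ) ≠ 0 := by exact_mod_cast hm.ne'
    have hk' : (1 - T ^ 2 : ℂ) ≠ 0 := by
      have : (1 - (T : ℂ) ^ 2) = (1 + T) * (1 - T) := by ring
      rw [this]
      exact mul_ne_zero hp' hm'
    push_cast
    field_simp
    ring
  have hwaα : ∀ γ, (⟪wa, γ⟫ : ℝ) = √T * (⟪X, γ⟫ + ⟪Y, γ⟫) := by
    intro γ
    rw [hwa, real_inner_smul_left, inner_add_left]
  have hwbα : ∀ γ, (⟪wb, γ⟫ : ℝ) = √T * (⟪X, γ⟫ - ⟪Y, γ⟫) := by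
    intro γ
    rw [hwb, real_inner_smul_left, inner_sub_left]
  unfold MM
  rw [hwaα, hwaα, hwbα, hwbα]
  simp only [inner_sub_right, real_inner_smul_right]
  rw [real_inner_comm X α, real_inner_comm Y α, real_inner_comm X β, real_inner_comm Y β]
  set sT : ℝ := √T with hsT
  have hsq : (sT : ℂ) * sT = T := by
    rw [← Complex.ofReal_mul, Real.mul_self_sqrt h0.le]
  have hp' : (1 + T : ℂ) ≠ 0 := by exact_mod_cast hp.ne'
  have hm' : (1 - T : ℂ) ≠ 0 := by exact_mod_cast hm.ne'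
  have hk' : (1 - T ^ 2 : ℂ) ≠ 0 := by
    have : (1 - (T : ℂ) ^ 2) = (1 + T) * (1 - T) := by ring
    rw [this]
    exact mul_ne_zero hp' hm'
  have hI : I * I = -1 := Complex.I_mul_I
  generalize hE1 : cexp (1 ^ 2 * ‖wa‖ ^ 2 / (4 * ((1 + T : ℝ) : ℂ))) = E1 at hexp ⊢
  generalize hE2 : cexp (I ^ 2 * ‖wb‖ ^ 2 / (4 * ((1 - T : ℝ) : ℂ))) = E2 at hexp ⊢
  generalize hP1 : (π / (1 + T)) ^ (finrank ℝ V / 2 : ℝ) = P1
  generalize hP2 : (π / (1 - T)) ^ (finrank ℝ V / 2 : ℝ) = P2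
  push_cast at hexp ⊢
  rw [← hexp]
  have hk2 : (1 - (T : ℂ) ^ 2) = (1 + T) * (1 - T) := by ring
  rw [hk2, Complex.I_sq]
  field_simp
  have hsq' : (sT : ℂ) ^ 2 = T := by rw [sq, hsq]
  rw [hsq', Complex.I_sq]
  ring

end

end Vale.Agent.P224.R2.H728
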