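import Mathlib

/-!
Circle means of the square of an entire function vanishing at the origin.
-/

namespace Vale.Agent.P224.R2.H728

open MeasureTheory Set Filter Function Complex Real
open scoped Topology

/-- Parseval for a polynomial on the unit circle -/
lemma poly_mean (p : Polynomial ℂ) :
    (2 * π)⁻¹ * ∫ θ in (0 : ℝ)..(2 * π), ‖p.eval (cexp (θ * I))‖ ^ 2
      = ∑ i ∈ p.support, ‖p.coeff i‖ ^ 2 := by
  rw [p.sum_sq_norm_coeff_eq_circleAverage, Real.circleAverage]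
  simp [circleMap]

/-- the mean of a polynomial vanishing to order N -/
lemma poly_mean_le (p : Polynomial ℂ) {N : ℕ} (h0 : ∀ j < N, p.coeff j = 0) {r r1 : ℝ}
    (hr : 0 ≤ r) (hr1 : 0 < r1) (h : r ≤ r1) :
    ∫ θ in (0 : ℝ)..(2 * π), ‖p.eval (r * cexp (θ * I))‖ ^ 2
      ≤ (r / r1) ^ (2 * N) * ∫ θ in (0 : ℝ)..(2 * π), ‖p.eval (r1 * cexp (θ * I))‖ ^ 2 := by
  have key : ∀ ρ : ℝ, (2 * π)⁻¹ * ∫ θ in (0 : ℝ)..(2 * π), ‖p.eval (ρ * cexp (θ * I))‖ ^ 2
      = ∑ i ∈ p.support, ‖p.coeff i‖ ^ 2 * (ρ ^ 2) ^ i := by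
    intro ρ
    have h1 := poly_mean (p.comp (Polynomial.C (ρ : ℂ) * Polynomial.X))
    simp only [Polynomial.eval_comp, Polynomial.eval_mul, Polynomial.eval_C,
      Polynomial.eval_X] at h1
    rw [h1]
    have hc : ∀ i, (p.comp (Polynomial.C (ρ : ℂ) * Polynomial.X)).coeff i
        = p.coeff i * (ρ : ℂ) ^ i := by
      intro i
      rw [Polynomial.comp_C_mul_X_coeff]
    have hsub : (p.comp (Polynomial.C (ρ : ℂ) * Polynomial.X)).support ⊆ p.support := by
      intro i hi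
      rw [Polynomial.mem_support_iff, hc] at hi
      rw [Polynomial.mem_support_iff]
      exact left_ne_zero_of_mul hi
    rw [Finset.sum_subset hsub]
    · refine Finset.sum_congr rfl fun i _ => ?_
      rw [hc, norm_mul, mul_pow, norm_pow, Complex.norm_real, Real.norm_eq_abs, ← pow_mul,
        mul_comm i 2, pow_mul, sq_abs]
    · intro i _ hi
      rw [Polynomial.notMem_support_iff] at hi
      rw [hi]
      simp
  have hle : (2 * π)⁻¹ * ∫ θ in (0 : ℝ)..(2 * π), ‖p.eval (r * cexp (θ * I))‖ ^ 2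
      ≤ (r / r1) ^ (2 * N) * ((2 * π)⁻¹ *
        ∫ θ in (0 : ℝ)..(2 * π), ‖p.eval (r1 * cexp (θ * I))‖ ^ 2) := by
    rw [key, key, Finset.mul_sum]
    refine Finset.sum_le_sum fun i hi => ?_
    have hiN : N ≤ i := by
      by_contra hlt
      rw [Polynomial.mem_support_iff] at hi
      exact hi (h0 i (not_le.1 hlt))
    have hq0 : 0 ≤ r / r1 := div_nonneg hr hr1.le
    have hq1 : r / r1 ≤ 1 := (div_le_one hr1).2 h
    have e1 : (r ^ 2) ^ i = (r / r1) ^ (2 * i) * (r1 ^ 2) ^ i := by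
      rw [div_pow, ← pow_mul, ← pow_mul, div_mul_cancel₀]
      exact pow_ne_zero _ hr1.ne'
    have e2 : (r / r1) ^ (2 * i) ≤ (r / r1) ^ (2 * N) :=
      pow_le_pow_of_le_one hq0 hq1 (by omega)
    rw [e1]
    have h3 : 0 ≤ ‖p.coeff i‖ ^ 2 * (r1 ^ 2) ^ i := by positivity
    calc ‖p.coeff i‖ ^ 2 * ((r / r1) ^ (2 * i) * (r1 ^ 2) ^ i)
        = (r / r1) ^ (2 * i) * (‖p.coeff i‖ ^ 2 * (r1 ^ 2) ^ i) := by ring
      _ ≤ _ := mul_le_mul_of_nonneg_right e2 h3
  have hpi : 0 < (2 * π)⁻¹ := by positivity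
  rw [mul_left_comm] at hle
  exact le_of_mul_le_mul_left hle hpi

/-- convergence of the Taylor polynomials on circles -/
lemma tendsto_poly_mean {h : ℂ → ℂ} (hd : Differentiable ℂ h) (ρ : ℝ) (hρ : 0 ≤ ρ) :
    Tendsto (fun n => ∫ θ in (0 : ℝ)..(2 * π),
      ‖∑ i ∈ Finset.range n, ((Nat.factorial i : ℂ)⁻¹ * iteratedDeriv i h 0)
        * (ρ * cexp (θ * I)) ^ i‖ ^ 2) atTop
      (𝓝 (∫ θ in (0 : ℝ)..(2 * π), ‖h (ρ * cexp (θ * I))‖ ^ 2)) := by
  set c : ℕ → ℂ := fun i => (Nat.factorial i : ℂ)⁻¹ * iteratedDeriv i h 0 with hc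
  have hs : ∀ z, HasSum (fun i => c i * z ^ i) (h z) := by
    intro z
    have h1 := hasSum_taylorSeries_of_entire hd 0 z
    have e : (fun n : ℕ => (Nat.factorial n : ℂ)⁻¹ • (z - 0) ^ n • iteratedDeriv n h 0)
        = fun i => c i * z ^ i := by
      funext i
      simp only [hc, sub_zero, smul_eq_mul]
      ring
    rwa [e] at h1
  have hsum : Summable (fun i => ‖c i‖ * ρ ^ i) := by
    have h1 := (hs (ρ : ℂ)).summable.norm
    refine h1.congr fun i => ?_
    rw [norm_mul, norm_pow, Complex.norm_real, Real.norm_eq_abs, abs_of_nonneg hρ]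
  set B : ℝ := ∑' i, ‖c i‖ * ρ ^ i with hB
  have hnz : ∀ θ : ℝ, ‖(ρ : ℂ) * cexp (θ * I)‖ = ρ := by
    intro θ
    rw [norm_mul, Complex.norm_exp_ofReal_mul_I, Complex.norm_real, Real.norm_eq_abs,
      abs_of_nonneg hρ, mul_one]
  refine intervalIntegral.tendsto_integral_filter_of_dominated_convergence (fun _ => B ^ 2) ?_ ?_
    ?_ ?_
  · refine Eventually.of_forall fun n => Continuous.aestronglyMeasurable ?_
    fun_prop
  · refine Eventually.of_forall fun n => Eventually.of_forall fun θ _ => ?_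
    rw [Real.norm_eq_abs, abs_of_nonneg (by positivity)]
    refine pow_le_pow_left₀ (norm_nonneg _) ?_ 2
    refine (norm_sum_le _ _).trans ?_
    calc ∑ i ∈ Finset.range n, ‖c i * (ρ * cexp (θ * I)) ^ i‖
        = ∑ i ∈ Finset.range n, ‖c i‖ * ρ ^ i := by
          refine Finset.sum_congr rfl fun i _ => ?_
          rw [norm_mul, norm_pow, hnz]
      _ ≤ B := hsum.sum_le_tsum _ fun i _ => by positivity
  · exact intervalIntegrable_const
  · refine Eventually.of_forall fun θ _ => ?_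
    exact ((hs _).tendsto_sum_nat.norm).pow 2

/-- the mean of the square of an entire function vanishing to order N at the origin -/
theorem mean_sq_le {h : ℂ → ℂ} (hd : Differentiable ℂ h) {N : ℕ}
    (h0 : ∀ j < N, iteratedDeriv j h 0 = 0) {r r1 : ℝ} (hr : 0 ≤ r) (hr1 : 0 < r1)
    (hle : r ≤ r1) :
    ∫ θ in (0 : ℝ)..(2 * π), ‖h (r * cexp (θ * I))‖ ^ 2
      ≤ (r / r1) ^ (2 * N) * ∫ θ in (0 : ℝ)..(2 * π), ‖h (r1 * cexp (θ * I))‖ ^ 2 := by
  have t1 := tendsto_poly_mean hd r hr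
  have t2 := (tendsto_poly_mean hd r1 hr1.le).const_mul ((r / r1) ^ (2 * N))
  refine le_of_tendsto_of_tendsto' t1 t2 fun n => ?_
  set p : Polynomial ℂ := ∑ i ∈ Finset.range n,
    Polynomial.C ((Nat.factorial i : ℂ)⁻¹ * iteratedDeriv i h 0) * Polynomial.X ^ i with hp
  have he : ∀ z, p.eval z = ∑ i ∈ Finset.range n,
      ((Nat.factorial i : ℂ)⁻¹ * iteratedDeriv i h 0) * z ^ i := by
    intro z
    rw [hp, Polynomial.eval_finset_sum]
    simp
  have hp0 : ∀ j < N, p.coeff j = 0 := by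
    intro j hj
    rw [hp, Polynomial.finset_sum_coeff]
    refine Finset.sum_eq_zero fun i _ => ?_
    rw [Polynomial.coeff_C_mul_X_pow]
    split_ifs with hij
    · rw [← hij, h0 j hj, mul_zero]
    · rfl
  have := poly_mean_le p hp0 hr hr1 hle
  simpa only [he] using this

end Vale.Agent.P224.R2.H728
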