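import Vale.Agent.P224.R2.H728.Mix

/-!
The cross term at level T.
-/

namespace Vale.Agent.P224.R2.H728

open MeasureTheory Set Filter Function Real Module
open scoped Topology RealInnerProductSpace

set_option linter.unusedSectionVars false

section

variable {V : Type*} [NormedAddCommGroup V] [InnerProductSpace ℝ V] [FiniteDimensional ℝ V]
  [MeasurableSpace V] [BorelSpace V] {Ω : Type*} [MeasurableSpace Ω]

variable {μ : Measure Ω} [IsFiniteMeasure μ] {p η : Ω → V}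

lemma measurable_KG (hp : Measurable p) (hη : Measurable η) (T : ℝ) :
    Measurable (fun q : ℝ × (Ω × Ω) => KG T (√q.1) (η q.2.1) (η q.2.2) (p q.2.1) (p q.2.2)) := by
  have hR : Measurable (fun q : ℝ × (Ω × Ω) => √q.1) := measurable_fst.sqrt
  have a1 : Measurable (fun q : ℝ × (Ω × Ω) => η q.2.1) :=
    hη.comp (measurable_fst.comp measurable_snd)
  have a2 : Measurable (fun q : ℝ × (Ω × Ω) => η q.2.2) :=
    hη.comp (measurable_snd.comp measurable_snd)
  have a3 : Measurable (fun q : ℝ × (Ω × Ω) => p q.2.1) :=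
    hp.comp (measurable_fst.comp measurable_snd)
  have a4 : Measurable (fun q : ℝ × (Ω × Ω) => p q.2.2) :=
    hp.comp (measurable_snd.comp measurable_snd)
  have b3 := hR.smul a3
  have b4 := hR.smul a4
  have c1 := a1.inner (𝕜 := ℝ) a2
  have c2 := a1.inner (𝕜 := ℝ) (b4.sub (b3.const_smul T))
  have c3 := a2.inner (𝕜 := ℝ) (b3.sub (b4.const_smul T))
  have c4 := b3.inner (𝕜 := ℝ) b4
  have c5 := b3.norm
  have c6 := b4.norm
  unfold KG MM
  exact measurable_const.mul (((c1.div_const _).add ((measurable_const.mul c2).mul c3)).mul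
    (measurable_const.mul (Real.measurable_exp.comp
      (((((c5.pow_const 2).add (c6.pow_const 2)).const_mul _).sub (c4.const_mul _)).neg.div_const _))))

/-- the quadratic form on the sphere -/
noncomputable def ZZ (m : ℕ) (μ : Measure Ω) (p η : Ω → V) (T : ℝ) : ℝ :=
  ∫ q : Ω × Ω, ZK m T (η q.1) (η q.2) (p q.1) (p q.2) ∂(μ.prod μ)

theorem mix_GI (hp : Measurable p) (hη : Measurable η) {C : ℝ} (hp1 : ∀ x, ‖p x‖ = 1)
    (hηC : ∀ x, ‖η x‖ ≤ C) (hC : 0 ≤ C) {m : ℕ} (hm : 1 ≤ m) (hd : finrank ℝ V = m + 2) {T : ℝ}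
    (h0 : 0 < T) (h1 : T < 1) :
    IntegrableOn (fun R => rw0 m R * GI μ p η (√R) (√T)) (Ioi 0) ∧
    ∫ R in Ioi (0 : ℝ), rw0 m R * GI μ p η (√R) (√T)
      = Real.Gamma m * π ^ (m + 2) * ZZ m μ p η T := by
  have hk : 0 < 1 - T ^ 2 := by nlinarith
  have hpT : 0 < 1 + T := by linarith
  have hqT : 0 < 1 - T := by linarith
  have hp1' : ∀ x, ‖p x‖ ≤ 1 := fun x => (hp1 x).le
  set c : ℝ := (π / (1 + T)) ^ (finrank ℝ V / 2 : ℝ) * (π / (1 - T)) ^ (finrank ℝ V / 2 : ℝ) with hc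
  have hc0 : 0 ≤ c := by positivity
  have e : ∀ R, GI μ p η (√R) (√T)
      = ∫ q : Ω × Ω, KG T (√R) (η q.1) (η q.2) (p q.1) (p q.2) ∂(μ.prod μ) := fun R =>
    GI_eq hp hη hp1' hηC hC (√R) h0 h1
  obtain ⟨i1, -⟩ := radial_int (b := 1 / 2) (by norm_num) hm
  obtain ⟨i2, -⟩ := radial_int (b := 1 / 2) (by norm_num) (show 1 ≤ m + 1 by omega)
  have hi : Integrable (fun q : ℝ × (Ω × Ω) =>
      rw0 m q.1 * KG T (√q.1) (η q.2.1) (η q.2.2) (p q.2.1) (p q.2.2))
      ((volume.restrict (Ioi 0)).prod (μ.prod μ)) := by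
    have hb := (i1.const_mul (T * c * (C ^ 2 / (1 - T ^ 2)))).add
      (i2.const_mul (T * c * (T / (1 - T ^ 2) ^ 2 * (4 * C ^ 2))))
    have hb2 := hb.comp_fst (μ.prod μ)
    refine hb2.mono' ?_ ?_
    · have hm1 : Measurable (fun q : ℝ × (Ω × Ω) => rw0 m q.1) := by
        unfold rw0
        fun_prop
      exact (hm1.mul (measurable_KG hp hη T)).aestronglyMeasurable
    · have hae : ∀ᵐ q : ℝ × (Ω × Ω) ∂((volume.restrict (Ioi 0)).prod (μ.prod μ)), q.1 ∈ Ioi (0 : ℝ) := by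
        have h2 : ∀ᵐ R : ℝ ∂(volume.restrict (Ioi 0)), R ∈ Ioi (0 : ℝ) :=
          ae_restrict_mem measurableSet_Ioi
        exact Measure.quasiMeasurePreserving_fst.ae h2
      filter_upwards [hae] with q hq
      have hR : (0 : ℝ) < q.1 := hq
      rw [KG_unit hR.le (hp1 _) (hp1 _), ← hc]
      set x := p q.2.1 with hx
      set y := p q.2.2 with hy
      have hnx : ‖x‖ = 1 := hp1 _
      have hny : ‖y‖ = 1 := hp1 _
      have hs : ⟪x, y⟫ ≤ 1 := by
        have := real_inner_le_norm x y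
        rwa [hnx, hny, one_mul] at this
      have hA : |⟪η q.2.1, η q.2.2⟫| ≤ C ^ 2 := by
        refine (abs_real_inner_le_norm _ _).trans ?_
        rw [sq]
        exact mul_le_mul (hηC _) (hηC _) (norm_nonneg _) hC
      have hyx : ‖y - T • x‖ ≤ 2 := by
        refine (norm_sub_le _ _).trans ?_
        rw [norm_smul, hnx, hny, Real.norm_eq_abs, abs_of_pos h0]
        linarith
      have hxy : ‖x - T • y‖ ≤ 2 := by
        refine (norm_sub_le _ _).trans ?_
        rw [norm_smul, hnx, hny, Real.norm_eq_abs, abs_of_pos h0]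
        linarith
      have hB1 : |⟪η q.2.1, y - T • x⟫| ≤ C * 2 :=
        (abs_real_inner_le_norm _ _).trans (mul_le_mul (hηC _) hyx (norm_nonneg _) hC)
      have hB2 : |⟪η q.2.2, x - T • y⟫| ≤ C * 2 :=
        (abs_real_inner_le_norm _ _).trans (mul_le_mul (hηC _) hxy (norm_nonneg _) hC)
      have hB : |⟪η q.2.1, y - T • x⟫ * ⟪η q.2.2, x - T • y⟫| ≤ 4 * C ^ 2 := by
        rw [abs_mul]
        refine (mul_le_mul hB1 hB2 (abs_nonneg _) (by positivity)).trans (le_of_eq (by ring))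
      have hexp : rexp (-q.1) * rexp (-(q.1 * (T ^ 2 - T * ⟪x, y⟫) / (1 - T ^ 2)))
          ≤ rexp (-(1 / 2 * q.1)) := by
        rw [← Real.exp_add]
        refine Real.exp_le_exp.2 ?_
        have h5 : (T * ⟪x, y⟫ - T ^ 2) / (1 - T ^ 2) ≤ 1 / 2 := by
          rw [div_le_iff₀ hk]
          have : T * ⟪x, y⟫ ≤ T * 1 := mul_le_mul_of_nonneg_left hs h0.le
          nlinarith
        have h6 := mul_le_mul_of_nonneg_left h5 hR.le
        have h7 : -(q.1 * (T ^ 2 - T * ⟪x, y⟫) / (1 - T ^ 2))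
            = q.1 * ((T * ⟪x, y⟫ - T ^ 2) / (1 - T ^ 2)) := by ring
        rw [h7]
        linarith
      have habs : |⟪η q.2.1, η q.2.2⟫ / (1 - T ^ 2) + T / (1 - T ^ 2) ^ 2 * q.1
          * (⟪η q.2.1, y - T • x⟫ * ⟪η q.2.2, x - T • y⟫)|
          ≤ C ^ 2 / (1 - T ^ 2) + T / (1 - T ^ 2) ^ 2 * q.1 * (4 * C ^ 2) := by
        refine (abs_add_le _ _).trans (add_le_add ?_ ?_)
        · rw [abs_div, abs_of_pos hk]
          gcongr
        · rw [abs_mul, abs_of_nonneg (by positivity : 0 ≤ T / (1 - T ^ 2) ^ 2 * q.1)]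
          gcongr
      have hrw : 0 ≤ q.1 ^ (m - 1) := by positivity
      have e4 : q.1 ^ (m + 1 - 1) = q.1 ^ (m - 1) * q.1 := by
        rw [← pow_succ]
        congr 1
        omega
      rw [Real.norm_eq_abs]
      unfold rw0
      rw [abs_mul, abs_mul, abs_mul, abs_mul, abs_mul, abs_of_nonneg hrw, Real.abs_exp,
        Real.abs_exp, abs_of_nonneg h0.le, abs_of_nonneg hc0]
      simp only [Pi.add_apply]
      rw [e4]
      calc q.1 ^ (m - 1) * rexp (-q.1) * (T * c * |⟪η q.2.1, η q.2.2⟫ / (1 - T ^ 2)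
            + T / (1 - T ^ 2) ^ 2 * q.1 * (⟪η q.2.1, y - T • x⟫ * ⟪η q.2.2, x - T • y⟫)|
            * rexp (-(q.1 * (T ^ 2 - T * ⟪x, y⟫) / (1 - T ^ 2))))
          = (q.1 ^ (m - 1) * (T * c)) * |⟪η q.2.1, η q.2.2⟫ / (1 - T ^ 2)
            + T / (1 - T ^ 2) ^ 2 * q.1 * (⟪η q.2.1, y - T • x⟫ * ⟪η q.2.2, x - T • y⟫)|
            * (rexp (-q.1) * rexp (-(q.1 * (T ^ 2 - T * ⟪x, y⟫) / (1 - T ^ 2)))) := by ring
        _ ≤ (q.1 ^ (m - 1) * (T * c)) * (C ^ 2 / (1 - T ^ 2)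
            + T / (1 - T ^ 2) ^ 2 * q.1 * (4 * C ^ 2)) * rexp (-(1 / 2 * q.1)) := by
          gcongr
        _ = _ := by ring
  constructor
  · have h2 := hi.integral_prod_left
    refine h2.congr (Eventually.of_forall fun R => ?_)
    simp only
    rw [integral_const_mul, e]
  · have h3 : ∫ R in Ioi (0 : ℝ), rw0 m R * GI μ p η (√R) (√T)
        = ∫ R in Ioi (0 : ℝ), ∫ q : Ω × Ω,
          rw0 m R * KG T (√R) (η q.1) (η q.2) (p q.1) (p q.2) ∂(μ.prod μ) := by
      refine integral_congr_ae (Eventually.of_forall fun R => ?_)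
      simp only
      rw [integral_const_mul, e]
    rw [h3, integral_integral_swap hi]
    unfold ZZ
    rw [← integral_const_mul]
    refine integral_congr_ae (Eventually.of_forall fun q => ?_)
    exact mix_kernel hm hd h0 h1 (hp1 _) (hp1 _)

lemma GI_nonneg (ρ r : ℝ) : 0 ≤ GI μ p η ρ r :=
  integral_nonneg fun z => mul_nonneg (by positivity) (Real.exp_pos _).le

/-- the quadratic form is nonnegative and decays like the third power of the level -/
theorem ZZ_le (hp : Measurable p) (hη : Measurable η) {C : ℝ} (hp1 : ∀ x, ‖p x‖ = 1)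
    (hηC : ∀ x, ‖η x‖ ≤ C) (hC : 0 ≤ C) {m : ℕ} (hm : 1 ≤ m) (hd : finrank ℝ V = m + 2)
    (h0 : ∫ x, η x ∂μ = 0) (h1 : ∀ a, ∫ x, ⟪η x, a⟫ * ⟪p x, a⟫ ∂μ = 0) {T T1 : ℝ}
    (hT : 0 < T) (hT1 : T ≤ T1) (hT2 : T1 < 1) :
    0 ≤ ZZ m μ p η T ∧ ZZ m μ p η T ≤ (T / T1) ^ 3 * ZZ m μ p η T1 := by
  have hp1' : ∀ x, ‖p x‖ ≤ 1 := fun x => (hp1 x).le
  obtain ⟨i1, e1⟩ := mix_GI (μ := μ) hp hη hp1 hηC hC hm hd hT (hT1.trans_lt hT2)
  obtain ⟨i2, e2⟩ := mix_GI (μ := μ) hp hη hp1 hηC hC hm hd (hT.trans_le hT1) hT2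
  have hG : 0 < Real.Gamma m * π ^ (m + 2) := by
    have : (0 : ℝ) < m := by exact_mod_cast hm
    have := Real.Gamma_pos_of_pos this
    positivity
  have hw : ∀ R ∈ Ioi (0 : ℝ), 0 ≤ rw0 m R := by
    intro R hR
    have : (0 : ℝ) < R := hR
    unfold rw0
    positivity
  constructor
  · have h2 : 0 ≤ ∫ R in Ioi (0 : ℝ), rw0 m R * GI μ p η (√R) (√T) :=
      setIntegral_nonneg measurableSet_Ioi fun R hR => mul_nonneg (hw R hR) (GI_nonneg _ _)
    rw [e1] at h2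
    exact nonneg_of_mul_nonneg_right h2 hG
  · have hle : ∫ R in Ioi (0 : ℝ), rw0 m R * GI μ p η (√R) (√T)
        ≤ ∫ R in Ioi (0 : ℝ), (T / T1) ^ 3 * (rw0 m R * GI μ p η (√R) (√T1)) := by
      refine setIntegral_mono_on i1 (i2.const_mul _) measurableSet_Ioi fun R hR => ?_
      have h3 := GI_le (μ := μ) hp hη hp1' hηC hC h0 h1 (√R) (Real.sqrt_pos.2 hT)
        (Real.sqrt_le_sqrt hT1) (by
          rw [Real.sqrt_lt' one_pos]
          simpa using hT2)
      have h4 : (√T / √T1) ^ 6 = (T / T1) ^ 3 := by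
        rw [div_pow, div_pow, show (6 : ℕ) = 2 * 3 by norm_num, pow_mul, pow_mul,
          Real.sq_sqrt hT.le, Real.sq_sqrt (hT.le.trans hT1)]
      rw [h4] at h3
      have := mul_le_mul_of_nonneg_left h3 (hw R hR)
      linarith
    rw [integral_const_mul, e1, e2] at hle
    have h5 : (Real.Gamma m * π ^ (m + 2)) * ZZ m μ p η T
        ≤ (Real.Gamma m * π ^ (m + 2)) * ((T / T1) ^ 3 * ZZ m μ p η T1) := by
      linarith
    exact le_of_mul_le_mul_left h5 hG

end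

end Vale.Agent.P224.R2.H728
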