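import Vale.Agent.P224.R2.H728.Rot
import Vale.Agent.P224.R2.H728.Circ

/-!
The Gaussian transform of a bounded vector field.
-/

namespace Vale.Agent.P224.R2.H728

open MeasureTheory Set Filter Function Complex Real Module
open scoped Topology RealInnerProductSpace ComplexConjugate

set_option linter.unusedSectionVars false

/-- exponential integrals are entire -/
lemma hasDerivAt_expInt {Ω : Type*} [MeasurableSpace Ω] {μ : Measure Ω} [IsFiniteMeasure μ]
    {f g : Ω → ℂ} (hf : Measurable f) (hg : Measurable g) {A B : ℝ} (hA : ∀ x, ‖f x‖ ≤ A)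
    (hB : ∀ x, ‖g x‖ ≤ B) (lam : ℂ) :
    HasDerivAt (fun l : ℂ => ∫ x, f x * cexp (l * g x) ∂μ)
      (∫ x, f x * g x * cexp (lam * g x) ∂μ) lam := by
  have hexp : ∀ l : ℂ, ∀ x, ‖l‖ ≤ ‖lam‖ + 1 → ‖cexp (l * g x)‖ ≤ rexp ((‖lam‖ + 1) * B) := by
    intro l x hl
    rw [Complex.norm_exp]
    refine Real.exp_le_exp.2 ((Complex.re_le_norm _).trans ?_)
    rw [norm_mul]
    exact mul_le_mul hl (hB x) (norm_nonneg _) (by positivity)
  have key := hasDerivAt_integral_of_dominated_loc_of_deriv_le (μ := μ)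
    (F := fun (l : ℂ) x => f x * cexp (l * g x))
    (F' := fun (l : ℂ) x => f x * g x * cexp (l * g x))
    (x₀ := lam) (s := Metric.ball lam 1)
    (bound := fun _ => (A * B) * rexp ((‖lam‖ + 1) * B))
    (Metric.ball_mem_nhds lam one_pos) ?_ ?_ ?_ ?_ ?_ ?_
  · exact key.2
  · exact Eventually.of_forall fun l => (by fun_prop : Measurable _).aestronglyMeasurable
  · refine Integrable.mono' (integrable_const (A * rexp ((‖lam‖ + 1) * B)))
      ((by fun_prop : Measurable _).aestronglyMeasurable) (Eventually.of_forall fun x => ?_)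
    rw [norm_mul]
    exact mul_le_mul (hA x) (hexp lam x (by linarith)) (norm_nonneg _)
      ((norm_nonneg _).trans (hA x))
  · exact (by fun_prop : Measurable _).aestronglyMeasurable
  · refine Eventually.of_forall fun x l hl => ?_
    have hl1 : ‖l‖ ≤ ‖lam‖ + 1 := by
      have h1 := Metric.mem_ball.1 hl
      rw [dist_eq_norm] at h1
      have h2 := norm_sub_norm_le l lam
      linarith
    rw [norm_mul, norm_mul]
    exact mul_le_mul (mul_le_mul (hA x) (hB x) (norm_nonneg _) ((norm_nonneg _).trans (hA x)))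
      (hexp l x hl1) (norm_nonneg _)
      (mul_nonneg ((norm_nonneg _).trans (hA x)) ((norm_nonneg _).trans (hB x)))
  · exact integrable_const _
  · refine Eventually.of_forall fun x l _ => ?_
    have h1 : HasDerivAt (fun l : ℂ => l * g x) (g x) l := by
      simpa using (hasDerivAt_id l).mul_const (g x)
    refine ((h1.cexp).const_mul (f x)).congr_deriv ?_
    ring

/-- vanishing to the third order -/
lemma vanish3 {U : ℂ → ℂ} (hU : Differentiable ℂ U) (h0 : U 0 = 0) (h1 : deriv U 0 = 0) :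
    ∀ j < 3, iteratedDeriv j (fun l => l * U l) 0 = 0 := by
  have hd : deriv (fun l => l * U l) = fun l => U l + l * deriv U l := by
    funext l
    have := (hasDerivAt_id l).mul (hU l).hasDerivAt
    have h2 : deriv (fun l => l * U l) l = 1 * U l + l * deriv U l := this.deriv
    rw [h2, one_mul]
  have hU' : Differentiable ℂ (deriv U) := by
    exact hU.deriv
  intro j hj
  interval_cases j
  · simp
  · rw [iteratedDeriv_one, hd]
    simp [h0]
  · rw [iteratedDeriv_succ, iteratedDeriv_one, hd]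
    have h3 := ((hU 0).hasDerivAt).add ((hasDerivAt_id (0 : ℂ)).mul (hU' 0).hasDerivAt)
    have h4 : deriv (fun l => U l + l * deriv U l) 0 = deriv U 0 + (1 * deriv U 0 + 0 * deriv (deriv U) 0) :=
      h3.deriv
    rw [h4, h1]
    simp

section

variable {V : Type*} [NormedAddCommGroup V] [InnerProductSpace ℝ V] [FiniteDimensional ℝ V]
  [MeasurableSpace V] [BorelSpace V]

lemma norm_cin_le (x : V) (z : V × V) : ‖cin x z‖ ≤ ‖x‖ * (‖z.1‖ + ‖z.2‖) := by
  unfold cin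
  refine (norm_add_le _ _).trans ?_
  rw [norm_mul, Complex.norm_I, one_mul, Complex.norm_real, Complex.norm_real, Real.norm_eq_abs,
    Real.norm_eq_abs]
  have h1 := abs_real_inner_le_norm x z.1
  have h2 := abs_real_inner_le_norm x z.2
  linarith

lemma norm_cq_le (z : V × V) : ‖cq z‖ ≤ ‖z.1‖ ^ 2 + ‖z.2‖ ^ 2 := by
  refine abs_le_of_sq_le_sq' ?_ (by positivity) |>.2
  have e : ‖cq z‖ ^ 2 = (‖z.1‖ ^ 2 - ‖z.2‖ ^ 2) ^ 2 + (2 * ⟪z.1, z.2⟫) ^ 2 := by
    rw [← Complex.normSq_eq_norm_sq, Complex.normSq_apply]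
    unfold cq
    simp [← Complex.ofReal_pow]
    ring
  rw [e]
  have h1 := abs_real_inner_le_norm z.1 z.2
  have h2 : ⟪z.1, z.2⟫ ^ 2 ≤ (‖z.1‖ * ‖z.2‖) ^ 2 := sq_le_sq' (abs_le.1 h1).1 (abs_le.1 h1).2
  nlinarith

lemma norm_coh_le (lam : ℂ) (X : V) (z : V × V) : ‖coh lam X z‖
    ≤ rexp (‖lam‖ * ‖X‖ * (‖z.1‖ + ‖z.2‖) + ‖lam‖ ^ 2 / 2 * (‖z.1‖ ^ 2 + ‖z.2‖ ^ 2)) := by
  unfold coh
  rw [Complex.norm_exp]
  refine Real.exp_le_exp.2 ((Complex.re_le_norm _).trans ((norm_sub_le _ _).trans ?_))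
  rw [norm_mul, norm_mul, norm_div, norm_pow]
  have h1 := norm_cin_le X z
  have h2 := norm_cq_le z
  have e2 : ‖(2 : ℂ)‖ = 2 := by simp
  rw [e2]
  have h3 := mul_le_mul_of_nonneg_left h1 (norm_nonneg lam)
  have h4 := mul_le_mul_of_nonneg_left h2 (by positivity : 0 ≤ ‖lam‖ ^ 2 / 2)
  linarith

variable {Ω : Type*} [MeasurableSpace Ω]

/-- the Gaussian transform of the field η -/
noncomputable def BF (μ : Measure Ω) (p η : Ω → V) (ρ : ℝ) (lam : ℂ) (z : V × V) : ℂ :=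
  lam * ∫ x, cin (η x) z * coh lam (ρ • p x) z ∂μ

variable {μ : Measure Ω} [IsFiniteMeasure μ] {p η : Ω → V}

lemma BF_rot (ρ : ℝ) (lam : ℂ) (θ : ℝ) (z : V × V) :
    BF μ p η ρ lam (rot θ z) = BF μ p η ρ (lam * cexp (θ * I)) z := by
  unfold BF
  simp only [cin_rot, coh_rot]
  have e : ∀ x, cexp (θ * I) * cin (η x) z * coh (lam * cexp (θ * I)) (ρ • p x) z
      = cexp (θ * I) * (cin (η x) z * coh (lam * cexp (θ * I)) (ρ • p x) z) := fun x => by ring
  simp only [e]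
  rw [integral_const_mul]
  ring

lemma BF_eq (ρ : ℝ) (lam : ℂ) (z : V × V) : BF μ p η ρ lam z
    = lam * (cexp (-lam ^ 2 / 2 * cq z) * ∫ x, cin (η x) z * cexp (lam * cin (ρ • p x) z) ∂μ) := by
  unfold BF
  congr 1
  rw [← integral_const_mul]
  refine integral_congr_ae (Eventually.of_forall fun x => ?_)
  simp only
  unfold coh
  rw [mul_left_comm, ← Complex.exp_add]
  congr 2
  ring

lemma measurable_cin {f : Ω → V} (hf : Measurable f) (z : V × V) : Measurable fun x => cin (f x) z := by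
  unfold cin
  have h1 : Measurable fun x => (⟪f x, z.1⟫ : ℝ) := hf.inner_const
  have h2 : Measurable fun x => (⟪f x, z.2⟫ : ℝ) := hf.inner_const
  fun_prop

lemma BF_entire (hp : Measurable p) (hη : Measurable η) {C : ℝ} (hp1 : ∀ x, ‖p x‖ ≤ 1)
    (hηC : ∀ x, ‖η x‖ ≤ C) (ρ : ℝ) (z : V × V) :
    Differentiable ℂ (fun lam => BF μ p η ρ lam z) := by
  intro lam
  simp only [BF_eq]
  have hb1 : ∀ x, ‖cin (η x) z‖ ≤ C * (‖z.1‖ + ‖z.2‖) := fun x =>
    (norm_cin_le _ _).trans (mul_le_mul_of_nonneg_right (hηC x) (by positivity))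
  have hb2 : ∀ x, ‖cin (ρ • p x) z‖ ≤ |ρ| * (‖z.1‖ + ‖z.2‖) := fun x => by
    refine (norm_cin_le _ _).trans (mul_le_mul_of_nonneg_right ?_ (by positivity))
    rw [norm_smul, Real.norm_eq_abs]
    exact (mul_le_mul_of_nonneg_left (hp1 x) (abs_nonneg _)).trans (by rw [mul_one])
  have h1 := (hasDerivAt_expInt (μ := μ) (measurable_cin hη z) (measurable_cin (hp.const_smul ρ) z)
    hb1 hb2 lam).differentiableAt
  have h2 : DifferentiableAt ℂ (fun l : ℂ => cexp (-l ^ 2 / 2 * cq z)) lam := by fun_prop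
  exact differentiableAt_id.fun_mul (h2.fun_mul h1)

lemma BF_vanish (hp : Measurable p) (hη : Measurable η) {C : ℝ} (hp1 : ∀ x, ‖p x‖ ≤ 1)
    (hηC : ∀ x, ‖η x‖ ≤ C) (h0 : ∫ x, η x ∂μ = 0) (h1 : ∀ a, ∫ x, ⟪η x, a⟫ * ⟪p x, a⟫ ∂μ = 0)
    (ρ : ℝ) (z : V × V) : ∀ j < 3, iteratedDeriv j (fun lam => BF μ p η ρ lam z) 0 = 0 := by
  have hb1 : ∀ x, ‖cin (η x) z‖ ≤ C * (‖z.1‖ + ‖z.2‖) := fun x =>
    (norm_cin_le _ _).trans (mul_le_mul_of_nonneg_right (hηC x) (by positivity))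
  have hb2 : ∀ x, ‖cin (ρ • p x) z‖ ≤ |ρ| * (‖z.1‖ + ‖z.2‖) := fun x => by
    refine (norm_cin_le _ _).trans (mul_le_mul_of_nonneg_right ?_ (by positivity))
    rw [norm_smul, Real.norm_eq_abs]
    exact (mul_le_mul_of_nonneg_left (hp1 x) (abs_nonneg _)).trans (by rw [mul_one])
  have hpρ : Measurable (fun x => ρ • p x) := hp.const_smul ρ
  have hd := fun lam => hasDerivAt_expInt (μ := μ) (measurable_cin hη z)
    (measurable_cin hpρ z) hb1 hb2 lam
  have hiη : Integrable η μ := Integrable.mono' (integrable_const C) hη.aestronglyMeasurable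
    (Eventually.of_forall hηC)
  have hiη2 : ∀ a, Integrable (fun x => (⟪η x, a⟫ : ℝ)) μ := fun a => hiη.inner_const a
  have hin : ∀ a, ∫ x, (⟪η x, a⟫ : ℝ) ∂μ = 0 := by
    intro a
    have h2 := integral_inner (𝕜 := ℝ) hiη a
    rw [h0, inner_zero_right] at h2
    rw [← h2]
    exact integral_congr_ae (Eventually.of_forall fun x => real_inner_comm _ _)
  have hip : ∀ a b, Integrable (fun x => (⟪η x, a⟫ * ⟪p x, b⟫ : ℝ)) μ := by
    intro a b
    have hm : Measurable fun x => (⟪η x, a⟫ * ⟪p x, b⟫ : ℝ) :=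
      (hη.inner_const).mul (hp.inner_const)
    refine Integrable.mono' (integrable_const (C * ‖a‖ * ‖b‖)) hm.aestronglyMeasurable
      (Eventually.of_forall fun x => ?_)
    rw [Real.norm_eq_abs, abs_mul]
    have h2 := (abs_real_inner_le_norm (η x) a).trans
      (mul_le_mul_of_nonneg_right (hηC x) (norm_nonneg a))
    have h3 := (abs_real_inner_le_norm (p x) b).trans
      (mul_le_mul_of_nonneg_right (hp1 x) (norm_nonneg b))
    rw [one_mul] at h3
    exact mul_le_mul h2 h3 (abs_nonneg _) ((abs_nonneg _).trans h2)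
  have hsym : ∀ a b, ∫ x, (⟪η x, a⟫ * ⟪p x, b⟫ : ℝ) ∂μ + ∫ x, (⟪η x, b⟫ * ⟪p x, a⟫ : ℝ) ∂μ = 0 := by
    intro a b
    have h2 := h1 (a + b)
    have e : (fun x => (⟪η x, a + b⟫ * ⟪p x, a + b⟫ : ℝ)) = fun x =>
        ((⟪η x, a⟫ * ⟪p x, a⟫ + ⟪η x, b⟫ * ⟪p x, b⟫ : ℝ))
        + ((⟪η x, a⟫ * ⟪p x, b⟫ + ⟪η x, b⟫ * ⟪p x, a⟫ : ℝ)) := by
      funext x
      rw [inner_add_right, inner_add_right]
      ring
    have i1 : Integrable (fun x => (⟪η x, a⟫ * ⟪p x, a⟫ + ⟪η x, b⟫ * ⟪p x, b⟫ : ℝ)) μ :=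
      (hip a a).add (hip b b)
    have i2 : Integrable (fun x => (⟪η x, a⟫ * ⟪p x, b⟫ + ⟪η x, b⟫ * ⟪p x, a⟫ : ℝ)) μ :=
      (hip a b).add (hip b a)
    rw [e, integral_add i1 i2,
      integral_add (hip a a) (hip b b), integral_add (hip a b) (hip b a), h1 a, h1 b] at h2
    linarith
  have hiC : ∀ {f : Ω → ℝ}, Integrable f μ → Integrable (fun x => ((f x : ℝ) : ℂ)) μ :=
    fun hf => hf.ofReal
  have hA : ∫ x, cin (η x) z ∂μ = 0 := by
    have e : (fun x => cin (η x) z) = fun x => ((⟪η x, z.1⟫ : ℝ) : ℂ) + I * ((⟪η x, z.2⟫ : ℝ) : ℂ) := rfl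
    rw [e, integral_add (hiC (hiη2 z.1)) ((hiC (hiη2 z.2)).const_mul I), integral_const_mul,
      integral_complex_ofReal, integral_complex_ofReal, hin, hin]
    simp
  have hB : ∫ x, cin (η x) z * cin (p x) z ∂μ = 0 := by
    have e : (fun x => cin (η x) z * cin (p x) z) = fun x =>
        (((⟪η x, z.1⟫ * ⟪p x, z.1⟫ : ℝ) : ℂ) - ((⟪η x, z.2⟫ * ⟪p x, z.2⟫ : ℝ) : ℂ))
        + I * (((⟪η x, z.1⟫ * ⟪p x, z.2⟫ : ℝ) : ℂ) + ((⟪η x, z.2⟫ * ⟪p x, z.1⟫ : ℝ) : ℂ)) := by
      funext x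
      unfold cin
      push_cast
      have hI : I * I = -1 := Complex.I_mul_I
      linear_combination ((⟪η x, z.2⟫ : ℂ) * ⟪p x, z.2⟫) * hI
    have i1 : Integrable (fun x => ((⟪η x, z.1⟫ * ⟪p x, z.1⟫ : ℝ) : ℂ)
      - ((⟪η x, z.2⟫ * ⟪p x, z.2⟫ : ℝ) : ℂ)) μ := (hiC (hip z.1 z.1)).sub (hiC (hip z.2 z.2))
    have i2 : Integrable (fun x => ((⟪η x, z.1⟫ * ⟪p x, z.2⟫ : ℝ) : ℂ)
      + ((⟪η x, z.2⟫ * ⟪p x, z.1⟫ : ℝ) : ℂ)) μ := (hiC (hip z.1 z.2)).add (hiC (hip z.2 z.1))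
    rw [e, integral_add i1 (i2.const_mul I), integral_const_mul,
      integral_sub (hiC (hip z.1 z.1)) (hiC (hip z.2 z.2)),
      integral_add (hiC (hip z.1 z.2)) (hiC (hip z.2 z.1)), integral_complex_ofReal,
      integral_complex_ofReal, integral_complex_ofReal, integral_complex_ofReal, h1, h1,
      ← Complex.ofReal_add, hsym]
    simp
  have hcρ : ∀ x, cin (ρ • p x) z = ρ * cin (p x) z := by
    intro x
    unfold cin
    rw [real_inner_smul_left, real_inner_smul_left]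
    push_cast
    ring
  have hd0 := hd 0
  have hE : HasDerivAt (fun l : ℂ => cexp (-l ^ 2 / 2 * cq z)) 0 0 := by
    have h2 : HasDerivAt (fun l : ℂ => -l ^ 2 / 2 * cq z) 0 0 := by
      have := (((hasDerivAt_pow 2 (0 : ℂ)).fun_neg).div_const 2).mul_const (cq z)
      simpa using this
    simpa using h2.cexp
  have hprod := hE.fun_mul hd0
  simp only [BF_eq]
  refine vanish3 ?_ ?_ ?_
  · intro lam
    have h2 : DifferentiableAt ℂ (fun l : ℂ => cexp (-l ^ 2 / 2 * cq z)) lam := by fun_prop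
    exact h2.fun_mul (hd lam).differentiableAt
  · simp [hA]
  · rw [hprod.deriv]
    simp only [hcρ]
    have e : (fun x => cin (η x) z * (ρ * cin (p x) z) * cexp (0 * (ρ * cin (p x) z)))
        = fun x => ρ * (cin (η x) z * cin (p x) z) := by
      funext x
      rw [zero_mul, Complex.exp_zero]
      ring
    rw [e, integral_const_mul, hB]
    simp

end

end Vale.Agent.P224.R2.H728
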