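import Vale.Agent.P224.R2.H728.Lvl

/-!
The kernel form of the square integral.
-/

namespace Vale.Agent.P224.R2.H728

open MeasureTheory Set Filter Function Complex Real Module
open scoped Topology RealInnerProductSpace ComplexConjugate

set_option linter.unusedSectionVars false

section

variable {V : Type*} [NormedAddCommGroup V] [InnerProductSpace ℝ V] [FiniteDimensional ℝ V]
  [MeasurableSpace V] [BorelSpace V] {Ω : Type*} [MeasurableSpace Ω]

variable {μ : Measure Ω} [IsFiniteMeasure μ] {p η : Ω → V}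

/-- the kernel of the square integral -/
noncomputable def KG (T ρ : ℝ) (a b x y : V) : ℝ :=
  T * ((⟪a, b⟫ / (1 - T ^ 2) + T / (1 - T ^ 2) ^ 2 * ⟪a, ρ • y - T • ρ • x⟫
    * ⟪b, ρ • x - T • ρ • y⟫) * MM T (ρ • x) (ρ • y))

theorem GI_eq (hp : Measurable p) (hη : Measurable η) {C : ℝ} (hp1 : ∀ x, ‖p x‖ ≤ 1)
    (hηC : ∀ x, ‖η x‖ ≤ C) (hC : 0 ≤ C) (ρ : ℝ) {T : ℝ} (h0 : 0 < T) (h1 : T < 1) :
    GI μ p η ρ (√T) = ∫ q : Ω × Ω, KG T ρ (η q.1) (η q.2) (p q.1) (p q.2) ∂(μ.prod μ) := by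
  have hs0 : 0 ≤ √T := Real.sqrt_nonneg T
  have hs1 : √T < 1 := by
    rw [Real.sqrt_lt' one_pos]
    simpa using h1
  have hss : (√T) ^ 2 = T := Real.sq_sqrt h0.le
  set F : Ω → V × V → ℂ := fun x z => cin (η x) z * coh ((√T : ℝ) : ℂ) (ρ • p x) z with hF
  have hFm : Measurable (fun q : (V × V) × Ω => F q.2 q.1) := by
    have h2 := measurable_fld (V := V) hp hη ρ
    have h3 : Measurable (fun q : (V × V) × Ω => (((((√T : ℝ) : ℂ), q.1) : ℂ × (V × V)), q.2)) :=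
      (measurable_const.prodMk measurable_fst).prodMk measurable_snd
    exact h2.comp h3
  have hFb : ∀ x z, ‖F x z‖ ≤ C * ((1 + ‖z.1‖) * (1 + ‖z.2‖))
      * rexp (√T * |ρ| * (‖z.1‖ + ‖z.2‖) + √T ^ 2 / 2 * (‖z.1‖ ^ 2 + ‖z.2‖ ^ 2)) := by
    intro x z
    have hn : ‖((√T : ℝ) : ℂ)‖ = √T := by
      rw [Complex.norm_real, Real.norm_eq_abs, abs_of_nonneg hs0]
    simp only [hF]
    rw [norm_mul]
    have e1 : ‖cin (η x) z‖ ≤ C * ((1 + ‖z.1‖) * (1 + ‖z.2‖)) := by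
      refine (norm_cin_le _ _).trans (mul_le_mul (hηC x) ?_ (by positivity) hC)
      nlinarith [norm_nonneg z.1, norm_nonneg z.2, mul_nonneg (norm_nonneg z.1) (norm_nonneg z.2)]
    have e2 : ‖ρ • p x‖ ≤ |ρ| := by
      rw [norm_smul, Real.norm_eq_abs]
      exact (mul_le_mul_of_nonneg_left (hp1 x) (abs_nonneg _)).trans (by rw [mul_one])
    have e3 : ‖coh ((√T : ℝ) : ℂ) (ρ • p x) z‖
        ≤ rexp (√T * |ρ| * (‖z.1‖ + ‖z.2‖) + √T ^ 2 / 2 * (‖z.1‖ ^ 2 + ‖z.2‖ ^ 2)) := by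
      refine (norm_coh_le _ _ z).trans (Real.exp_le_exp.2 ?_)
      rw [hn]
      gcongr
    exact mul_le_mul e1 e3 (norm_nonneg _) (by positivity)
  have hprod : ∀ z : V × V, ((‖BF μ p η ρ ((√T : ℝ) : ℂ) z‖ ^ 2 * gwt z : ℝ) : ℂ)
      = ∫ q : Ω × Ω, (T : ℂ) * (F q.1 z * conj (F q.2 z) * gwt z) ∂(μ.prod μ) := by
    intro z
    have e1 : BF μ p η ρ ((√T : ℝ) : ℂ) z = ((√T : ℝ) : ℂ) * ∫ x, F x z ∂μ := rfl
    have e2 : ((‖BF μ p η ρ ((√T : ℝ) : ℂ) z‖ ^ 2 : ℝ) : ℂ)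
        = BF μ p η ρ ((√T : ℝ) : ℂ) z * conj (BF μ p η ρ ((√T : ℝ) : ℂ) z) := by
      rw [Complex.mul_conj, Complex.normSq_eq_norm_sq]
    have e3 : conj (∫ x, F x z ∂μ) = ∫ x, conj (F x z) ∂μ := (integral_conj).symm
    have e4 := integral_prod_mul (μ := μ) (ν := μ) (fun x => F x z) (fun x => conj (F x z))
    have e5 : ((√T : ℝ) : ℂ) * ((√T : ℝ) : ℂ) = T := by
      rw [← Complex.ofReal_mul, Real.mul_self_sqrt h0.le]
    rw [integral_const_mul, integral_mul_const, e4, Complex.ofReal_mul, e2, e1, map_mul,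
      Complex.conj_ofReal, e3]
    linear_combination ((∫ x, F x z ∂μ) * (∫ x, conj (F x z) ∂μ) * (gwt z : ℂ)) * e5
  have hi : Integrable (fun q : (V × V) × (Ω × Ω) =>
      (T : ℂ) * (F q.2.1 q.1 * conj (F q.2.2 q.1) * gwt q.1)) (volume.prod (μ.prod μ)) := by
    have hb := (integrable_bdf (V := V) hs0 hs1 ρ).const_mul (T * C ^ 2)
    have hb2 := hb.comp_fst (μ.prod μ)
    refine hb2.mono' ?_ (Eventually.of_forall fun q => ?_)
    · have m1 : Measurable (fun q : (V × V) × (Ω × Ω) => F q.2.1 q.1) :=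
        hFm.comp (measurable_fst.prodMk (measurable_fst.comp measurable_snd))
      have m2 : Measurable (fun q : (V × V) × (Ω × Ω) => F q.2.2 q.1) :=
        hFm.comp (measurable_fst.prodMk (measurable_snd.comp measurable_snd))
      have m3 : Measurable (fun q : (V × V) × (Ω × Ω) => conj (F q.2.2 q.1)) :=
        Complex.continuous_conj.measurable.comp m2
      have m4 : Measurable (fun q : (V × V) × (Ω × Ω) => ((gwt q.1 : ℝ) : ℂ)) :=
        Complex.measurable_ofReal.comp (continuous_gwt.measurable.comp measurable_fst)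
      exact (((m1.mul m3).mul m4).const_mul _).aestronglyMeasurable
    · have hg0 : 0 ≤ gwt q.1 := (Real.exp_pos _).le
      rw [norm_mul, norm_mul, norm_mul, RCLike.norm_conj, Complex.norm_real, Complex.norm_real,
        Real.norm_eq_abs, Real.norm_eq_abs, abs_of_nonneg h0.le, abs_of_nonneg hg0]
      have h3 := mul_le_mul (hFb q.2.1 q.1) (hFb q.2.2 q.1) (norm_nonneg _)
        ((norm_nonneg _).trans (hFb q.2.1 q.1))
      have h4 := mul_le_mul_of_nonneg_left (mul_le_mul_of_nonneg_right h3 hg0) h0.le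
      refine h4.trans (le_of_eq ?_)
      unfold bdf gwt
      set A := √T * |ρ| * (‖q.1.1‖ + ‖q.1.2‖) + √T ^ 2 / 2 * (‖q.1.1‖ ^ 2 + ‖q.1.2‖ ^ 2) with hA
      have e : rexp A * rexp A * rexp (-‖q.1.1‖ ^ 2 - ‖q.1.2‖ ^ 2)
          = rexp (-(1 - √T ^ 2) * ‖q.1.1‖ ^ 2 + (2 * √T * |ρ|) * ‖q.1.1‖)
            * rexp (-(1 - √T ^ 2) * ‖q.1.2‖ ^ 2 + (2 * √T * |ρ|) * ‖q.1.2‖) := by
        rw [← Real.exp_add, ← Real.exp_add, ← Real.exp_add]
        congr 1
        rw [hA]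
        ring
      calc T * (C * ((1 + ‖q.1.1‖) * (1 + ‖q.1.2‖)) * rexp A
            * (C * ((1 + ‖q.1.1‖) * (1 + ‖q.1.2‖)) * rexp A)
            * rexp (-‖q.1.1‖ ^ 2 - ‖q.1.2‖ ^ 2))
          = (T * C ^ 2 * ((1 + ‖q.1.1‖) ^ 2 * (1 + ‖q.1.2‖) ^ 2))
            * (rexp A * rexp A * rexp (-‖q.1.1‖ ^ 2 - ‖q.1.2‖ ^ 2)) := by ring
        _ = _ := by rw [e]; ring
  have hmain : ((GI μ p η ρ (√T) : ℝ) : ℂ)
      = ((∫ q : Ω × Ω, KG T ρ (η q.1) (η q.2) (p q.1) (p q.2) ∂(μ.prod μ) : ℝ) : ℂ) := by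
    unfold GI
    rw [← integral_complex_ofReal]
    simp only [hprod]
    rw [integral_integral_swap hi, ← integral_complex_ofReal]
    refine integral_congr_ae (Eventually.of_forall fun q => ?_)
    simp only
    rw [integral_const_mul]
    have h5 := kern_integral h0 h1 (η q.1) (η q.2) (ρ • p q.1) (ρ • p q.2)
    have e : (fun z : V × V => F q.1 z * conj (F q.2 z) * gwt z)
        = fun z => cin (η q.1) z * conj (cin (η q.2) z)
          * (coh (√T : ℝ) (ρ • p q.1) z * conj (coh (√T : ℝ) (ρ • p q.2) z) * gwt z) := by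
      funext z
      simp only [hF, map_mul]
      ring
    rw [e, h5]
    unfold KG
    push_cast
    ring
  exact_mod_cast hmain

end

end Vale.Agent.P224.R2.H728
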