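import Mathlib

/-!
Gaussian integrals with polynomial factors.
-/

namespace Vale.Agent.P224.R2.H728

open MeasureTheory Set Filter Function Complex Real Module
open scoped Topology RealInnerProductSpace

set_option linter.unusedSectionVars false

section

variable {V : Type*} [NormedAddCommGroup V] [InnerProductSpace ℝ V] [FiniteDimensional ℝ V]
  [MeasurableSpace V] [BorelSpace V]

/-- integrability of a Gaussian with a polynomial and an exponential factor -/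
lemma integrable_gauss {b : ℝ} (hb : 0 < b) (C : ℝ) (k : ℕ) :
    Integrable (fun v : V => (1 + ‖v‖) ^ k * rexp (-b * ‖v‖ ^ 2 + C * ‖v‖)) := by
  have h1 : Integrable (fun v : V => rexp (-(b / 2) * ‖v‖ ^ 2)) := by
    have h2 := GaussianFourier.integrable_cexp_neg_mul_sq_norm_add (V := V) (b := ((b / 2 : ℝ) : ℂ))
      (by simpa using hb) 0 0
    have h3 := h2.norm
    refine h3.congr (Eventually.of_forall fun v => ?_)
    simp only [Complex.norm_exp]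
    congr 1
    simp [← Complex.ofReal_pow]
  have h4 := h1.const_mul ((Nat.factorial k : ℝ) * rexp (1 + (C + 1) ^ 2 / (2 * b)))
  refine h4.mono' (by fun_prop) (Eventually.of_forall fun v => ?_)
  rw [Real.norm_eq_abs, abs_of_nonneg (by positivity)]
  have e1 : (1 + ‖v‖) ^ k ≤ Nat.factorial k * rexp (1 + ‖v‖) := by
    have h5 := Real.pow_div_factorial_le_exp (1 + ‖v‖) (by positivity) k
    rwa [div_le_iff₀ (by positivity), mul_comm] at h5
  have e2 : 1 + ‖v‖ + (-b * ‖v‖ ^ 2 + C * ‖v‖)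
      ≤ 1 + (C + 1) ^ 2 / (2 * b) + -(b / 2) * ‖v‖ ^ 2 := by
    have h6 : (C + 1) * ‖v‖ ≤ b / 2 * ‖v‖ ^ 2 + (C + 1) ^ 2 / (2 * b) := by
      have h7 : 0 ≤ (b * ‖v‖ - (C + 1)) ^ 2 / (2 * b) := by positivity
      have h8 : (b * ‖v‖ - (C + 1)) ^ 2 / (2 * b)
          = b / 2 * ‖v‖ ^ 2 + (C + 1) ^ 2 / (2 * b) - (C + 1) * ‖v‖ := by
        field_simp
        ring
      linarith
    linarith
  calc (1 + ‖v‖) ^ k * rexp (-b * ‖v‖ ^ 2 + C * ‖v‖)
      ≤ (Nat.factorial k * rexp (1 + ‖v‖)) * rexp (-b * ‖v‖ ^ 2 + C * ‖v‖) :=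
        mul_le_mul_of_nonneg_right e1 (Real.exp_pos _).le
    _ = Nat.factorial k * rexp (1 + ‖v‖ + (-b * ‖v‖ ^ 2 + C * ‖v‖)) := by
        rw [mul_assoc, ← Real.exp_add]
    _ ≤ Nat.factorial k * rexp (1 + (C + 1) ^ 2 / (2 * b) + -(b / 2) * ‖v‖ ^ 2) := by
        gcongr
    _ = _ := by rw [Real.exp_add, mul_assoc]

/-- the Gaussian weight with a linear term -/
noncomputable def gw (b : ℝ) (c : ℂ) (w v : V) : ℂ := cexp (-b * ‖v‖ ^ 2 + c * ⟪w, v⟫)

lemma norm_gw_le (b : ℝ) (c : ℂ) (w v : V) :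
    ‖gw b c w v‖ ≤ rexp (-b * ‖v‖ ^ 2 + (‖c‖ * ‖w‖) * ‖v‖) := by
  unfold gw
  rw [Complex.norm_exp]
  refine Real.exp_le_exp.2 ?_
  have e1 : (-(b : ℂ) * ‖v‖ ^ 2 + c * ⟪w, v⟫).re = -b * ‖v‖ ^ 2 + c.re * ⟪w, v⟫ := by
    simp [← Complex.ofReal_pow]
  rw [e1]
  have h1 : c.re * ⟪w, v⟫ ≤ ‖c‖ * (‖w‖ * ‖v‖) := by
    calc c.re * ⟪w, v⟫ ≤ |c.re * ⟪w, v⟫| := le_abs_self _
      _ = |c.re| * |⟪w, v⟫| := abs_mul _ _
      _ ≤ ‖c‖ * (‖w‖ * ‖v‖) := mul_le_mul (Complex.abs_re_le_norm c)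
          (abs_real_inner_le_norm w v) (abs_nonneg _) (norm_nonneg _)
  linarith

lemma continuous_gw (b : ℝ) (c : ℂ) (w : V) : Continuous (gw b c w) := by
  unfold gw
  fun_prop

/-- integrability with a polynomially bounded factor -/
lemma integrable_mul_gw {b : ℝ} (hb : 0 < b) (c : ℂ) (w : V) {P : V → ℂ} (hP : Continuous P)
    {K : ℝ} {k : ℕ} (hK : ∀ v, ‖P v‖ ≤ K * (1 + ‖v‖) ^ k) :
    Integrable (fun v => P v * gw b c w v) := by
  have h1 := (integrable_gauss (V := V) hb (‖c‖ * ‖w‖) k).const_mul K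
  refine h1.mono' ((hP.mul (continuous_gw b c w)).aestronglyMeasurable)
    (Eventually.of_forall fun v => ?_)
  rw [norm_mul]
  calc ‖P v‖ * ‖gw b c w v‖
      ≤ (K * (1 + ‖v‖) ^ k) * rexp (-b * ‖v‖ ^ 2 + (‖c‖ * ‖w‖) * ‖v‖) :=
        mul_le_mul (hK v) (norm_gw_le b c w v) (norm_nonneg _) ((norm_nonneg _).trans (hK v))
    _ = _ := by ring

/-- differentiation under the integral sign -/
lemma hasDerivAt_gw {b : ℝ} (hb : 0 < b) (c : ℂ) (w β : V) {P : V → ℂ} (hP : Continuous P)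
    {K : ℝ} {k : ℕ} (hK : ∀ v, ‖P v‖ ≤ K * (1 + ‖v‖) ^ k) :
    HasDerivAt (fun t : ℝ => ∫ v, P v * gw b c (w + t • β) v)
      (∫ v, P v * (c * ⟪β, v⟫) * gw b c w v) 0 := by
  have hbase := integrable_mul_gw (k := k) hb c w hP hK
  have key := hasDerivAt_integral_of_dominated_loc_of_deriv_le (μ := (volume : Measure V))
    (F := fun (t : ℝ) v => P v * gw b c (w + t • β) v)
    (F' := fun (t : ℝ) v => P v * (c * ⟪β, v⟫) * gw b c (w + t • β) v)
    (x₀ := 0) (s := Metric.ball 0 1)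
    (bound := fun v => (K * (‖c‖ * ‖β‖)) * ((1 + ‖v‖) ^ (k + 1)
      * rexp (-b * ‖v‖ ^ 2 + (‖c‖ * (‖w‖ + ‖β‖)) * ‖v‖)))
    (Metric.ball_mem_nhds 0 one_pos) ?_ ?_ ?_ ?_ ?_ ?_
  · have := key.2
    simpa using this
  · refine Eventually.of_forall fun t => ?_
    exact (hP.mul (continuous_gw b c _)).aestronglyMeasurable
  · simpa using hbase
  · refine ((hP.mul ?_).mul (continuous_gw b c _)).aestronglyMeasurable
    fun_prop
  · refine Eventually.of_forall fun v t ht => ?_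
    have ht1 : |t| ≤ 1 := by
      have := Metric.mem_ball.1 ht
      rw [Real.dist_eq, sub_zero] at this
      exact this.le
    have hw : ‖w + t • β‖ ≤ ‖w‖ + ‖β‖ := by
      refine (norm_add_le _ _).trans ?_
      rw [norm_smul, Real.norm_eq_abs]
      have := mul_le_mul_of_nonneg_right ht1 (norm_nonneg β)
      linarith
    have hin : ‖c * (⟪β, v⟫ : ℂ)‖ ≤ (‖c‖ * ‖β‖) * (1 + ‖v‖) := by
      rw [norm_mul, Complex.norm_real, Real.norm_eq_abs]
      have h1 := abs_real_inner_le_norm β v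
      calc ‖c‖ * |⟪β, v⟫| ≤ ‖c‖ * (‖β‖ * ‖v‖) := mul_le_mul_of_nonneg_left h1 (norm_nonneg _)
        _ ≤ ‖c‖ * (‖β‖ * (1 + ‖v‖)) := by gcongr; linarith
        _ = _ := by ring
    have hg : ‖gw b c (w + t • β) v‖
        ≤ rexp (-b * ‖v‖ ^ 2 + (‖c‖ * (‖w‖ + ‖β‖)) * ‖v‖) := by
      refine (norm_gw_le b c _ v).trans (Real.exp_le_exp.2 ?_)
      gcongr
    have hK0 : 0 ≤ K * (1 + ‖v‖) ^ k := (norm_nonneg _).trans (hK v)
    calc ‖P v * (c * ⟪β, v⟫) * gw b c (w + t • β) v‖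
        = ‖P v‖ * ‖c * (⟪β, v⟫ : ℂ)‖ * ‖gw b c (w + t • β) v‖ := by rw [norm_mul, norm_mul]
      _ ≤ (K * (1 + ‖v‖) ^ k) * ((‖c‖ * ‖β‖) * (1 + ‖v‖))
          * rexp (-b * ‖v‖ ^ 2 + (‖c‖ * (‖w‖ + ‖β‖)) * ‖v‖) := by
        refine mul_le_mul (mul_le_mul (hK v) hin (norm_nonneg _) hK0) hg (norm_nonneg _) ?_
        positivity
      _ = _ := by ring
  · exact (integrable_gauss hb _ _).const_mul _
  · refine Eventually.of_forall fun v t _ => ?_
    have h1 : HasDerivAt (fun t : ℝ => (-(b : ℂ) * ‖v‖ ^ 2 + c * (⟪w + t • β, v⟫ : ℝ)))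
        (c * (⟪β, v⟫ : ℝ)) t := by
      have h2 : HasDerivAt (fun t : ℝ => (⟪w + t • β, v⟫ : ℝ)) ⟪β, v⟫ t := by
        have h3 : (fun t : ℝ => (⟪w + t • β, v⟫ : ℝ)) = fun t => ⟪w, v⟫ + t * ⟪β, v⟫ := by
          funext t
          rw [inner_add_left, real_inner_smul_left]
        rw [h3]
        simpa using ((hasDerivAt_id t).mul_const ⟪β, v⟫).const_add ⟪w, v⟫
      have h4 := h2.ofReal_comp
      exact (h4.const_mul c).const_add _
    have h5 := (h1.cexp).const_mul (P v)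
    refine h5.congr_deriv ?_
    unfold gw
    ring

/-- the normalisation -/
noncomputable def gc (V : Type*) [NormedAddCommGroup V] [InnerProductSpace ℝ V] (b : ℝ) : ℂ :=
  (π / b) ^ (finrank ℝ V / 2 : ℂ)

lemma integral_gw {b : ℝ} (hb : 0 < b) (c : ℂ) (w : V) :
    ∫ v, gw b c w v = gc V b * cexp (c ^ 2 * ‖w‖ ^ 2 / (4 * b)) := by
  unfold gw gc
  exact GaussianFourier.integral_cexp_neg_mul_sq_norm_add (by simpa using hb) c w

/-- first moments -/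
lemma integral_inner_gw {b : ℝ} (hb : 0 < b) {c : ℂ} (hc : c ≠ 0) (w α : V) :
    ∫ v, (⟪α, v⟫ : ℂ) * gw b c w v
      = c * ⟪w, α⟫ / (2 * b) * (gc V b * cexp (c ^ 2 * ‖w‖ ^ 2 / (4 * b))) := by
  have h1 := hasDerivAt_gw hb c w α (P := fun _ => 1) continuous_const (K := 1) (k := 0)
    (by intro v; simp)
  have h2 : (fun t : ℝ => ∫ v, (1 : ℂ) * gw b c (w + t • α) v)
      = fun t : ℝ => gc V b * cexp (c ^ 2 * (‖w + t • α‖ ^ 2 : ℝ) / (4 * b)) := by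
    funext t
    simp only [one_mul]
    rw [integral_gw hb]
    push_cast
    rfl
  rw [h2] at h1
  have h3 : HasDerivAt (fun t : ℝ => ‖w + t • α‖ ^ 2) (2 * ⟪w, α⟫) 0 := by
    have e : (fun t : ℝ => ‖w + t • α‖ ^ 2)
        = fun t => ‖w‖ ^ 2 + t * (2 * ⟪w, α⟫) + t ^ 2 * ‖α‖ ^ 2 := by
      funext t
      rw [norm_add_sq_real, real_inner_smul_right, norm_smul, Real.norm_eq_abs, mul_pow, sq_abs]
      ring
    rw [e]
    have := (((hasDerivAt_id (0 : ℝ)).mul_const (2 * ⟪w, α⟫)).const_add (‖w‖ ^ 2)).fun_add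
      ((hasDerivAt_pow 2 (0 : ℝ)).mul_const (‖α‖ ^ 2))
    simpa using this
  have h4 := ((((h3.ofReal_comp).const_mul (c ^ 2)).div_const (4 * (b : ℂ))).cexp).const_mul
    (gc V b)
  have h5 := h1.unique h4
  have h6 : ∫ v, (1 : ℂ) * (c * ⟪α, v⟫) * gw b c w v = c * ∫ v, (⟪α, v⟫ : ℂ) * gw b c w v := by
    rw [← integral_const_mul]
    refine integral_congr_ae (Eventually.of_forall fun v => ?_)
    simp only [one_mul]
    ring
  rw [h6] at h5
  have hb' : (b : ℂ) ≠ 0 := by exact_mod_cast hb.ne'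
  apply mul_left_cancel₀ hc
  rw [h5]
  simp only [zero_smul, add_zero]
  push_cast
  field_simp
  ring

/-- second moments -/
lemma integral_inner_inner_gw {b : ℝ} (hb : 0 < b) {c : ℂ} (hc : c ≠ 0) (w α β : V) :
    ∫ v, (⟪α, v⟫ : ℂ) * (⟪β, v⟫ : ℂ) * gw b c w v
      = (⟪α, β⟫ / (2 * b) + c ^ 2 * ⟪w, α⟫ * ⟪w, β⟫ / (4 * b ^ 2))
        * (gc V b * cexp (c ^ 2 * ‖w‖ ^ 2 / (4 * b))) := by
  have h1 := hasDerivAt_gw hb c w β (P := fun v => (⟪α, v⟫ : ℂ)) (by fun_prop) (K := ‖α‖) (k := 1)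
    (by
      intro v
      rw [Complex.norm_real, Real.norm_eq_abs, pow_one]
      refine (abs_real_inner_le_norm α v).trans ?_
      gcongr
      linarith)
  have h2 : (fun t : ℝ => ∫ v, (⟪α, v⟫ : ℂ) * gw b c (w + t • β) v)
      = fun t : ℝ => c * (⟪w + t • β, α⟫ : ℝ) / (2 * b)
        * (gc V b * cexp (c ^ 2 * (‖w + t • β‖ ^ 2 : ℝ) / (4 * b))) := by
    funext t
    rw [integral_inner_gw hb hc]
    push_cast
    rfl
  rw [h2] at h1
  have h3 : HasDerivAt (fun t : ℝ => ‖w + t • β‖ ^ 2) (2 * ⟪w, β⟫) 0 := by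
    have e : (fun t : ℝ => ‖w + t • β‖ ^ 2)
        = fun t => ‖w‖ ^ 2 + t * (2 * ⟪w, β⟫) + t ^ 2 * ‖β‖ ^ 2 := by
      funext t
      rw [norm_add_sq_real, real_inner_smul_right, norm_smul, Real.norm_eq_abs, mul_pow, sq_abs]
      ring
    rw [e]
    have := (((hasDerivAt_id (0 : ℝ)).mul_const (2 * ⟪w, β⟫)).const_add (‖w‖ ^ 2)).fun_add
      ((hasDerivAt_pow 2 (0 : ℝ)).mul_const (‖β‖ ^ 2))
    simpa using this
  have h7 : HasDerivAt (fun t : ℝ => (⟪w + t • β, α⟫ : ℝ)) ⟪β, α⟫ 0 := by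
    have e : (fun t : ℝ => (⟪w + t • β, α⟫ : ℝ)) = fun t => ⟪w, α⟫ + t * ⟪β, α⟫ := by
      funext t
      rw [inner_add_left, real_inner_smul_left]
    rw [e]
    simpa using ((hasDerivAt_id (0 : ℝ)).mul_const ⟪β, α⟫).const_add ⟪w, α⟫
  have h4 := ((((h3.ofReal_comp).const_mul (c ^ 2)).div_const (4 * (b : ℂ))).cexp).const_mul
    (gc V b)
  have h8 := ((h7.ofReal_comp.const_mul c).div_const (2 * (b : ℂ))).mul h4
  have h5 := h1.unique h8
  have h6 : ∫ v, (⟪α, v⟫ : ℂ) * (c * ⟪β, v⟫) * gw b c w v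
      = c * ∫ v, (⟪α, v⟫ : ℂ) * (⟪β, v⟫ : ℂ) * gw b c w v := by
    rw [← integral_const_mul]
    refine integral_congr_ae (Eventually.of_forall fun v => ?_)
    ring
  rw [h6] at h5
  have hb' : (b : ℂ) ≠ 0 := by exact_mod_cast hb.ne'
  apply mul_left_cancel₀ hc
  rw [h5]
  simp only [zero_smul, add_zero]
  rw [real_inner_comm α β]
  push_cast
  field_simp

end

end Vale.Agent.P224.R2.H728
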