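import Vale.Agent.P224.R2.H728.Fld

/-!
The square integral of the Gaussian transform: monotonicity and its kernel form.
-/

namespace Vale.Agent.P224.R2.H728

open MeasureTheory Set Filter Function Complex Real Module
open scoped Topology RealInnerProductSpace ComplexConjugate

set_option linter.unusedSectionVars false

section

variable {V : Type*} [NormedAddCommGroup V] [InnerProductSpace ℝ V] [FiniteDimensional ℝ V]
  [MeasurableSpace V] [BorelSpace V] {Ω : Type*} [MeasurableSpace Ω]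

/-- the dominating function -/
noncomputable def bdf (r ρ : ℝ) (z : V × V) : ℝ :=
  ((1 + ‖z.1‖) ^ 2 * rexp (-(1 - r ^ 2) * ‖z.1‖ ^ 2 + (2 * r * |ρ|) * ‖z.1‖))
    * ((1 + ‖z.2‖) ^ 2 * rexp (-(1 - r ^ 2) * ‖z.2‖ ^ 2 + (2 * r * |ρ|) * ‖z.2‖))

lemma integrable_bdf {r : ℝ} (hr0 : 0 ≤ r) (hr : r < 1) (ρ : ℝ) :
    Integrable (bdf r ρ : V × V → ℝ) := by
  have hb : 0 < 1 - r ^ 2 := by nlinarith
  have h1 := integrable_gauss (V := V) hb (2 * r * |ρ|) 2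
  rw [Measure.volume_eq_prod]
  exact h1.mul_prod h1

variable {μ : Measure Ω} [IsFiniteMeasure μ] {p η : Ω → V}

lemma measurable_fld (hp : Measurable p) (hη : Measurable η) (ρ : ℝ) :
    Measurable (fun q : (ℂ × (V × V)) × Ω => cin (η q.2) q.1.2 * coh q.1.1 (ρ • p q.2) q.1.2) := by
  have h1 : Measurable (fun q : (ℂ × (V × V)) × Ω => η q.2) := hη.comp measurable_snd
  have h2 : Measurable (fun q : (ℂ × (V × V)) × Ω => ρ • p q.2) :=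
    (hp.comp measurable_snd).const_smul ρ
  have h3 : Measurable (fun q : (ℂ × (V × V)) × Ω => q.1.2.1) :=
    measurable_fst.comp (measurable_snd.comp measurable_fst)
  have h4 : Measurable (fun q : (ℂ × (V × V)) × Ω => q.1.2.2) :=
    measurable_snd.comp (measurable_snd.comp measurable_fst)
  have h5 : Measurable (fun q : (ℂ × (V × V)) × Ω => q.1.1) :=
    measurable_fst.comp measurable_fst
  unfold coh cin cq
  have a1 := h1.inner (𝕜 := ℝ) h3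
  have a2 := h1.inner (𝕜 := ℝ) h4
  have a3 := h2.inner (𝕜 := ℝ) h3
  have a4 := h2.inner (𝕜 := ℝ) h4
  have a5 := h3.inner (𝕜 := ℝ) h4
  have a6 := h3.norm
  have a7 := h4.norm
  fun_prop

lemma measurable_BF (hp : Measurable p) (hη : Measurable η) (ρ : ℝ) :
    Measurable (fun q : ℂ × (V × V) => BF μ p η ρ q.1 q.2) := by
  unfold BF
  have h1 := (measurable_fld hp hη ρ).stronglyMeasurable.integral_prod_right' (ν := μ)
  exact measurable_fst.mul h1.measurable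

lemma norm_BF_le {C : ℝ} (hp1 : ∀ x, ‖p x‖ ≤ 1) (hηC : ∀ x, ‖η x‖ ≤ C) (hC : 0 ≤ C) (ρ : ℝ)
    (lam : ℂ) (z : V × V) : ‖BF μ p η ρ lam z‖ ≤ ‖lam‖ * (μ.real univ * C)
      * ((1 + ‖z.1‖) * (1 + ‖z.2‖))
      * rexp (‖lam‖ * |ρ| * (‖z.1‖ + ‖z.2‖) + ‖lam‖ ^ 2 / 2 * (‖z.1‖ ^ 2 + ‖z.2‖ ^ 2)) := by
  unfold BF
  rw [norm_mul]
  have h1 : ‖∫ x, cin (η x) z * coh lam (ρ • p x) z ∂μ‖ ≤ (C * ((1 + ‖z.1‖) * (1 + ‖z.2‖))
      * rexp (‖lam‖ * |ρ| * (‖z.1‖ + ‖z.2‖) + ‖lam‖ ^ 2 / 2 * (‖z.1‖ ^ 2 + ‖z.2‖ ^ 2)))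
        * μ.real univ := by
    refine norm_integral_le_of_norm_le_const (Eventually.of_forall fun x => ?_)
    rw [norm_mul]
    have e1 : ‖cin (η x) z‖ ≤ C * ((1 + ‖z.1‖) * (1 + ‖z.2‖)) := by
      refine (norm_cin_le _ _).trans (mul_le_mul (hηC x) ?_ (by positivity) hC)
      nlinarith [norm_nonneg z.1, norm_nonneg z.2, mul_nonneg (norm_nonneg z.1) (norm_nonneg z.2)]
    have e2 : ‖ρ • p x‖ ≤ |ρ| := by
      rw [norm_smul, Real.norm_eq_abs]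
      exact (mul_le_mul_of_nonneg_left (hp1 x) (abs_nonneg _)).trans (by rw [mul_one])
    have e3 : ‖coh lam (ρ • p x) z‖
        ≤ rexp (‖lam‖ * |ρ| * (‖z.1‖ + ‖z.2‖) + ‖lam‖ ^ 2 / 2 * (‖z.1‖ ^ 2 + ‖z.2‖ ^ 2)) := by
      refine (norm_coh_le lam _ z).trans (Real.exp_le_exp.2 ?_)
      gcongr
    exact mul_le_mul e1 e3 (norm_nonneg _) (by positivity)
  calc ‖lam‖ * ‖∫ x, cin (η x) z * coh lam (ρ • p x) z ∂μ‖ ≤ ‖lam‖ * _ :=
        mul_le_mul_of_nonneg_left h1 (norm_nonneg _)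
    _ = _ := by ring

lemma sq_BF_le {C : ℝ} (hp1 : ∀ x, ‖p x‖ ≤ 1) (hηC : ∀ x, ‖η x‖ ≤ C) (hC : 0 ≤ C) (ρ : ℝ)
    (lam : ℂ) (z : V × V) : ‖BF μ p η ρ lam z‖ ^ 2 * gwt z
      ≤ (‖lam‖ * (μ.real univ * C)) ^ 2 * bdf ‖lam‖ ρ z := by
  have h1 := pow_le_pow_left₀ (norm_nonneg _) (norm_BF_le (μ := μ) hp1 hηC hC ρ lam z) 2
  have h2 := mul_le_mul_of_nonneg_right h1 (Real.exp_pos (-‖z.1‖ ^ 2 - ‖z.2‖ ^ 2)).le
  refine h2.trans (le_of_eq ?_)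
  unfold bdf
  rw [mul_pow, mul_pow, mul_pow, ← Real.exp_nat_mul]
  have e : rexp ((2 : ℕ) * (‖lam‖ * |ρ| * (‖z.1‖ + ‖z.2‖)
      + ‖lam‖ ^ 2 / 2 * (‖z.1‖ ^ 2 + ‖z.2‖ ^ 2))) * rexp (-‖z.1‖ ^ 2 - ‖z.2‖ ^ 2)
      = rexp (-(1 - ‖lam‖ ^ 2) * ‖z.1‖ ^ 2 + (2 * ‖lam‖ * |ρ|) * ‖z.1‖)
        * rexp (-(1 - ‖lam‖ ^ 2) * ‖z.2‖ ^ 2 + (2 * ‖lam‖ * |ρ|) * ‖z.2‖) := by
    rw [← Real.exp_add, ← Real.exp_add]
    congr 1
    push_cast
    ring
  rw [mul_assoc, e]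
  ring

/-- the square integral -/
noncomputable def GI (μ : Measure Ω) (p η : Ω → V) (ρ r : ℝ) : ℝ :=
  ∫ z, ‖BF μ p η ρ r z‖ ^ 2 * gwt z

lemma GI_rot (hp : Measurable p) (hη : Measurable η) (ρ r θ : ℝ) :
    GI μ p η ρ r = ∫ z, ‖BF μ p η ρ (r * cexp (θ * I)) z‖ ^ 2 * gwt z := by
  unfold GI
  have hm : Measurable fun z : V × V => ‖BF μ p η ρ r z‖ ^ 2 * gwt z := by
    have h1 : Measurable fun z : V × V => BF μ p η ρ r z :=
      (measurable_BF hp hη ρ).comp (measurable_const.prodMk measurable_id)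
    exact (h1.norm.pow_const 2).mul continuous_gwt.measurable
  have h2 : ∫ z, ‖BF μ p η ρ r z‖ ^ 2 * gwt z
      = ∫ z : V × V, ‖BF μ p η ρ r (rot θ z)‖ ^ 2 * gwt (rot θ z) := by
    have h3 := mp_rot (V := V) θ
    conv_lhs => rw [← h3.map_eq]
    exact integral_map h3.measurable.aemeasurable hm.aestronglyMeasurable
  rw [h2]
  simp only [BF_rot, gwt_rot]

lemma GI_mean (hp : Measurable p) (hη : Measurable η) {C : ℝ} (hp1 : ∀ x, ‖p x‖ ≤ 1)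
    (hηC : ∀ x, ‖η x‖ ≤ C) (hC : 0 ≤ C) (ρ : ℝ) {r : ℝ} (hr0 : 0 ≤ r) (hr : r < 1) :
    Integrable (fun z : V × V => (∫ θ in (0 : ℝ)..(2 * π), ‖BF μ p η ρ (r * cexp (θ * I)) z‖ ^ 2)
      * gwt z) ∧
    2 * π * GI μ p η ρ r = ∫ z : V × V,
      (∫ θ in (0 : ℝ)..(2 * π), ‖BF μ p η ρ (r * cexp (θ * I)) z‖ ^ 2) * gwt z := by
  have hpi : (0 : ℝ) ≤ 2 * π := by positivity
  set ν : Measure ℝ := volume.restrict (Ioc 0 (2 * π)) with hν
  have hnorm : ∀ θ : ℝ, ‖(r : ℂ) * cexp (θ * I)‖ = r := by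
    intro θ
    rw [norm_mul, Complex.norm_exp_ofReal_mul_I, Complex.norm_real, Real.norm_eq_abs,
      abs_of_nonneg hr0, mul_one]
  have hm : Measurable fun q : ℝ × (V × V) =>
      ‖BF μ p η ρ (r * cexp (q.1 * I)) q.2‖ ^ 2 * gwt q.2 := by
    have h1 : Measurable fun q : ℝ × (V × V) => BF μ p η ρ (r * cexp (q.1 * I)) q.2 := by
      refine (measurable_BF hp hη ρ).comp (Measurable.prodMk ?_ measurable_snd)
      fun_prop
    exact (h1.norm.pow_const 2).mul (continuous_gwt.measurable.comp measurable_snd)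
  have hi : Integrable (fun q : ℝ × (V × V) =>
      ‖BF μ p η ρ (r * cexp (q.1 * I)) q.2‖ ^ 2 * gwt q.2) (ν.prod volume) := by
    have hb := (integrable_bdf (V := V) hr0 hr ρ).const_mul ((r * (μ.real univ * C)) ^ 2)
    have hb2 := hb.comp_snd ν
    refine hb2.mono' hm.aestronglyMeasurable (Eventually.of_forall fun q => ?_)
    have hg0 : 0 ≤ gwt q.2 := (Real.exp_pos _).le
    rw [Real.norm_eq_abs, abs_of_nonneg (mul_nonneg (by positivity) hg0)]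
    have h1 := sq_BF_le (μ := μ) hp1 hηC hC ρ (r * cexp (q.1 * I)) q.2
    rw [hnorm] at h1
    exact h1
  have e : ∀ z : V × V, (∫ θ in (0 : ℝ)..(2 * π), ‖BF μ p η ρ (r * cexp (θ * I)) z‖ ^ 2) * gwt z
      = ∫ θ, ‖BF μ p η ρ (r * cexp (θ * I)) z‖ ^ 2 * gwt z ∂ν := by
    intro z
    rw [integral_mul_const, intervalIntegral.integral_of_le hpi]
  simp only [e]
  refine ⟨hi.integral_prod_right, ?_⟩
  rw [← integral_integral_swap hi]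
  have h3 : ∀ θ : ℝ, ∫ z, ‖BF μ p η ρ (r * cexp (θ * I)) z‖ ^ 2 * gwt z = GI μ p η ρ r :=
    fun θ => (GI_rot hp hη ρ r θ).symm
  simp only [h3]
  rw [integral_const, hν]
  have h4 : (volume.restrict (Ioc 0 (2 * π))).real univ = 2 * π := by
    rw [Measure.real, Measure.restrict_apply_univ, Real.volume_Ioc, sub_zero,
      ENNReal.toReal_ofReal hpi]
  rw [h4, smul_eq_mul]

/-- the cubic decay of the square integral -/
theorem GI_le (hp : Measurable p) (hη : Measurable η) {C : ℝ} (hp1 : ∀ x, ‖p x‖ ≤ 1)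
    (hηC : ∀ x, ‖η x‖ ≤ C) (hC : 0 ≤ C) (h0 : ∫ x, η x ∂μ = 0)
    (h1 : ∀ a, ∫ x, ⟪η x, a⟫ * ⟪p x, a⟫ ∂μ = 0) (ρ : ℝ) {r r1 : ℝ} (hr0 : 0 < r) (hr : r ≤ r1)
    (hr1 : r1 < 1) : GI μ p η ρ r ≤ (r / r1) ^ 6 * GI μ p η ρ r1 := by
  obtain ⟨i1, e1⟩ := GI_mean (μ := μ) hp hη hp1 hηC hC ρ hr0.le (hr.trans_lt hr1)
  obtain ⟨i2, e2⟩ := GI_mean (μ := μ) hp hη hp1 hηC hC ρ (hr0.le.trans hr) hr1
  have hpi : (0 : ℝ) < 2 * π := by positivity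
  refine le_of_mul_le_mul_left ?_ hpi
  rw [mul_left_comm, e1, e2, ← integral_const_mul]
  refine integral_mono i1 (i2.const_mul _) fun z => ?_
  have h2 := mean_sq_le (BF_entire (μ := μ) hp hη hp1 hηC ρ z)
    (BF_vanish (μ := μ) hp hη hp1 hηC h0 h1 ρ z) hr0.le (hr0.trans_le hr) hr
  have h3 := mul_le_mul_of_nonneg_right h2 (Real.exp_pos (-‖z.1‖ ^ 2 - ‖z.2‖ ^ 2)).le
  refine h3.trans (le_of_eq ?_)
  unfold gwt
  ring

end

end Vale.Agent.P224.R2.H728
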