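import Vale.Agent.P224.R2.H728.Frm

/-!
Mixing over the radius: the kernels of the sphere.
-/

namespace Vale.Agent.P224.R2.H728

open MeasureTheory Set Filter Function Real Module
open scoped Topology RealInnerProductSpace

set_option linter.unusedSectionVars false

/-- the radial integrals -/
lemma radial_int {b : ℝ} (hb : 0 < b) {n : ℕ} (hn : 1 ≤ n) :
    IntegrableOn (fun R : ℝ => R ^ (n - 1) * rexp (-(b * R))) (Ioi 0) ∧
    ∫ R in Ioi (0 : ℝ), R ^ (n - 1) * rexp (-(b * R)) = Real.Gamma n * (b ^ n)⁻¹ := by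
  have hn0 : (0 : ℝ) < n := by exact_mod_cast hn
  have e : ∀ R ∈ Ioi (0 : ℝ), R ^ (n - 1) * rexp (-(b * R)) = R ^ ((n : ℝ) - 1) * rexp (-(b * R)) := by
    intro R hR
    congr 1
    rw [← Real.rpow_natCast]
    congr 1
    push_cast [Nat.cast_sub hn]
    ring
  constructor
  · have h1 := integrableOn_rpow_mul_exp_neg_mul_rpow (p := 1) (s := (n : ℝ) - 1) (b := b)
      (by linarith) one_pos hb
    refine h1.congr_fun (fun R hR => ?_) measurableSet_Ioi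
    simp only [Real.rpow_one]
    rw [e R hR]
    ring_nf
  · rw [setIntegral_congr_fun measurableSet_Ioi e, Real.integral_rpow_mul_exp_neg_mul_Ioi hn0 hb,
      mul_comm, Real.rpow_natCast, one_div, inv_pow]

section

variable {V : Type*} [NormedAddCommGroup V] [InnerProductSpace ℝ V] [FiniteDimensional ℝ V]
  [MeasurableSpace V] [BorelSpace V] {Ω : Type*} [MeasurableSpace Ω]

/-- the kernel on the sphere -/
noncomputable def ZK (m : ℕ) (T : ℝ) (a b x y : V) : ℝ :=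
  (T * ((1 - T ^ 2) ^ ((m : ℝ) / 2) * ((1 - T * ⟪x, y⟫) ^ m)⁻¹ * ⟪a, b⟫)
    + T ^ 2 * (m * (1 - T ^ 2) ^ ((m : ℝ) / 2) * ((1 - T * ⟪x, y⟫) ^ (m + 1))⁻¹
      * (⟪a, y - T • x⟫ * ⟪b, x - T • y⟫))) / (1 - T ^ 2) ^ 2

lemma KG_unit {T R : ℝ} (hR : 0 ≤ R) {a b x y : V} (hx : ‖x‖ = 1) (hy : ‖y‖ = 1) :
    KG T (√R) a b x y = T * ((π / (1 + T)) ^ (finrank ℝ V / 2 : ℝ)
      * (π / (1 - T)) ^ (finrank ℝ V / 2 : ℝ)) *
      (⟪a, b⟫ / (1 - T ^ 2) + T / (1 - T ^ 2) ^ 2 * R * (⟪a, y - T • x⟫ * ⟪b, x - T • y⟫))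
      * rexp (-(R * (T ^ 2 - T * ⟪x, y⟫) / (1 - T ^ 2))) := by
  have hs : √R * √R = R := Real.mul_self_sqrt hR
  have e1 : (⟪a, √R • y - T • √R • x⟫ : ℝ) = √R * ⟪a, y - T • x⟫ := by
    rw [smul_comm T (√R) x, ← smul_sub, real_inner_smul_right]
  have e2 : (⟪b, √R • x - T • √R • y⟫ : ℝ) = √R * ⟪b, x - T • y⟫ := by
    rw [smul_comm T (√R) y, ← smul_sub, real_inner_smul_right]
  unfold KG MM
  rw [e1, e2, norm_smul, norm_smul, hx, hy, real_inner_smul_left, real_inner_smul_right,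
    Real.norm_eq_abs, mul_one, sq_abs]
  have e3 : -(T ^ 2 * (√R ^ 2 + √R ^ 2) - 2 * T * (√R * (√R * ⟪x, y⟫))) / (2 * (1 - T ^ 2))
      = -(R * (T ^ 2 - T * ⟪x, y⟫) / (1 - T ^ 2)) := by
    have : √R ^ 2 = R := by rw [sq, hs]
    rw [this, ← mul_assoc (√R), hs, neg_div, ← mul_div_mul_left (R * (T ^ 2 - T * ⟪x, y⟫))
      (1 - T ^ 2) two_ne_zero]
    ring
  rw [e3]
  linear_combination (T * (T / (1 - T ^ 2) ^ 2 * ⟪a, y - T • x⟫ * ⟪b, x - T • y⟫)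
    * ((π / (1 + T)) ^ (finrank ℝ V / 2 : ℝ) * (π / (1 - T)) ^ (finrank ℝ V / 2 : ℝ))
    * rexp (-(R * (T ^ 2 - T * ⟪x, y⟫) / (1 - T ^ 2)))) * hs

/-- the radial weight -/
noncomputable def rw0 (m : ℕ) (R : ℝ) : ℝ := R ^ (m - 1) * rexp (-R)

lemma mix_kernel {m : ℕ} (hm : 1 ≤ m) (hd : finrank ℝ V = m + 2) {T : ℝ} (h0 : 0 < T) (h1 : T < 1)
    {a b x y : V} (hx : ‖x‖ = 1) (hy : ‖y‖ = 1) :
    ∫ R in Ioi (0 : ℝ), rw0 m R * KG T (√R) a b x y
      = Real.Gamma m * π ^ (m + 2) * ZK m T a b x y := by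
  have hk : 0 < 1 - T ^ 2 := by nlinarith
  have hp : 0 < 1 + T := by linarith
  have hq : 0 < 1 - T := by linarith
  have hs : ⟪x, y⟫ ≤ 1 := by
    have := real_inner_le_norm x y
    rwa [hx, hy, one_mul] at this
  have hv : 0 < 1 - T * ⟪x, y⟫ := by
    have : T * ⟪x, y⟫ ≤ T * 1 := mul_le_mul_of_nonneg_left hs h0.le
    linarith
  set v : ℝ := 1 - T * ⟪x, y⟫ with hvdef
  set k : ℝ := 1 - T ^ 2 with hkdef
  set c : ℝ := (π / (1 + T)) ^ (finrank ℝ V / 2 : ℝ) * (π / (1 - T)) ^ (finrank ℝ V / 2 : ℝ) with hc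
  set A : ℝ := ⟪a, b⟫ with hA
  set B : ℝ := ⟪a, y - T • x⟫ * ⟪b, x - T • y⟫ with hB
  have hbp : 0 < v / k := div_pos hv hk
  obtain ⟨i1, e1⟩ := radial_int hbp hm
  obtain ⟨i2, e2⟩ := radial_int hbp (show 1 ≤ m + 1 by omega)
  have e : ∀ R ∈ Ioi (0 : ℝ), rw0 m R * KG T (√R) a b x y
      = (T * c * (A / k)) * (R ^ (m - 1) * rexp (-(v / k * R)))
        + (T * c * (T / k ^ 2 * B)) * (R ^ (m + 1 - 1) * rexp (-(v / k * R))) := by
    intro R hR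
    rw [KG_unit (le_of_lt hR) hx hy, ← hkdef, ← hc, ← hA, ← hB]
    unfold rw0
    have e3 : rexp (-(v / k * R)) = rexp (-R) * rexp (-(R * (T ^ 2 - T * ⟪x, y⟫) / k)) := by
      rw [← Real.exp_add]
      congr 1
      rw [hvdef]
      field_simp
      rw [hkdef]
      ring
    have e4 : R ^ (m + 1 - 1) = R ^ (m - 1) * R := by
      rw [← pow_succ]
      congr 1
      omega
    rw [e3, e4]
    ring
  rw [setIntegral_congr_fun measurableSet_Ioi e, integral_add (i1.const_mul _) (i2.const_mul _),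
    integral_const_mul, integral_const_mul, e1, e2]
  have hG : Real.Gamma ((m + 1 : ℕ) : ℝ) = m * Real.Gamma m := by
    push_cast
    exact Real.Gamma_add_one (by positivity)
  have hc2 : c = π ^ (m + 2) * (k * k ^ ((m : ℝ) / 2))⁻¹ := by
    rw [hc, hd, Real.div_rpow pi_pos.le hp.le, Real.div_rpow pi_pos.le hq.le]
    have e5 : (π ^ (((m + 2 : ℕ) : ℝ) / 2)) * (π ^ (((m + 2 : ℕ) : ℝ) / 2)) = π ^ (m + 2) := by
      rw [← Real.rpow_add pi_pos, add_halves, Real.rpow_natCast]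
    have e6 : (1 + T) ^ (((m + 2 : ℕ) : ℝ) / 2) * (1 - T) ^ (((m + 2 : ℕ) : ℝ) / 2)
        = k * k ^ ((m : ℝ) / 2) := by
      rw [← Real.mul_rpow hp.le hq.le]
      have e7 : (1 + T) * (1 - T) = k := by rw [hkdef]; ring
      have e8 : (((m + 2 : ℕ) : ℝ) / 2) = (m : ℝ) / 2 + 1 := by push_cast; ring
      rw [e7, e8, Real.rpow_add_one hk.ne', mul_comm]
    rw [div_mul_div_comm, e5, e6, div_eq_mul_inv]
  have hkm : k ^ ((m : ℝ) / 2) * k ^ ((m : ℝ) / 2) = k ^ m := by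
    rw [← Real.rpow_add hk, add_halves, Real.rpow_natCast]
  have hkr : 0 < k ^ ((m : ℝ) / 2) := Real.rpow_pos_of_pos hk _
  rw [hG, hc2]
  unfold ZK
  rw [← hkdef, ← hvdef, ← hA, ← hB, div_pow, div_pow]
  set κ : ℝ := k ^ ((m : ℝ) / 2) with hκ
  rw [pow_succ k m, ← hkm]
  field_simp

end

end Vale.Agent.P224.R2.H728
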