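import Vale.Agent.P224.R2.H582.LawT
import Vale.Agent.P224.R2.H728.T0r

/-!
Bounds of the four two point quantities of the law by the defect, the deviation and the mean
normal, on a cell.
-/

namespace Vale.Agent.P224.R2.H728

open MeasureTheory Set Filter Function Real Finset Matrix Vale.Agent.P224.R2.H582

set_option linter.unusedSectionVars false

section

variable {ι Ω : Type*} [Fintype ι] [DecidableEq ι] [MeasurableSpace Ω] {μ : Measure Ω}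
  {m : ℝ} {x N : ι → Ω → ℝ} {j : ι → ℝ}

lemma kq_nonneg (hm : 0 ≤ m) : 0 ≤ kq m := by unfold kq; positivity

namespace T0Data

variable (h : T0Data μ m x N)
include h

lemma uu_nonneg : 0 ≤ uu μ N := Finset.sum_nonneg fun _ _ => sq_nonneg _

lemma nX_nonneg : 0 ≤ nX μ x := Real.sqrt_nonneg _

lemma Qpt_eq (hm : m + 1 ≠ 0) : ∫ q, (ip N x q.1 q.2 - ip x N q.1 q.2) ^ 2 ∂(μ.prod μ)
    = Qpt μ m x N := by
  rw [h.E_pt hm]
  unfold Qpt
  ring

lemma Qpts_eq (hm : m + 1 ≠ 0) :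
    ∫ q, (ip N x q.1 q.2 - ip x N q.1 q.2) ^ 2 * ip x x q.1 q.2 ∂(μ.prod μ)
    = Qpts μ m x N := by
  rw [h.E_pts hm]
  unfold Qpts
  ring

/-- lower bound of the second square -/
lemma Qpt_ge (hm : 0 ≤ m) (hL : LSq μ (diagonal j) x N) {δ : ℝ}
    (hδ : √(fro (De μ x N)) ≤ δ) :
    2 * (1 - δ) / (m + 2) * hh μ (diagonal j) x N ≤ Qpt μ m x N := by
  have hm1 : m + 1 ≠ 0 := by positivity
  have h1 := h.E_pt_ge (isSymm_diagonal j) hL (by positivity)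
  rw [h.Qpt_eq hm1] at h1
  have h2 : 0 ≤ ∑ a, ∑ b, m2 μ (ze (diagonal j) x N) x a b ^ 2 :=
    Finset.sum_nonneg fun a _ => Finset.sum_nonneg fun b _ => sq_nonneg _
  have h3 : 0 ≤ hh μ (diagonal j) x N := h.hh_nonneg _
  have h4 : 2 * (1 - δ) / (m + 2) * hh μ (diagonal j) x N
      ≤ 2 / (m + 2) * ((1 - √(fro (De μ x N))) * hh μ (diagonal j) x N) := by
    have e : 2 * (1 - δ) / (m + 2) * hh μ (diagonal j) x N
      = 2 / (m + 2) * ((1 - δ) * hh μ (diagonal j) x N) := by ring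
    rw [e]
    gcongr
  linarith

lemma Qpt_nonneg (hm : 0 ≤ m) : 0 ≤ Qpt μ m x N := by
  rw [← h.Qpt_eq (by positivity)]
  exact integral_nonneg fun q => sq_nonneg _

lemma Qcs_eq (hm : 0 ≤ m) : Qcs μ x N = fro (De μ x N) + Qpt μ m x N := by
  have hm1 : m + 1 ≠ 0 := by positivity
  have h1 := h.E_cs' hm1
  rw [h.Qpt_eq hm1, h.E_cs] at h1
  rw [← h1]
  unfold Qcs
  rfl

/-- the loss -/
lemma Qpts_ge (hm : 0 ≤ m) (j : ι → ℝ) :
    -(2 * kq m * hh μ (diagonal j) x N + 2 * nX μ x * hh μ (diagonal j) x N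
        + 4 / (m + 1) * |∑ b, m1 μ N b * xi μ j x b|) ≤ Qpts μ m x N := by
  rw [← h.Qpts_eq (by positivity)]
  exact h.pts_ge hm j

lemma Qcss_ge (hm : 0 ≤ m) (j : ι → ℝ) :
    -(2 * (kq m * hh μ (diagonal j) x N + uu μ N / (m + 2))
        + 2 * nX μ x * hh μ (diagonal j) x N
        + 4 / (m + 1) * |∑ b, m1 μ N b * xi μ j x b|) ≤ Qcss μ m x N := by
  have h1 := h.Nxx_le hm j
  have h2 : 0 ≤ s3 fun a b c => m3 μ x x x a b c ^ 2 := s3_nonneg fun a b c => sq_nonneg _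
  have e : Qcss μ m x N = ((m + 2) ^ 2 / 4 + 1) * (s3 fun a b c => m3 μ x x x a b c ^ 2)
      - 2 * (s3 fun a b c => m3 μ N x x a b c ^ 2) := rfl
  rw [e]
  have h3 : 0 ≤ ((m + 2) ^ 2 / 4 + 1) * (s3 fun a b c => m3 μ x x x a b c ^ 2) := by positivity
  have h4 : 0 ≤ (m + 2) * nX μ x ^ 2 := by positivity
  linarith

/-- the loss without the linear field -/
lemma Qcss_ge_free (hm : 0 ≤ m) : -(2 * (kq m + uu μ N / (m + 2))) ≤ Qcss μ m x N := by
  have h1 := h.Z_sq_le hm 0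
  have e0 : zd (0 : ι → ℝ) x N = N := by
    funext a ω
    simp [zd]
  have e1 : hh μ (diagonal (0 : ι → ℝ)) x N = 1 := by
    rw [h.hh_sum, e0, h.trP]
  rw [e0, e1, mul_one] at h1
  have h2 : 0 ≤ s3 fun a b c => m3 μ x x x a b c ^ 2 := s3_nonneg fun a b c => sq_nonneg _
  have e : Qcss μ m x N = ((m + 2) ^ 2 / 4 + 1) * (s3 fun a b c => m3 μ x x x a b c ^ 2)
      - 2 * (s3 fun a b c => m3 μ N x x a b c ^ 2) := rfl
  rw [e]
  have h3 : 0 ≤ ((m + 2) ^ 2 / 4 + 1) * (s3 fun a b c => m3 μ x x x a b c ^ 2) := by positivity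
  linarith

/-- the contraction term on a cell -/
lemma xi_cell (hm : 0 < m) (j : ι → ℝ) {ρ ω n r s η : ℝ} (hρ : 0 ≤ ρ) (hω : 0 ≤ ω)
    (hj : ∀ a, |j a| ≤ ρ) (hw : ∑ b, (j b ^ 2 - 1) ^ 2 ≤ ω ^ 2)
    (hn : nX μ x ≤ n) (hr : 0 ≤ r) (hr2 : kq m * η ≤ r ^ 2) (hs : √(uu μ N) ≤ s)
    (hη : hh μ (diagonal j) x N ≤ η) :
    4 / (m + 1) * |∑ b, m1 μ N b * xi μ j x b|
      ≤ 8 / (m * (m + 1)) * (ρ * ω * n + 2 * ω * (r + s / (m + 2)) + ρ * η) * √(uu μ N) := by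
  have h1 := h.xi_le hm.le j hρ hω hj hw
  have hk := kq_nonneg hm.le
  have h2 : √(kq m * hh μ (diagonal j) x N) ≤ r := by
    rw [Real.sqrt_le_left hr]
    exact (mul_le_mul_of_nonneg_left hη hk).trans hr2
  have hu : 0 ≤ √(uu μ N) := Real.sqrt_nonneg _
  have h3 : √(uu μ N) * (ρ * ω * nX μ x
        + 2 * ω * (√(kq m * hh μ (diagonal j) x N) + √(uu μ N) / (m + 2))
        + ρ * hh μ (diagonal j) x N)
      ≤ √(uu μ N) * (ρ * ω * n + 2 * ω * (r + s / (m + 2)) + ρ * η) := by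
    gcongr
  have h4 := h1.trans h3
  have e1 : ((m + 2) / 2 - 1) = m / 2 := by ring
  rw [e1] at h4
  have h5 : |∑ b, m1 μ N b * xi μ j x b|
      ≤ 2 / m * (√(uu μ N) * (ρ * ω * n + 2 * ω * (r + s / (m + 2)) + ρ * η)) := by
    rw [div_mul_eq_mul_div, le_div_iff₀ hm]
    linarith
  have h6 := mul_le_mul_of_nonneg_left h5 (by positivity : 0 ≤ 4 / (m + 1))
  refine h6.trans (le_of_eq ?_)
  field_simp
  ring

/-- the third moments of the position on a cell -/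
theorem nX_cell (hm : 0 < m) (j : ι → ℝ) {ρ ω n r s η : ℝ} (hρ : 0 ≤ ρ) (hω : 0 ≤ ω)
    (hj : ∀ a, |j a| ≤ ρ) (hw : ∑ b, (j b ^ 2 - 1) ^ 2 ≤ ω ^ 2)
    (hr : 0 ≤ r) (hr2 : kq m * η ≤ r ^ 2) (hs : √(uu μ N) ≤ s)
    (hη : hh μ (diagonal j) x N ≤ η) (hn0 : 0 < n)
    (hn : (2 * η + 8 / (m * (m + 1)) * s * (ρ * ω)) * n
      + (2 * (kq m * η + s ^ 2 / (m + 2))
        + 8 / (m * (m + 1)) * s * (2 * ω * (r + s / (m + 2)) + ρ * η)) ≤ (m + 2) * n ^ 2) :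
    nX μ x ≤ n := by
  by_contra hlt
  push Not at hlt
  set t := nX μ x with ht
  have hk := kq_nonneg hm.le
  have hu : 0 ≤ √(uu μ N) := Real.sqrt_nonneg _
  have hs0 : 0 ≤ s := hu.trans hs
  have hh0 : 0 ≤ hh μ (diagonal j) x N := h.hh_nonneg _
  have hη0 : 0 ≤ η := hh0.trans hη
  have h1 := h.xi_cell hm j hρ hω hj hw le_rfl hr hr2 hs hη
  have h2 := h.Nxx_le hm.le j
  have h3 : 0 ≤ s3 fun a b c => m3 μ N x x a b c ^ 2 := s3_nonneg fun a b c => sq_nonneg _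
  rw [← ht] at h1 h2
  have h4 : uu μ N ≤ s ^ 2 := by
    have := Real.sq_sqrt h.uu_nonneg
    rw [← this]
    exact pow_le_pow_left₀ hu hs 2
  have hG : 0 ≤ 8 / (m * (m + 1)) := by positivity
  set G := 8 / (m * (m + 1)) with hGd
  have ht0 : 0 < t := hn0.trans hlt
  have h5 : G * (ρ * ω * t + 2 * ω * (r + s / (m + 2)) + ρ * η) * √(uu μ N)
      ≤ G * (ρ * ω * t + 2 * ω * (r + s / (m + 2)) + ρ * η) * s := by
    gcongr
  have h6 : kq m * hh μ (diagonal j) x N ≤ kq m * η := mul_le_mul_of_nonneg_left hη hk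
  have h7 : uu μ N / (m + 2) ≤ s ^ 2 / (m + 2) := by gcongr
  have h8 : 2 * t * hh μ (diagonal j) x N ≤ 2 * t * η := by gcongr
  have h9 : (m + 2) * t ^ 2 ≤ (2 * η + G * s * (ρ * ω)) * t
      + (2 * (kq m * η + s ^ 2 / (m + 2)) + G * s * (2 * ω * (r + s / (m + 2)) + ρ * η)) := by
    linarith
  set B := 2 * η + G * s * (ρ * ω) with hB
  set C := 2 * (kq m * η + s ^ 2 / (m + 2)) + G * s * (2 * ω * (r + s / (m + 2)) + ρ * η) with hC
  have hC0 : 0 ≤ C := by positivity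
  -- `t > n`, `(m+2) n^2 ≥ B n + C`, `(m+2) t^2 ≤ B t + C`
  have q1 : ((m + 2) * n - B) * n ≥ C := by linarith
  have q2 : 0 ≤ (m + 2) * n - B := by
    by_contra hneg
    push Not at hneg
    have : ((m + 2) * n - B) * n < 0 := mul_neg_of_neg_of_pos hneg hn0
    linarith
  have q3 : ((m + 2) * n - B) * n ≤ ((m + 2) * n - B) * t := mul_le_mul_of_nonneg_left hlt.le q2
  have q4 : (m + 2) * n * t < (m + 2) * t * t := by
    have : (m + 2) * n < (m + 2) * t := mul_lt_mul_of_pos_left hlt (by positivity)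
    exact mul_lt_mul_of_pos_right this ht0
  nlinarith

end T0Data

end

end Vale.Agent.P224.R2.H728
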