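import Vale.Agent.P224.R2.H728.Na

/-!
The lower bound of the defect of the law on a cell.
-/

namespace Vale.Agent.P224.R2.H728

open MeasureTheory Set Filter Function Real Finset Matrix Vale.Agent.P224.R2.H582

set_option linter.unusedSectionVars false

/-- the constant of the contraction term -/
noncomputable def Gc (m : ℝ) : ℝ := 8 / (m * (m + 1))

/-- the upper bound of the factor of the third moments -/
noncomputable def Bc (m ρ ω s η : ℝ) : ℝ := 2 * η + Gc m * (ρ * ω) * s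

/-- the coefficient of the defect on a cell -/
noncomputable def cT (m W0 W1 E w pen δ b B : ℝ) : ℝ :=
  (W0 + w) * (2 * (1 - δ) / (m + 2)) - W1 * pen - 2 * E * kq m - b / 2 * B

/-- the coefficient of the norm of the mean normal on a cell -/
noncomputable def Ac (m Γ W1 E ρ ω r s η b B : ℝ) : ℝ :=
  (Γ + 2 * E / (m + 2)) * s + (W1 + E) * Gc m * (2 * ω * (r + s / (m + 2)) + ρ * η)
    + b / 4 * B * (Gc m * (ρ * ω))

section

variable {ι Ω : Type*} [Fintype ι] [DecidableEq ι] [MeasurableSpace Ω] {μ : Measure Ω}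
  {m : ℝ} {x N : ι → Ω → ℝ} {j : ι → ℝ}

/-- the lower bound of the defect of the law -/
noncomputable def XL (μ : Measure Ω) (m : ℝ) (x N : ι → Ω → ℝ) (W0 W1 σ w e τ : ℝ) : ℝ :=
  W0 * Qpt μ m x N + W1 * min (Qpts μ m x N + σ * Qpt μ m x N) 0 + w * Qcs μ x N
    + e * Qcss μ m x N - τ

lemma sq_complete {a b c X : ℝ} (ha : 0 < a) (hb : b ^ 2 ≤ 4 * a * c) :
    0 ≤ a * X ^ 2 - b * X + c := by
  have h1 : 4 * a * (a * X ^ 2 - b * X + c) = (2 * a * X - b) ^ 2 + (4 * a * c - b ^ 2) := by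
    ring
  have h2 : 0 ≤ 4 * a * (a * X ^ 2 - b * X + c) := by
    rw [h1]
    have := sq_nonneg (2 * a * X - b)
    linarith
  by_contra hneg
  push Not at hneg
  have : 4 * a * (a * X ^ 2 - b * X + c) < 0 := mul_neg_of_pos_of_neg (by positivity) hneg
  linarith

namespace T0Data

variable (h : T0Data μ m x N)
include h

/-- the second term of the first square, with the square of the third moments -/
lemma Qcss_ge_sq (hm : 0 ≤ m) (j : ι → ℝ) :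
    (m + 4) ^ 2 / 4 * nX μ x ^ 2 - (2 * (kq m * hh μ (diagonal j) x N + uu μ N / (m + 2))
        + 2 * nX μ x * hh μ (diagonal j) x N
        + 4 / (m + 1) * |∑ b, m1 μ N b * xi μ j x b|) ≤ Qcss μ m x N := by
  have h1 := h.Nxx_le hm j
  have h2 : nX μ x ^ 2 = s3 fun a b c => m3 μ x x x a b c ^ 2 :=
    Real.sq_sqrt (s3_nonneg fun a b c => sq_nonneg _)
  have e : Qcss μ m x N = ((m + 2) ^ 2 / 4 + 1) * (s3 fun a b c => m3 μ x x x a b c ^ 2)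
      - 2 * (s3 fun a b c => m3 μ N x x a b c ^ 2) := rfl
  rw [e, ← h2]
  have e2 : (m + 4) ^ 2 / 4 * nX μ x ^ 2
      = ((m + 2) ^ 2 / 4 + 1) * nX μ x ^ 2 + (m + 2) * nX μ x ^ 2 := by ring
  linarith

/-- the lower bound of the defect of the law on a cell -/
theorem XL_ge (hm : 0 < m) (hL : LSq μ (diagonal j) x N)
    {W0 W1 e γ w σ τ W0L W1U EL E Γ δ ρ ω r s η pen b : ℝ}
    (hW0 : W0L ≤ W0) (hW0L : 0 ≤ W0L) (hW1 : W1 ≤ W1U) (hW1U : 0 ≤ W1U) (hEL : 0 < EL)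
    (heL : EL ≤ e) (he : e ≤ E) (hγ : γ ≤ Γ) (hw : 0 ≤ w) (hσ : 0 ≤ σ) (hδ1 : δ ≤ 1)
    (hb : 4 * (W1U + E) ^ 2 ≤ b * (EL * (m + 4) ^ 2))
    (hδ : √(fro (De μ x N)) ≤ δ) (hρ : 0 ≤ ρ) (hω : 0 ≤ ω)
    (hj : ∀ a, |j a| ≤ ρ) (hwf : ∑ b, (j b ^ 2 - 1) ^ 2 ≤ ω ^ 2)
    (hr : 0 ≤ r) (hr2 : kq m * η ≤ r ^ 2) (hs : √(uu μ N) ≤ s)
    (hη : hh μ (diagonal j) x N ≤ η) (hpen0 : 0 ≤ pen)
    (hpen : 2 * kq m - 2 * σ * (1 - δ) / (m + 2) ≤ pen) (hΓ : 0 ≤ Γ) :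
    cT m W0L W1U E w pen δ b (Bc m ρ ω s η) * hh μ (diagonal j) x N + w * fro (De μ x N)
        - Ac m Γ W1U E ρ ω r s η b (Bc m ρ ω s η) * √(uu μ N) - τ
      ≤ XL μ m x N W0 W1 σ w e τ - γ * uu μ N := by
  have hk := kq_nonneg hm.le
  have hu : 0 ≤ √(uu μ N) := Real.sqrt_nonneg _
  have hs0 : 0 ≤ s := hu.trans hs
  have hh0 : 0 ≤ hh μ (diagonal j) x N := h.hh_nonneg _
  have hu2 : √(uu μ N) ^ 2 = uu μ N := Real.sq_sqrt h.uu_nonneg
  have he0 : 0 < e := hEL.trans_le heL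
  have hE : 0 < E := he0.trans_le he
  have hn0 : 0 ≤ nX μ x := h.nX_nonneg
  have hη0 : 0 ≤ η := hh0.trans hη
  have h1 := h.xi_cell hm j hρ hω hj hwf le_rfl hr hr2 hs hη
  have hG0 : 0 ≤ Gc m := by unfold Gc; positivity
  have hGd : 8 / (m * (m + 1)) = Gc m := rfl
  rw [hGd] at h1
  have h2 := h.Qpt_ge hm.le hL hδ
  have h3 := h.Qpts_ge hm.le j
  have h4 := h.Qcss_ge_sq hm.le j
  have h5 := h.Qcs_eq hm.le
  have h6 := h.Qpt_nonneg hm.le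
  have hu0 := h.uu_nonneg
  set G := Gc m with hG
  set H := hh μ (diagonal j) x N with hH
  set Q := Qpt μ m x N with hQ
  set F := fro (De μ x N) with hF
  set v := √(uu μ N) with hv
  set X := nX μ x with hX
  set Z := 4 / (m + 1) * |∑ b, m1 μ N b * xi μ j x b| with hZ
  set Y := 2 * ω * (r + s / (m + 2)) + ρ * η with hY
  have hY0 : 0 ≤ Y := by rw [hY]; positivity
  have hZ0 : 0 ≤ Z := by rw [hZ]; positivity
  have hZle : Z ≤ G * (ρ * ω) * v * X + G * Y * v := by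
    refine h1.trans (le_of_eq ?_)
    rw [hY]
    ring
  set q := 2 * (1 - δ) / (m + 2) * H with hq
  -- the tangent term
  have p2 : -(pen * H + 2 * X * H + Z) ≤ min (Qpts μ m x N + σ * Q) 0 := by
    have hpH : 0 ≤ pen * H := mul_nonneg hpen0 hh0
    have hXH : 0 ≤ 2 * X * H := by positivity
    refine le_min ?_ (by linarith)
    have k1 : σ * q ≤ σ * Q := mul_le_mul_of_nonneg_left h2 hσ
    have k2 : (2 * kq m - 2 * σ * (1 - δ) / (m + 2)) * H ≤ pen * H :=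
      mul_le_mul_of_nonneg_right hpen hh0
    have k3 : σ * q = 2 * σ * (1 - δ) / (m + 2) * H := by rw [hq]; ring
    rw [sub_mul, ← k3] at k2
    linarith
  have p3 : W1U * (-(pen * H + 2 * X * H + Z)) ≤ W1 * min (Qpts μ m x N + σ * Q) 0 := by
    have k1 := mul_le_mul_of_nonneg_left p2 hW1U
    have k2 : W1U * min (Qpts μ m x N + σ * Q) 0 ≤ W1 * min (Qpts μ m x N + σ * Q) 0 :=
      mul_le_mul_of_nonpos_right hW1 (min_le_right _ _)
    linarith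
  -- the second term of the first square
  have p4 : EL * ((m + 4) ^ 2 / 4 * X ^ 2)
      - E * (2 * (kq m * H + uu μ N / (m + 2)) + 2 * X * H + Z) ≤ e * Qcss μ m x N := by
    set R := 2 * (kq m * H + uu μ N / (m + 2)) + 2 * X * H + Z with hR
    have hR0 : 0 ≤ R := by rw [hR]; positivity
    have k2 := mul_le_mul_of_nonneg_left h4 he0.le
    have k3 : e * R ≤ E * R := mul_le_mul_of_nonneg_right he hR0
    have k4 : EL * ((m + 4) ^ 2 / 4 * X ^ 2) ≤ e * ((m + 4) ^ 2 / 4 * X ^ 2) :=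
      mul_le_mul_of_nonneg_right heL (by positivity)
    rw [mul_sub] at k2
    linarith
  have p5 : W0L * q ≤ W0 * Q := by
    refine mul_le_mul hW0 h2 ?_ (hW0L.trans hW0)
    rw [hq]
    have : 0 ≤ 1 - δ := by linarith
    positivity
  have p6 : w * F + w * q ≤ w * Qcs μ x N := by
    rw [h5, mul_add]
    have := mul_le_mul_of_nonneg_left h2 hw
    linarith
  have p7 : γ * uu μ N ≤ Γ * uu μ N := mul_le_mul_of_nonneg_right hγ hu0
  have p8 : (Γ + 2 * E / (m + 2)) * uu μ N ≤ (Γ + 2 * E / (m + 2)) * s * v := by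
    rw [mul_assoc, ← hu2, sq]
    gcongr
  -- the completed square
  set t := 2 * H + G * (ρ * ω) * v with ht
  have ht0 : 0 ≤ t := by rw [ht]; positivity
  set B := Bc m ρ ω s η with hB
  have hBe : B = 2 * η + G * (ρ * ω) * s := rfl
  have htB : t ≤ B := by
    rw [ht, hBe]
    gcongr
  have hb0 : 0 ≤ b := by
    by_contra hneg
    push Not at hneg
    have k1 : b * (EL * (m + 4) ^ 2) < 0 := mul_neg_of_neg_of_pos hneg (by positivity)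
    have k2 : 0 ≤ 4 * (W1U + E) ^ 2 := by positivity
    linarith
  have p9 : 0 ≤ EL * ((m + 4) ^ 2 / 4) * X ^ 2 - ((W1U + E) * t) * X + b / 4 * t ^ 2 := by
    refine sq_complete (by positivity) ?_
    have k1 : 4 * (EL * ((m + 4) ^ 2 / 4)) * (b / 4 * t ^ 2)
        = t ^ 2 / 4 * (b * (EL * (m + 4) ^ 2)) := by ring
    rw [k1]
    have k2 := mul_le_mul_of_nonneg_left hb (by positivity : 0 ≤ t ^ 2 / 4)
    refine le_trans (le_of_eq ?_) k2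
    ring
  have p10 : b / 4 * t ^ 2 ≤ b / 4 * B * t := by
    rw [sq, ← mul_assoc]
    have : b / 4 * t ≤ b / 4 * B := mul_le_mul_of_nonneg_left htB (by positivity)
    exact mul_le_mul_of_nonneg_right this ht0
  have p11 : (W1U + E) * Z ≤ (W1U + E) * (G * (ρ * ω) * v * X + G * Y * v) :=
    mul_le_mul_of_nonneg_left hZle (by positivity)
  have e1 : cT m W0L W1U E w pen δ b B * H = W0L * q + w * q - W1U * (pen * H)
      - 2 * E * kq m * H - b / 2 * B * H := by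
    rw [hq]
    unfold cT
    ring
  have e2 : Ac m Γ W1U E ρ ω r s η b B * v = (Γ + 2 * E / (m + 2)) * s * v
      + (W1U + E) * (G * Y * v) + b / 4 * B * (G * (ρ * ω) * v) := by
    rw [hY, hG]
    unfold Ac
    ring
  have e3 : b / 4 * B * t = b / 2 * B * H + b / 4 * B * (G * (ρ * ω) * v) := by
    rw [ht]
    ring
  have e4 : (W1U + E) * t * X = W1U * (2 * X * H) + E * (2 * X * H)
      + (W1U + E) * (G * (ρ * ω) * v * X) := by
    rw [ht]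
    ring
  have e5 : (Γ + 2 * E / (m + 2)) * uu μ N = Γ * uu μ N + 2 * E * (uu μ N / (m + 2)) := by ring
  rw [e1, e2]
  rw [e5] at p8
  rw [e4] at p9
  rw [e3] at p10
  rw [mul_add (W1U + E) (G * (ρ * ω) * v * X) (G * Y * v), add_mul W1U E Z] at p11
  unfold XL
  have e6 : E * (2 * (kq m * H + uu μ N / (m + 2)) + 2 * X * H + Z)
      = 2 * E * kq m * H + 2 * E * (uu μ N / (m + 2)) + E * (2 * X * H) + E * Z := by ring
  have e7 : W1U * (-(pen * H + 2 * X * H + Z))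
      = -(W1U * (pen * H)) - W1U * (2 * X * H) - W1U * Z := by ring
  rw [e6] at p4
  rw [e7] at p3
  have e8 : EL * ((m + 4) ^ 2 / 4) * X ^ 2 = EL * ((m + 4) ^ 2 / 4 * X ^ 2) := by ring
  rw [e8] at p9
  linarith

/-- the cell of the first kind: the mean normal law closes -/
theorem cell_one (hm : 0 < m) (hL : LSq μ (diagonal j) x N)
    {W0 W1 e γ w σ τ W0L W1U EL E Γ δ ρ ω r s η pen b rel da ha K L gp : ℝ}
    (hW0 : W0L ≤ W0) (hW0L : 0 ≤ W0L) (hW1 : W1 ≤ W1U) (hW1U : 0 ≤ W1U) (hEL : 0 < EL)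
    (heL : EL ≤ e) (he : e ≤ E) (hγ : γ ≤ Γ) (hw : 0 ≤ w) (hσ : 0 ≤ σ) (hδ1 : δ ≤ 1)
    (hb : 4 * (W1U + E) ^ 2 ≤ b * (EL * (m + 4) ^ 2)) (hb0 : 0 ≤ b)
    (hδ : √(fro (De μ x N)) ≤ δ) (hρ : 0 ≤ ρ) (hω : 0 ≤ ω)
    (hj : ∀ a, |j a| ≤ ρ) (hwf : ∑ b, (j b ^ 2 - 1) ^ 2 ≤ ω ^ 2)
    (hr : 0 ≤ r) (hr2 : kq m * η ≤ r ^ 2) (hs : √(uu μ N) ≤ s)
    (hη : hh μ (diagonal j) x N ≤ η) (hpen0 : 0 ≤ pen)
    (hpen : 2 * kq m - 2 * σ * (1 - δ) / (m + 2) ≤ pen) (hΓ : 0 ≤ Γ)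
    (hτ : τ ≤ rel * hh μ (diagonal j) x N) (hda : da ^ 2 ≤ fro (De μ x N))
    (hha : ha ≤ hh μ (diagonal j) x N) (hL0 : 0 < L)
    (hKL : L * √(uu μ N) ≤ K * hh μ (diagonal j) x N)
    (hc1 : (Ac m Γ W1U E ρ ω r s η b (Bc m ρ ω s η) * K
      + (rel - cT m W0L W1U E w pen δ b (Bc m ρ ω s η)) * L) * ha + gp * L ≤ w * da ^ 2 * L)
    (hc2 : (Ac m Γ W1U E ρ ω r s η b (Bc m ρ ω s η) * K
      + (rel - cT m W0L W1U E w pen δ b (Bc m ρ ω s η)) * L) * η + gp * L ≤ w * da ^ 2 * L) :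
    γ * uu μ N + gp ≤ XL μ m x N W0 W1 σ w e τ := by
  have h1 := h.XL_ge hm hL (τ := τ) hW0 hW0L hW1 hW1U hEL heL he hγ hw hσ hδ1 hb hδ hρ hω hj hwf
    hr hr2 hs hη hpen0 hpen hΓ
  have hu : 0 ≤ √(uu μ N) := Real.sqrt_nonneg _
  have hs0 : 0 ≤ s := hu.trans hs
  have hh0 : 0 ≤ hh μ (diagonal j) x N := h.hh_nonneg _
  have hE : 0 ≤ E := (hEL.trans_le (heL.trans he)).le
  have hη0 : 0 ≤ η := hh0.trans hη
  have hG0 : 0 ≤ Gc m := by unfold Gc; positivity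
  have hB0 : 0 ≤ Bc m ρ ω s η := by unfold Bc; positivity
  have hA0 : 0 ≤ Ac m Γ W1U E ρ ω r s η b (Bc m ρ ω s η) := by
    unfold Ac
    positivity
  set A := Ac m Γ W1U E ρ ω r s η b (Bc m ρ ω s η) with hA
  set c := cT m W0L W1U E w pen δ b (Bc m ρ ω s η) with hcd
  set H := hh μ (diagonal j) x N with hH
  set v := √(uu μ N) with hv
  have h2 : A * (L * v) ≤ A * (K * H) := mul_le_mul_of_nonneg_left hKL hA0
  have h3 : w * da ^ 2 ≤ w * fro (De μ x N) := mul_le_mul_of_nonneg_left hda hw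
  have h4 : (A * K + (rel - c) * L) * H + gp * L ≤ w * da ^ 2 * L := by
    rcases le_total 0 (A * K + (rel - c) * L) with h5 | h5
    · have := mul_le_mul_of_nonneg_left hη h5
      linarith
    · have := mul_le_mul_of_nonpos_left hha h5
      linarith
  have h5 : 0 ≤ L * (c * H + w * da ^ 2 - A * v - rel * H - gp) := by nlinarith
  have h6 : 0 ≤ c * H + w * da ^ 2 - A * v - rel * H - gp := by
    by_contra hneg
    push Not at hneg
    have := mul_neg_of_pos_of_neg hL0 hneg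
    linarith
  linarith

/-- the cell of the second kind: the mean normal is only bounded -/
theorem cell_two (hm : 0 < m) (hL : LSq μ (diagonal j) x N)
    {W0 W1 e γ w σ τ W0L W1U EL E Γ δ ρ ω r s η pen b ab da ha gp : ℝ}
    (hW0 : W0L ≤ W0) (hW0L : 0 ≤ W0L) (hW1 : W1 ≤ W1U) (hW1U : 0 ≤ W1U) (hEL : 0 < EL)
    (heL : EL ≤ e) (he : e ≤ E) (hγ : γ ≤ Γ) (hw : 0 ≤ w) (hσ : 0 ≤ σ) (hδ1 : δ ≤ 1)
    (hb : 4 * (W1U + E) ^ 2 ≤ b * (EL * (m + 4) ^ 2)) (hb0 : 0 ≤ b)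
    (hδ : √(fro (De μ x N)) ≤ δ) (hρ : 0 ≤ ρ) (hω : 0 ≤ ω)
    (hj : ∀ a, |j a| ≤ ρ) (hwf : ∑ b, (j b ^ 2 - 1) ^ 2 ≤ ω ^ 2)
    (hr : 0 ≤ r) (hr2 : kq m * η ≤ r ^ 2) (hs : √(uu μ N) ≤ s)
    (hη : hh μ (diagonal j) x N ≤ η) (hpen0 : 0 ≤ pen)
    (hpen : 2 * kq m - 2 * σ * (1 - δ) / (m + 2) ≤ pen) (hΓ : 0 ≤ Γ)
    (hτ : τ ≤ ab) (hda : da ^ 2 ≤ fro (De μ x N)) (hha : ha ≤ hh μ (diagonal j) x N)
    (hc0 : 0 ≤ cT m W0L W1U E w pen δ b (Bc m ρ ω s η))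
    (hc : Ac m Γ W1U E ρ ω r s η b (Bc m ρ ω s η) * s + ab + gp
      ≤ cT m W0L W1U E w pen δ b (Bc m ρ ω s η) * ha + w * da ^ 2) :
    γ * uu μ N + gp ≤ XL μ m x N W0 W1 σ w e τ := by
  have h1 := h.XL_ge hm hL (τ := τ) hW0 hW0L hW1 hW1U hEL heL he hγ hw hσ hδ1 hb hδ hρ hω hj hwf
    hr hr2 hs hη hpen0 hpen hΓ
  have hu : 0 ≤ √(uu μ N) := Real.sqrt_nonneg _
  have hs0 : 0 ≤ s := hu.trans hs
  have hh0 : 0 ≤ hh μ (diagonal j) x N := h.hh_nonneg _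
  have hE : 0 ≤ E := (hEL.trans_le (heL.trans he)).le
  have hη0 : 0 ≤ η := hh0.trans hη
  have hG0 : 0 ≤ Gc m := by unfold Gc; positivity
  have hB0 : 0 ≤ Bc m ρ ω s η := by unfold Bc; positivity
  have hA0 : 0 ≤ Ac m Γ W1U E ρ ω r s η b (Bc m ρ ω s η) := by
    unfold Ac
    positivity
  set A := Ac m Γ W1U E ρ ω r s η b (Bc m ρ ω s η) with hA
  set c := cT m W0L W1U E w pen δ b (Bc m ρ ω s η) with hcd
  have h2 : A * √(uu μ N) ≤ A * s := mul_le_mul_of_nonneg_left hs hA0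
  have h3 : w * da ^ 2 ≤ w * fro (De μ x N) := mul_le_mul_of_nonneg_left hda hw
  have h4 : c * ha ≤ c * hh μ (diagonal j) x N := mul_le_mul_of_nonneg_left hha hc0
  linarith

/-- the cell of the second kind with the relative bound of the tail -/
theorem cell_three (hm : 0 < m) (hL : LSq μ (diagonal j) x N)
    {W0 W1 e γ w σ τ W0L W1U EL E Γ δ ρ ω r s η pen b rel da ha gp : ℝ}
    (hW0 : W0L ≤ W0) (hW0L : 0 ≤ W0L) (hW1 : W1 ≤ W1U) (hW1U : 0 ≤ W1U) (hEL : 0 < EL)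
    (heL : EL ≤ e) (he : e ≤ E) (hγ : γ ≤ Γ) (hw : 0 ≤ w) (hσ : 0 ≤ σ) (hδ1 : δ ≤ 1)
    (hb : 4 * (W1U + E) ^ 2 ≤ b * (EL * (m + 4) ^ 2)) (hb0 : 0 ≤ b)
    (hδ : √(fro (De μ x N)) ≤ δ) (hρ : 0 ≤ ρ) (hω : 0 ≤ ω)
    (hj : ∀ a, |j a| ≤ ρ) (hwf : ∑ b, (j b ^ 2 - 1) ^ 2 ≤ ω ^ 2)
    (hr : 0 ≤ r) (hr2 : kq m * η ≤ r ^ 2) (hs : √(uu μ N) ≤ s)
    (hη : hh μ (diagonal j) x N ≤ η) (hpen0 : 0 ≤ pen)
    (hpen : 2 * kq m - 2 * σ * (1 - δ) / (m + 2) ≤ pen) (hΓ : 0 ≤ Γ)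
    (hτ : τ ≤ rel * hh μ (diagonal j) x N) (hda : da ^ 2 ≤ fro (De μ x N))
    (hha : ha ≤ hh μ (diagonal j) x N)
    (hc0 : 0 ≤ cT m W0L W1U E w pen δ b (Bc m ρ ω s η) - rel)
    (hc : Ac m Γ W1U E ρ ω r s η b (Bc m ρ ω s η) * s + gp
      ≤ (cT m W0L W1U E w pen δ b (Bc m ρ ω s η) - rel) * ha + w * da ^ 2) :
    γ * uu μ N + gp ≤ XL μ m x N W0 W1 σ w e τ := by
  have h1 := h.XL_ge hm hL (τ := τ) hW0 hW0L hW1 hW1U hEL heL he hγ hw hσ hδ1 hb hδ hρ hω hj hwf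
    hr hr2 hs hη hpen0 hpen hΓ
  have hu : 0 ≤ √(uu μ N) := Real.sqrt_nonneg _
  have hs0 : 0 ≤ s := hu.trans hs
  have hh0 : 0 ≤ hh μ (diagonal j) x N := h.hh_nonneg _
  have hE : 0 ≤ E := (hEL.trans_le (heL.trans he)).le
  have hη0 : 0 ≤ η := hh0.trans hη
  have hG0 : 0 ≤ Gc m := by unfold Gc; positivity
  have hB0 : 0 ≤ Bc m ρ ω s η := by unfold Bc; positivity
  have hA0 : 0 ≤ Ac m Γ W1U E ρ ω r s η b (Bc m ρ ω s η) := by
    unfold Ac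
    positivity
  set A := Ac m Γ W1U E ρ ω r s η b (Bc m ρ ω s η) with hA
  set c := cT m W0L W1U E w pen δ b (Bc m ρ ω s η) with hcd
  have h2 : A * √(uu μ N) ≤ A * s := mul_le_mul_of_nonneg_left hs hA0
  have h3 : w * da ^ 2 ≤ w * fro (De μ x N) := mul_le_mul_of_nonneg_left hda hw
  have h4 := mul_le_mul_of_nonneg_left hha hc0
  linarith

end T0Data

end

end Vale.Agent.P224.R2.H728
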