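import Vale.Agent.P224.R2.H728.Nb

/-!
A rational checker for the near law: the box of the deviation and of the defect is covered by
cells, and in every cell one instance of the law closes.
-/

namespace Vale.Agent.P224.R2.H728

open MeasureTheory Set Filter Function Real Finset Matrix Vale.Agent.P224.R2.H582

set_option linter.unusedSectionVars false

/-- an instance of the law: lower bound of the first weight, upper bound of the second one, base
point, constant of the square, relative and absolute bounds of the tail, and the box of the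
deviation and of the defect where these bounds hold -/
structure LawQ where
  W0 : ℚ
  W1 : ℚ
  σ : ℚ
  b : ℚ
  rel : ℚ
  ab : ℚ
  d : ℚ
  h : ℚ

/-- a bound of the mean normal by the defect on a box -/
structure ElQ where
  d : ℚ
  h : ℚ
  K : ℚ
  L : ℚ

/-- a cell: upper end in the defect, bound of the weights, root, bound of the mean normal, index
of the law, index of the bound of the mean normal, kind -/
structure CellQ where
  hb : ℚ
  ρ : ℚ
  r : ℚ
  s : ℚ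
  i : ℕ
  k : ℕ
  kd : Bool

/-- a column: upper end in the deviation and cells -/
structure ColQ where
  db : ℚ
  cs : List CellQ

/-- the parameters -/
structure ParQ where
  m : ℚ
  EL : ℚ
  E : ℚ
  Γ : ℚ
  ν : ℚ
  gp : ℚ
  WU : ℚ
  tU : ℚ
  tV : ℚ
  d0 : ℚ
  h0 : ℚ
  d1 : ℚ
  h1 : ℚ

/-- the weight of the first square -/
def wQ (m : ℚ) : ℚ := m / ((m + 2) * (m + 4))

def kqQ (m : ℚ) : ℚ := 16 / ((m + 1) * (7 * m + 23))

def GcQ (m : ℚ) : ℚ := 8 / (m * (m + 1))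

def BcQ (m ρ ω s η : ℚ) : ℚ := 2 * η + GcQ m * (ρ * ω) * s

def cTQ (m W0 W1 E w pen δ b B : ℚ) : ℚ :=
  (W0 + w) * (2 * (1 - δ) / (m + 2)) - W1 * pen - 2 * E * kqQ m - b / 2 * B

def AcQ (m Γ W1 E ρ ω r s η b B : ℚ) : ℚ :=
  (Γ + 2 * E / (m + 2)) * s + (W1 + E) * GcQ m * (2 * ω * (r + s / (m + 2)) + ρ * η)
    + b / 4 * B * (GcQ m * (ρ * ω))

def penQ (m σ δ : ℚ) : ℚ :=
  if 0 ≤ 2 * kqQ m - 2 * σ * (1 - δ) / (m + 2) then 2 * kqQ m - 2 * σ * (1 - δ) / (m + 2) else 0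

/-- the conditions on an instance of the law -/
def lawOK (p : ParQ) (q : LawQ) : Bool :=
  decide (0 ≤ q.W0) && decide (0 ≤ q.W1) && decide (0 ≤ q.σ) && decide (0 ≤ q.b)
    && decide (4 * (q.W1 + p.E) ^ 2 ≤ q.b * (p.EL * (p.m + 4) ^ 2))

/-- the two inequalities of a cell of the first kind -/
def oneOK (p : ParQ) (q : LawQ) (f : ElQ) (da db ha : ℚ) (c : CellQ) (ω : ℚ) : Bool :=
  let B := BcQ p.m c.ρ ω c.s c.hb
  let A := AcQ p.m p.Γ q.W1 p.E c.ρ ω c.r c.s c.hb q.b B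
  let t := cTQ p.m q.W0 q.W1 p.E (wQ p.m) (penQ p.m q.σ db) db q.b B
  decide (db ≤ f.d) && decide (c.hb ≤ f.h) && decide (0 < f.L)
    && (decide (p.ν ≤ c.s) || decide (f.K * c.hb ≤ f.L * c.s)) && decide (0 ≤ f.K)
    && decide ((A * f.K + (q.rel - t) * f.L) * ha + p.gp * f.L ≤ wQ p.m * da ^ 2 * f.L)
    && decide ((A * f.K + (q.rel - t) * f.L) * c.hb + p.gp * f.L ≤ wQ p.m * da ^ 2 * f.L)

/-- the inequality of a cell of the second kind -/
def twoOK (p : ParQ) (q : LawQ) (da db ha : ℚ) (c : CellQ) (ω : ℚ) : Bool :=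
  let B := BcQ p.m c.ρ ω c.s c.hb
  let A := AcQ p.m p.Γ q.W1 p.E c.ρ ω c.r c.s c.hb q.b B
  let t := cTQ p.m q.W0 q.W1 p.E (wQ p.m) (penQ p.m q.σ db) db q.b B
  decide (p.ν ≤ c.s)
    && ((decide (0 ≤ t) && decide (A * c.s + q.ab + p.gp ≤ t * ha + wQ p.m * da ^ 2))
      || (decide (0 ≤ t - q.rel)
        && decide (A * c.s + p.gp ≤ (t - q.rel) * ha + wQ p.m * da ^ 2)))

/-- the conditions on a cell -/
def cellOK (p : ParQ) (laws : List LawQ) (els : List ElQ) (da db ha : ℚ) (c : CellQ) : Bool :=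
  decide (0 ≤ c.ρ) && decide (1 + (p.m + 2) * (db / (1 - db)) ≤ c.ρ ^ 2) && decide (0 ≤ c.r)
    && decide (kqQ p.m * c.hb ≤ c.r ^ 2)
    && (match laws[c.i]? with
      | none => false
      | some q => lawOK p q && decide (db ≤ q.d) && decide (c.hb ≤ q.h) &&
        (if c.kd then
          (match els[c.k]? with
          | none => false
          | some f => oneOK p q f da db ha c ((p.m + 2) * ((db + c.hb) / (1 - db))))
        else twoOK p q da db ha c ((p.m + 2) * ((db + c.hb) / (1 - db)))))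

/-- the cells of a column -/
def cellsOK (p : ParQ) (laws : List LawQ) (els : List ElQ) (da db : ℚ) : ℚ → List CellQ → Bool
  | ha, [] => decide (p.h0 < ha * (1 - db))
  | ha, c :: cs => cellOK p laws els da db ha c && cellsOK p laws els da db c.hb cs

/-- the columns -/
def colsOK (p : ParQ) (laws : List LawQ) (els : List ElQ) : ℚ → List ColQ → Bool
  | da, [] => decide (p.d0 < da)
  | da, c :: cs => decide (c.db < 1) && decide (da ≤ c.db)
    && cellsOK p laws els da c.db (if c.db ≤ p.d1 then p.h1 else 0) c.cs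
    && colsOK p laws els c.db cs

/-- the checker -/
def nearOK (p : ParQ) (laws : List LawQ) (els : List ElQ) (cols : List ColQ) : Bool :=
  decide (0 < p.m) && decide (0 < p.EL) && decide (p.EL ≤ p.E) && decide (0 ≤ p.Γ)
    && decide (0 ≤ p.ν) && decide (0 < p.WU) && decide (0 ≤ p.d0) && decide (p.d0 < 1)
    && decide (p.Γ * p.ν ^ 2 + p.tV + p.gp + 2 * p.E * (kqQ p.m + p.ν ^ 2 / (p.m + 2))
      ≤ wQ p.m * p.d0 ^ 2)
    && decide ((p.Γ * p.ν ^ 2 + p.tU + p.gp) * (p.m + 2) ≤ 2 * p.WU * p.h0)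
    && colsOK p laws els 0 cols

section

variable {ι Ω : Type*} [Fintype ι] [DecidableEq ι] [MeasurableSpace Ω] {μ : Measure Ω}
  {m : ℝ} {x N : ι → Ω → ℝ} {j : ι → ℝ}

lemma kq_cast (m : ℚ) : ((kqQ m : ℚ) : ℝ) = kq m := by unfold kqQ kq; push_cast; ring
lemma Gc_cast (m : ℚ) : ((GcQ m : ℚ) : ℝ) = Gc m := by unfold GcQ Gc; push_cast; ring
lemma Bc_cast (m ρ ω s η : ℚ) : ((BcQ m ρ ω s η : ℚ) : ℝ) = Bc m ρ ω s η := by
  unfold BcQ Bc; push_cast; rw [Gc_cast]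
lemma cT_cast (m W0 W1 E w pen δ b B : ℚ) : ((cTQ m W0 W1 E w pen δ b B : ℚ) : ℝ)
    = cT m W0 W1 E w pen δ b B := by
  unfold cTQ cT; push_cast; rw [kq_cast]
lemma Ac_cast (m Γ W1 E ρ ω r s η b B : ℚ) : ((AcQ m Γ W1 E ρ ω r s η b B : ℚ) : ℝ)
    = Ac m Γ W1 E ρ ω r s η b B := by
  unfold AcQ Ac; push_cast; rw [Gc_cast]

lemma penQ_nonneg (m σ δ : ℚ) : 0 ≤ penQ m σ δ := by
  unfold penQ
  split_ifs with h
  · exact h
  · exact le_rfl

lemma le_penQ (m σ δ : ℚ) : 2 * kqQ m - 2 * σ * (1 - δ) / (m + 2) ≤ penQ m σ δ := by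
  unfold penQ
  split_ifs with h
  · exact le_rfl
  · push Not at h
    exact h.le

/-- the hypotheses on the data common to all cells -/
structure NearHyp (μ : Measure Ω) (p : ParQ) (laws : List LawQ) (els : List ElQ) (x N : ι → Ω → ℝ)
    (j : ι → ℝ) (γ e : ℝ) : Prop where
  dat : T0Data μ (p.m : ℝ) x N
  lsq : LSq μ (diagonal j) x N
  hγ : γ ≤ p.Γ
  heL : (p.EL : ℝ) ≤ e
  he : e ≤ p.E
  hν : √(uu μ N) ≤ p.ν
  hlaw : ∀ q ∈ laws, √(fro (De μ x N)) ≤ q.d → hh μ (diagonal j) x N ≤ q.h →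
    ∃ W0 W1 τ : ℝ, (q.W0 : ℝ) ≤ W0 ∧ W1 ≤ q.W1
    ∧ τ ≤ q.rel * hh μ (diagonal j) x N ∧ τ ≤ q.ab
    ∧ XL μ p.m x N W0 W1 q.σ (wQ p.m : ℚ) e τ < γ * uu μ N + p.gp
  hel : ∀ f ∈ els, √(fro (De μ x N)) ≤ f.d → hh μ (diagonal j) x N ≤ f.h →
    f.L * √(uu μ N) ≤ f.K * hh μ (diagonal j) x N

/-- soundness of a cell -/
theorem cell_sound {p : ParQ} {laws : List LawQ} {els : List ElQ} {γ e : ℝ}
    (H : NearHyp μ p laws els x N j γ e) (hm : 0 < p.m) (hEL : 0 < p.EL) (hΓ : 0 ≤ p.Γ)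
    {da db ha : ℚ} (hda0 : 0 ≤ da) (hda : (da : ℝ) ≤ √(fro (De μ x N)))
    (hdb : √(fro (De μ x N)) ≤ db) (hdb1 : db < 1) (c : CellQ)
    (hha : (ha : ℝ) ≤ hh μ (diagonal j) x N) (hhb : hh μ (diagonal j) x N ≤ c.hb)
    (hc : cellOK p laws els da db ha c = true) : False := by
  have h := H.dat
  have hL := H.lsq
  have hmR : (0 : ℝ) < p.m := by exact_mod_cast hm
  have hELR : (0 : ℝ) < p.EL := by exact_mod_cast hEL
  have hΓR : (0 : ℝ) ≤ p.Γ := by exact_mod_cast hΓ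
  have hdb0 : (0 : ℝ) ≤ db := (Real.sqrt_nonneg _).trans hdb
  have hdb1R : (db : ℝ) < 1 := by exact_mod_cast hdb1
  have hf0 : 0 ≤ fro (De μ x N) := fro_nonneg _
  have hfb : fro (De μ x N) ≤ (db : ℝ) ^ 2 := by
    rw [← Real.sq_sqrt hf0]
    exact pow_le_pow_left₀ (Real.sqrt_nonneg _) hdb 2
  have hda0R : (0 : ℝ) ≤ da := by exact_mod_cast hda0
  have hfa : (da : ℝ) ^ 2 ≤ fro (De μ x N) := by
    rw [← Real.sq_sqrt hf0]
    exact pow_le_pow_left₀ hda0R hda 2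
  have hH0 : 0 ≤ hh μ (diagonal j) x N := h.hh_nonneg _
  have hhb0 : (0 : ℝ) ≤ c.hb := hH0.trans hhb
  unfold cellOK at hc
  simp only [Bool.and_eq_true, decide_eq_true_eq] at hc
  obtain ⟨⟨⟨⟨hρ, hρ2⟩, hr⟩, hr2⟩, hc⟩ := hc
  have hρR : (0 : ℝ) ≤ c.ρ := by exact_mod_cast hρ
  have hrR : (0 : ℝ) ≤ c.r := by exact_mod_cast hr
  have hρ2R : 1 + ((p.m : ℝ) + 2) * ((db : ℝ) / (1 - db)) ≤ (c.ρ : ℝ) ^ 2 := by
    exact_mod_cast hρ2
  have hr2R : kq p.m * (c.hb : ℝ) ≤ (c.r : ℝ) ^ 2 := by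
    rw [← kq_cast]
    exact_mod_cast hr2
  have h1db : (0 : ℝ) < 1 - db := by linarith
  -- the weights
  have hj : ∀ a, |j a| ≤ (c.ρ : ℝ) := by
    intro a
    have k1 := h.w_le hmR.le hL hdb0 hdb1R hfb a
    exact abs_le_of_sq_le_sq (by linarith) hρR
  set ωq : ℚ := (p.m + 2) * ((db + c.hb) / (1 - db)) with hωq
  have hωc : ((ωq : ℚ) : ℝ) = ((p.m : ℝ) + 2) * (((db : ℝ) + c.hb) / (1 - db)) := by
    rw [hωq]
    push_cast
    ring
  have hω0 : (0 : ℝ) ≤ (ωq : ℝ) := by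
    rw [hωc]
    positivity
  have hwf : ∑ b, (j b ^ 2 - 1) ^ 2 ≤ (ωq : ℝ) ^ 2 := by
    refine (h.w_fro hmR.le hL hdb0 hdb1R hfb).trans ?_
    rw [hωc]
    refine pow_le_pow_left₀ (by positivity) ?_ 2
    gcongr
  cases hq : laws[c.i]? with
  | none => rw [hq] at hc; simp at hc
  | some q =>
    rw [hq] at hc
    simp only [Bool.and_eq_true, decide_eq_true_eq] at hc
    obtain ⟨⟨⟨hlq, hqd⟩, hqh⟩, hc⟩ := hc
    have hmem : q ∈ laws := List.mem_of_getElem? hq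
    have hqdR : (db : ℝ) ≤ q.d := by exact_mod_cast hqd
    have hqhR : (c.hb : ℝ) ≤ q.h := by exact_mod_cast hqh
    obtain ⟨W0, W1, τ, hW0, hW1, hτ1, hτ2, hlt⟩ :=
      H.hlaw q hmem (hdb.trans hqdR) (hhb.trans hqhR)
    unfold lawOK at hlq
    simp only [Bool.and_eq_true, decide_eq_true_eq] at hlq
    obtain ⟨⟨⟨⟨l1, l2⟩, l3⟩, l4⟩, l5⟩ := hlq
    have l1R : (0 : ℝ) ≤ q.W0 := by exact_mod_cast l1
    have l2R : (0 : ℝ) ≤ q.W1 := by exact_mod_cast l2
    have l3R : (0 : ℝ) ≤ q.σ := by exact_mod_cast l3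
    have l4R : (0 : ℝ) ≤ q.b := by exact_mod_cast l4
    have l5R : 4 * ((q.W1 : ℝ) + p.E) ^ 2 ≤ q.b * (p.EL * (p.m + 4) ^ 2) := by
      exact_mod_cast l5
    have hw0 : (0 : ℝ) ≤ (wQ p.m : ℚ) := by
      have : 0 ≤ wQ p.m := by unfold wQ; positivity
      exact_mod_cast this
    have hpen0 : (0 : ℝ) ≤ (penQ p.m q.σ db : ℚ) := by
      exact_mod_cast penQ_nonneg p.m q.σ db
    have hpen : 2 * kq p.m - 2 * (q.σ : ℝ) * (1 - db) / (p.m + 2) ≤ (penQ p.m q.σ db : ℚ) := by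
      rw [← kq_cast]
      exact_mod_cast le_penQ p.m q.σ db
    by_cases hkd : c.kd = true
    · rw [if_pos hkd] at hc
      cases hf : els[c.k]? with
      | none => rw [hf] at hc; simp at hc
      | some f =>
        rw [hf] at hc
        have hfm : f ∈ els := List.mem_of_getElem? hf
        simp only [oneOK, Bool.and_eq_true, Bool.or_eq_true, decide_eq_true_eq] at hc
        obtain ⟨⟨⟨⟨⟨⟨c1, c2⟩, c3⟩, c4⟩, c5⟩, c6⟩, c7⟩ := hc
        have c1R : (db : ℝ) ≤ f.d := by exact_mod_cast c1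
        have c2R : (c.hb : ℝ) ≤ f.h := by exact_mod_cast c2
        have c3R : (0 : ℝ) < f.L := by exact_mod_cast c3
        have c5R : (0 : ℝ) ≤ f.K := by exact_mod_cast c5
        have hKL := H.hel f hfm (hdb.trans c1R) (hhb.trans c2R)
        have hs : √(uu μ N) ≤ c.s := by
          rcases c4 with c4 | c4
          · have c4R : (p.ν : ℝ) ≤ c.s := by exact_mod_cast c4
            exact H.hν.trans c4R
          · have c4R : (f.K : ℝ) * c.hb ≤ f.L * c.s := by exact_mod_cast c4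
            have k1 : (f.K : ℝ) * hh μ (diagonal j) x N ≤ f.K * c.hb :=
              mul_le_mul_of_nonneg_left hhb c5R
            exact le_of_mul_le_mul_left (hKL.trans (k1.trans c4R)) c3R
        have k6 := (Rat.cast_le (K := ℝ)).2 c6
        have k7 := (Rat.cast_le (K := ℝ)).2 c7
        push_cast at k6 k7
        rw [Ac_cast, cT_cast, Bc_cast] at k6 k7
        have := h.cell_one hmR hL (γ := γ) (gp := p.gp) (τ := τ) (K := f.K) (L := f.L)
          hW0 l1R hW1 l2R hELR H.heL H.he H.hγ hw0 l3R hdb1R.le l5R l4R hdb hρR hω0 hj hwf hrR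
          hr2R hs hhb hpen0 hpen hΓR hτ1 hfa hha c3R hKL k6 k7
        linarith
    · rw [if_neg hkd] at hc
      simp only [twoOK, Bool.and_eq_true, Bool.or_eq_true, decide_eq_true_eq] at hc
      obtain ⟨c1, c2⟩ := hc
      have c1R : (p.ν : ℝ) ≤ c.s := by exact_mod_cast c1
      rcases c2 with ⟨c2, c3⟩ | ⟨c2, c3⟩
      · have k2 := (Rat.cast_le (K := ℝ)).2 c2
        have k3 := (Rat.cast_le (K := ℝ)).2 c3
        push_cast at k2 k3
        rw [cT_cast, Bc_cast] at k2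
        rw [Ac_cast, cT_cast, Bc_cast] at k3
        have := h.cell_two hmR hL (γ := γ) (gp := p.gp) (τ := τ)
          hW0 l1R hW1 l2R hELR H.heL H.he H.hγ hw0 l3R hdb1R.le l5R l4R hdb hρR hω0 hj hwf hrR
          hr2R (H.hν.trans c1R) hhb hpen0 hpen hΓR hτ2 hfa hha k2 k3
        linarith
      · have k2 := (Rat.cast_le (K := ℝ)).2 c2
        have k3 := (Rat.cast_le (K := ℝ)).2 c3
        push_cast at k2 k3
        rw [cT_cast, Bc_cast] at k2
        rw [Ac_cast, cT_cast, Bc_cast] at k3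
        have := h.cell_three hmR hL (γ := γ) (gp := p.gp) (τ := τ)
          hW0 l1R hW1 l2R hELR H.heL H.he H.hγ hw0 l3R hdb1R.le l5R l4R hdb hρR hω0 hj hwf hrR
          hr2R (H.hν.trans c1R) hhb hpen0 hpen hΓR hτ1 hfa hha k2 k3
        linarith

/-- soundness of a column -/
theorem cells_sound {p : ParQ} {laws : List LawQ} {els : List ElQ} {γ e : ℝ}
    (H : NearHyp μ p laws els x N j γ e) (hm : 0 < p.m) (hEL : 0 < p.EL) (hΓ : 0 ≤ p.Γ)
    {da db : ℚ} (hda0 : 0 ≤ da) (hda : (da : ℝ) ≤ √(fro (De μ x N)))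
    (hdb : √(fro (De μ x N)) ≤ db) (hdb1 : db < 1)
    (hh0 : (1 - √(fro (De μ x N))) * hh μ (diagonal j) x N ≤ p.h0) (cs : List CellQ) :
    ∀ ha : ℚ, (ha : ℝ) ≤ hh μ (diagonal j) x N → cellsOK p laws els da db ha cs = true →
      False := by
  induction cs with
  | nil =>
    intro ha hha hc
    simp only [cellsOK, decide_eq_true_eq] at hc
    have hcR : (p.h0 : ℝ) < ha * (1 - db) := by exact_mod_cast hc
    have h1 : (0 : ℝ) < 1 - db := by
      have : (db : ℝ) < 1 := by exact_mod_cast hdb1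
      linarith
    have hH0 : 0 ≤ hh μ (diagonal j) x N := H.dat.hh_nonneg _
    have h2 : (ha : ℝ) * (1 - db) ≤ (1 - √(fro (De μ x N))) * hh μ (diagonal j) x N := by
      rw [mul_comm]
      have k1 : (1 - (db : ℝ)) * ha ≤ (1 - db) * hh μ (diagonal j) x N :=
        mul_le_mul_of_nonneg_left hha h1.le
      have k2 : (1 - (db : ℝ)) * hh μ (diagonal j) x N
          ≤ (1 - √(fro (De μ x N))) * hh μ (diagonal j) x N :=
        mul_le_mul_of_nonneg_right (by linarith) hH0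
      linarith
    linarith
  | cons c cs ih =>
    intro ha hha hc
    simp only [cellsOK, Bool.and_eq_true] at hc
    rcases le_or_gt (hh μ (diagonal j) x N) (c.hb : ℝ) with h1 | h1
    · exact cell_sound H hm hEL hΓ hda0 hda hdb hdb1 c hha h1 hc.1
    · exact ih c.hb h1.le hc.2

/-- soundness of the columns -/
theorem cols_sound {p : ParQ} {laws : List LawQ} {els : List ElQ} {γ e : ℝ}
    (H : NearHyp μ p laws els x N j γ e) (hm : 0 < p.m) (hEL : 0 < p.EL) (hΓ : 0 ≤ p.Γ)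
    (hd0 : √(fro (De μ x N)) ≤ p.d0)
    (hh0 : (1 - √(fro (De μ x N))) * hh μ (diagonal j) x N ≤ p.h0) (cs : List ColQ) :
    ∀ da : ℚ, 0 ≤ da → (da : ℝ) ≤ √(fro (De μ x N)) → colsOK p laws els da cs = true →
      hh μ (diagonal j) x N ≤ p.h1 ∧ √(fro (De μ x N)) ≤ p.d1 := by
  induction cs with
  | nil =>
    intro da _ hda hc
    simp only [colsOK, decide_eq_true_eq] at hc
    have hcR : (p.d0 : ℝ) < da := by exact_mod_cast hc
    linarith
  | cons c cs ih =>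
    intro da hda0 hda hc
    simp only [colsOK, Bool.and_eq_true, decide_eq_true_eq] at hc
    obtain ⟨⟨⟨hc1, hc4⟩, hc2⟩, hc3⟩ := hc
    rcases le_or_gt (√(fro (De μ x N))) (c.db : ℝ) with h1 | h1
    · by_cases h2 : c.db ≤ p.d1
      · rw [if_pos h2] at hc2
        have h2R : (c.db : ℝ) ≤ p.d1 := by exact_mod_cast h2
        rcases le_or_gt (hh μ (diagonal j) x N) (p.h1 : ℝ) with h3 | h3
        · exact ⟨h3, h1.trans h2R⟩
        · exact (cells_sound H hm hEL hΓ hda0 hda h1 hc1 hh0 c.cs _ h3.le hc2).elim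
      · rw [if_neg h2] at hc2
        refine (cells_sound H hm hEL hΓ hda0 hda h1 hc1 hh0 c.cs 0 ?_ hc2).elim
        push_cast
        exact H.dat.hh_nonneg _
    · exact ih c.db (hda0.trans hc4) h1.le hc3

/-- **Soundness of the checker**: if all instances of the law fail then the defect and the
deviation are in the small box. -/
theorem near_sound {p : ParQ} {laws : List LawQ} {els : List ElQ} {cols : List ColQ} {γ e : ℝ}
    (hok : nearOK p laws els cols = true) (H : NearHyp μ p laws els x N j γ e)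
    {WU τU τV : ℝ} (hWU : (p.WU : ℝ) ≤ WU) (hτU : τU ≤ p.tU) (hτV : τV ≤ p.tV)
    (hU : WU * Qpt μ p.m x N - τU < γ * uu μ N + p.gp)
    (hV : XL μ p.m x N 0 0 0 (wQ p.m : ℚ) e τV < γ * uu μ N + p.gp) :
    hh μ (diagonal j) x N ≤ p.h1 ∧ √(fro (De μ x N)) ≤ p.d1 := by
  simp only [nearOK, Bool.and_eq_true, decide_eq_true_eq] at hok
  obtain ⟨⟨⟨⟨⟨⟨⟨⟨⟨⟨hm, hEL⟩, hELE⟩, hΓ⟩, hν⟩, hWU0⟩, hd00⟩, hd01⟩, hd0⟩, hh0⟩, hcols⟩ := hok
  have h := H.dat
  have hmR : (0 : ℝ) < p.m := by exact_mod_cast hm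
  have hELR : (0 : ℝ) < p.EL := by exact_mod_cast hEL
  have hΓR : (0 : ℝ) ≤ p.Γ := by exact_mod_cast hΓ
  have hνR : (0 : ℝ) ≤ p.ν := by exact_mod_cast hν
  have hWU0R : (0 : ℝ) < p.WU := by exact_mod_cast hWU0
  have hd00R : (0 : ℝ) ≤ p.d0 := by exact_mod_cast hd00
  have hd01R : (p.d0 : ℝ) < 1 := by exact_mod_cast hd01
  have hd0R : (p.Γ : ℝ) * p.ν ^ 2 + p.tV + p.gp + 2 * p.E * (kq p.m + p.ν ^ 2 / (p.m + 2))
      ≤ (wQ p.m : ℚ) * p.d0 ^ 2 := by
    rw [← kq_cast]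
    exact_mod_cast hd0
  have hh0R : ((p.Γ : ℝ) * p.ν ^ 2 + p.tU + p.gp) * (p.m + 2) ≤ 2 * p.WU * p.h0 := by
    exact_mod_cast hh0
  have hw0 : (0 : ℝ) < (wQ p.m : ℚ) := by
    have : 0 < wQ p.m := by unfold wQ; positivity
    exact_mod_cast this
  have hu2 : uu μ N ≤ (p.ν : ℝ) ^ 2 := by
    rw [← Real.sq_sqrt h.uu_nonneg]
    exact pow_le_pow_left₀ (Real.sqrt_nonneg _) H.hν 2
  have hγu : γ * uu μ N ≤ p.Γ * (p.ν : ℝ) ^ 2 :=
    (mul_le_mul_of_nonneg_right H.hγ h.uu_nonneg).trans (mul_le_mul_of_nonneg_left hu2 hΓR)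
  have hQ0 := h.Qpt_nonneg hmR.le
  have hH0 : 0 ≤ hh μ (diagonal j) x N := h.hh_nonneg _
  have hf0 : 0 ≤ fro (De μ x N) := fro_nonneg _
  have hk := kq_nonneg hmR.le
  have he0 : 0 < e := hELR.trans_le H.heL
  -- the bound of the deviation
  have hd : √(fro (De μ x N)) ≤ p.d0 := by
    have k1 := h.Qcss_ge_free hmR.le
    have k2 := h.Qcs_eq hmR.le
    have k3 : e * -(2 * (kq p.m + uu μ N / (p.m + 2))) ≤ e * Qcss μ p.m x N :=
      mul_le_mul_of_nonneg_left k1 he0.le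
    have k4 : e * (2 * (kq p.m + uu μ N / (p.m + 2)))
        ≤ p.E * (2 * (kq p.m + (p.ν : ℝ) ^ 2 / (p.m + 2))) := by
      have hu0 := h.uu_nonneg
      have hE := H.he
      have hE0 : (0 : ℝ) ≤ p.E := he0.le.trans hE
      gcongr
    have k5 : 0 ≤ ((wQ p.m : ℚ) : ℝ) * Qpt μ p.m x N := mul_nonneg hw0.le hQ0
    unfold XL at hV
    rw [k2] at hV
    have k6 : ((wQ p.m : ℚ) : ℝ) * fro (De μ x N) ≤ (wQ p.m : ℚ) * (p.d0 : ℝ) ^ 2 := by
      nlinarith
    have k7 : fro (De μ x N) ≤ (p.d0 : ℝ) ^ 2 := le_of_mul_le_mul_left k6 hw0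
    rw [Real.sqrt_le_left hd00R]
    exact k7
  -- the bound of the defect
  have hh1 : (1 - √(fro (De μ x N))) * hh μ (diagonal j) x N ≤ p.h0 := by
    have k1 := h.Qpt_ge hmR.le H.lsq (le_refl (√(fro (De μ x N))))
    have k2 : (p.WU : ℝ) * Qpt μ p.m x N ≤ WU * Qpt μ p.m x N :=
      mul_le_mul_of_nonneg_right hWU hQ0
    have k3 : (p.WU : ℝ) * (2 * (1 - √(fro (De μ x N))) / (p.m + 2) * hh μ (diagonal j) x N)
        ≤ p.WU * Qpt μ p.m x N := mul_le_mul_of_nonneg_left k1 hWU0R.le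
    have k4 : (p.WU : ℝ) * (2 * (1 - √(fro (De μ x N))) / (p.m + 2) * hh μ (diagonal j) x N)
        ≤ p.Γ * (p.ν : ℝ) ^ 2 + p.tU + p.gp := by linarith
    have k5 : 2 * (p.WU : ℝ) * ((1 - √(fro (De μ x N))) * hh μ (diagonal j) x N)
        ≤ 2 * p.WU * p.h0 := by
      refine le_trans ?_ hh0R
      have k6 := mul_le_mul_of_nonneg_right k4 (by positivity : (0 : ℝ) ≤ p.m + 2)
      refine le_trans (le_of_eq ?_) k6
      field_simp
    exact le_of_mul_le_mul_left k5 (by positivity)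
  exact cols_sound H hm hEL hΓ hd hh1 cols 0 le_rfl (by push_cast; exact Real.sqrt_nonneg _) hcols

end

end Vale.Agent.P224.R2.H728
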