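import Vale.Agent.P224.R2.H728.Barg

/-!
Rotation invariance of the complex Gaussian weight.
-/

namespace Vale.Agent.P224.R2.H728

open MeasureTheory Set Filter Function Complex Real Module
open scoped Topology RealInnerProductSpace ComplexConjugate

set_option linter.unusedSectionVars false

section

variable {V : Type*} [NormedAddCommGroup V] [InnerProductSpace ℝ V] [FiniteDimensional ℝ V]
  [MeasurableSpace V] [BorelSpace V]

/-- multiplication of a complex vector with a unit complex number -/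
noncomputable def rot (θ : ℝ) : V × V →ₗ[ℝ] V × V where
  toFun z := (Real.cos θ • z.1 - Real.sin θ • z.2, Real.sin θ • z.1 + Real.cos θ • z.2)
  map_add' x y := by
    ext <;> simp [smul_add] <;> abel
  map_smul' c x := by
    ext <;> simp [smul_add, smul_sub, smul_comm c]

lemma rot_apply (θ : ℝ) (z : V × V) : rot θ z
    = (Real.cos θ • z.1 - Real.sin θ • z.2, Real.sin θ • z.1 + Real.cos θ • z.2) := rfl

/-- complex conjugation -/
noncomputable def cj : V × V →ₗ[ℝ] V × V where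
  toFun z := (z.1, -z.2)
  map_add' x y := by ext <;> simp [add_comm]
  map_smul' c x := by ext <;> simp

lemma cj_apply (z : V × V) : cj z = (z.1, -z.2) := rfl

lemma rot_comp_neg (θ : ℝ) : (rot θ : V × V →ₗ[ℝ] V × V) ∘ₗ rot (-θ) = LinearMap.id := by
  apply LinearMap.ext
  intro z
  have h := Real.cos_sq_add_sin_sq θ
  simp only [LinearMap.comp_apply, rot_apply, LinearMap.id_apply, Real.cos_neg, Real.sin_neg]
  ext
  · simp only [smul_sub, smul_add, smul_smul, neg_smul, smul_neg]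
    have : z.1 = (Real.cos θ * Real.cos θ + Real.sin θ * Real.sin θ) • z.1 := by
      rw [← sq, ← sq, h, one_smul]
    nth_rewrite 3 [this]
    rw [add_smul, mul_comm (Real.sin θ) (Real.cos θ)]
    abel
  · simp only [smul_sub, smul_add, smul_smul, neg_smul, smul_neg]
    have : z.2 = (Real.cos θ * Real.cos θ + Real.sin θ * Real.sin θ) • z.2 := by
      rw [← sq, ← sq, h, one_smul]
    nth_rewrite 3 [this]
    rw [add_smul, mul_comm (Real.sin θ) (Real.cos θ)]
    abel

lemma cj_rot_cj (θ : ℝ) : (cj : V × V →ₗ[ℝ] V × V) ∘ₗ rot θ ∘ₗ cj = rot (-θ) := by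
  apply LinearMap.ext
  intro z
  simp only [LinearMap.comp_apply, rot_apply, cj_apply, Real.cos_neg, Real.sin_neg]
  ext
  · simp
  · simp [add_comm]

lemma cj_cj : (cj : V × V →ₗ[ℝ] V × V) ∘ₗ cj = LinearMap.id := by
  apply LinearMap.ext
  intro z
  simp [cj_apply]

lemma abs_det_rot (θ : ℝ) : |LinearMap.det (rot θ : V × V →ₗ[ℝ] V × V)| = 1 := by
  have h1 : LinearMap.det (rot θ : V × V →ₗ[ℝ] V × V) * LinearMap.det (rot (-θ) : V × V →ₗ[ℝ] V × V)
      = 1 := by
    rw [← LinearMap.det_comp, rot_comp_neg, LinearMap.det_id]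
  have h2 : LinearMap.det (rot (-θ) : V × V →ₗ[ℝ] V × V) = LinearMap.det (rot θ : V × V →ₗ[ℝ] V × V) := by
    have h3 : LinearMap.det (cj : V × V →ₗ[ℝ] V × V) * LinearMap.det (cj : V × V →ₗ[ℝ] V × V) = 1 := by
      rw [← LinearMap.det_comp, cj_cj, LinearMap.det_id]
    rw [← cj_rot_cj, LinearMap.det_comp, LinearMap.det_comp]
    linear_combination (LinearMap.det (rot θ : V × V →ₗ[ℝ] V × V)) * h3
  rw [h2, ← sq] at h1
  have h4 : |LinearMap.det (rot θ : V × V →ₗ[ℝ] V × V)| ^ 2 = 1 := by rw [sq_abs, h1]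
  exact (pow_eq_one_iff_of_nonneg (abs_nonneg _) two_ne_zero).1 h4

/-- the rotation preserves the volume -/
lemma mp_rot (θ : ℝ) : MeasurePreserving (rot θ : V × V →ₗ[ℝ] V × V)
    (volume : Measure (V × V)) volume := by
  have : (volume : Measure (V × V)).IsAddHaarMeasure :=
    Measure.prod.instIsAddHaarMeasure volume volume
  have hdet : LinearMap.det (rot θ : V × V →ₗ[ℝ] V × V) ≠ 0 := by
    intro h
    have := abs_det_rot (V := V) θ
    rw [h] at this
    simp at this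
  refine ⟨(LinearMap.continuous_of_finiteDimensional _).measurable, ?_⟩
  rw [Measure.map_linearMap_addHaar_eq_smul_addHaar _ hdet, abs_inv, abs_det_rot]
  simp

lemma cin_rot (θ : ℝ) (x : V) (z : V × V) : cin x (rot θ z) = cexp (θ * I) * cin x z := by
  unfold cin
  rw [rot_apply, Complex.exp_mul_I]
  simp only [inner_sub_right, inner_add_right, real_inner_smul_right]
  push_cast
  have hI : I * I = -1 := Complex.I_mul_I
  linear_combination (-(Complex.sin θ) * (⟪x, z.2⟫ : ℂ)) * hI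

lemma norm_rot (θ : ℝ) (z : V × V) :
    ‖(rot θ z).1‖ ^ 2 + ‖(rot θ z).2‖ ^ 2 = ‖z.1‖ ^ 2 + ‖z.2‖ ^ 2 := by
  rw [rot_apply]
  simp only
  rw [norm_sub_sq_real, norm_add_sq_real, norm_smul, norm_smul, norm_smul, norm_smul]
  simp only [real_inner_smul_left, real_inner_smul_right, mul_pow, Real.norm_eq_abs, sq_abs]
  have h := Real.cos_sq_add_sin_sq θ
  linear_combination (‖z.1‖ ^ 2 + ‖z.2‖ ^ 2) * h

lemma cq_rot (θ : ℝ) (z : V × V) : cq (rot θ z) = cexp (θ * I) ^ 2 * cq z := by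
  unfold cq
  rw [rot_apply]
  simp only
  have e1 : ‖Real.cos θ • z.1 - Real.sin θ • z.2‖ ^ 2 = Real.cos θ ^ 2 * ‖z.1‖ ^ 2
      - 2 * (Real.cos θ * Real.sin θ * ⟪z.1, z.2⟫) + Real.sin θ ^ 2 * ‖z.2‖ ^ 2 := by
    rw [norm_sub_sq_real, norm_smul, norm_smul]
    simp only [real_inner_smul_left, real_inner_smul_right, mul_pow, Real.norm_eq_abs, sq_abs]
    ring
  have e2 : ‖Real.sin θ • z.1 + Real.cos θ • z.2‖ ^ 2 = Real.sin θ ^ 2 * ‖z.1‖ ^ 2
      + 2 * (Real.cos θ * Real.sin θ * ⟪z.1, z.2⟫) + Real.cos θ ^ 2 * ‖z.2‖ ^ 2 := by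
    rw [norm_add_sq_real, norm_smul, norm_smul]
    simp only [real_inner_smul_left, real_inner_smul_right, mul_pow, Real.norm_eq_abs, sq_abs]
    ring
  have e3 : (⟪Real.cos θ • z.1 - Real.sin θ • z.2, Real.sin θ • z.1 + Real.cos θ • z.2⟫ : ℝ)
      = Real.cos θ * Real.sin θ * (‖z.1‖ ^ 2 - ‖z.2‖ ^ 2)
        + (Real.cos θ ^ 2 - Real.sin θ ^ 2) * ⟪z.1, z.2⟫ := by
    simp only [inner_sub_left, inner_add_right, real_inner_smul_left, real_inner_smul_right,
      real_inner_self_eq_norm_sq]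
    rw [real_inner_comm z.1 z.2]
    ring
  rw [← Complex.ofReal_pow, ← Complex.ofReal_pow, e1, e2, e3, Complex.exp_mul_I]
  push_cast
  have hI : I ^ 2 = -1 := Complex.I_sq
  linear_combination (-(4 * Complex.cos θ * Complex.sin θ * (⟪z.1, z.2⟫ : ℂ)
    + Complex.sin θ ^ 2 * ((‖z.1‖ : ℂ) ^ 2 - (‖z.2‖ : ℂ) ^ 2)
    + 2 * Complex.sin θ ^ 2 * I * (⟪z.1, z.2⟫ : ℂ))) * hI

lemma coh_rot (lam : ℂ) (X : V) (θ : ℝ) (z : V × V) :
    coh lam X (rot θ z) = coh (lam * cexp (θ * I)) X z := by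
  unfold coh
  rw [cin_rot, cq_rot]
  congr 1
  ring

lemma gwt_rot (θ : ℝ) (z : V × V) : gwt (rot θ z) = gwt z := by
  unfold gwt
  congr 1
  have := norm_rot θ z
  linarith

end

end Vale.Agent.P224.R2.H728
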