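import Vale.Agent.P224.R2.H662.MacT
import Vale.Agent.P224.R2.H460.LawS
import Vale.Agent.P224.R2.H484.AbsV
import Vale.Agent.P224.R2.H925.In

/-!
The second moments of the normal in the large dimensions: no direction carries more than `13/100`.
-/

namespace Vale.Agent.P224.R2.H728

open MeasureTheory Set Filter Function Real Module Vale.Agent.P224 Vale.Agent.P224.FV
open Vale.Agent.P224.SM2 Vale.Agent.P224.R2.H820
open Vale.Agent.P224.R2.H627 Vale.Agent.P224.R2.H582 Vale.Agent.P224.R2.H470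
open Vale.Agent.P224.R2.H925 (Fra)
open Vale.Agent.P224.R2.H484 (AbsTail)
open Vale.Agent.P224.R2.H662 (macS_num mA mE)
open Vale.Agent.P224.R2.H460 (law_S LL cw)
open scoped Topology RealInnerProductSpace ContDiff Manifold

set_option linter.unusedSectionVars false

section

variable {V W M : Type*} [NormedAddCommGroup V] [InnerProductSpace ℝ V] [FiniteDimensional ℝ V]
  [NormedAddCommGroup W] [InnerProductSpace ℝ W] [FiniteDimensional ℝ W]
  [TopologicalSpace M] [ChartedSpace V M]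
  [MeasurableSpace V] [BorelSpace V] [MeasurableSpace M] [BorelSpace M]
  [MeasurableSpace W] [BorelSpace W] [IsManifold 𝓘(ℝ, V) ∞ M]
  [CompactSpace M] [T2Space M]

/-- a unit vector is the first one of a basis -/
lemma exists_basis_first {n : ℕ} (hn : finrank ℝ W = n + 1) {v : W} (hv : ‖v‖ = 1) :
    ∃ b : OrthonormalBasis (Fin (n + 1)) ℝ W, b 0 = v := by
  have ho : Orthonormal ℝ (({0} : Set (Fin (n + 1))).domRestrict fun _ => v) := by
    refine ⟨fun i => ?_, fun i j hij => ?_⟩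
    · simpa using hv
    · exact absurd (Subsingleton.elim i j) hij
  obtain ⟨b, hb⟩ := ho.exists_orthonormalBasis_extension_of_card_eq (by rw [hn]; simp)
  exact ⟨b, hb 0 rfl⟩

/-- the law without the quadratic form of the deviation -/
theorem law_zero [Nonempty M] (hm : 17 ≤ finrank ℝ V) (hW : finrank ℝ W = finrank ℝ V + 2)
    {F : M → W} (hF : SphImm V F) (hmin : ∀ x n, IsUnitNormal V F x n → meanCurv V F x n = 0)
    {N : M → W} (hNs : ContMDiff 𝓘(ℝ, V) 𝓘(ℝ, W) ∞ N) (hN : ∀ x, IsUnitNormal V F x (N x))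
    (hinj : Injective F) {ι : Type*} [Fintype ι] [DecidableEq ι] (b : OrthonormalBasis ι ℝ W)
    {m : ℕ} (hmm : m = finrank ℝ V) {lam β' : ℝ → ℝ} {T1 : ℝ} (hfr : Fra m lam β' T1)
    (hβ0 : ∀ T ∈ Ioo (0 : ℝ) (1 / 100), 0 ≤ β' T) {Bc : ℝ → ℝ} {β t : ℝ} (hBi : IntervalIntegrable Bc volume 0 1)
    (hBc : ∀ T ∈ Ioo (0 : ℝ) 1, Bc T * (volM V F).real univ ^ 2
      ≤ m * eM m T * E2 (volM V F) F N (fun k => SM2.ker T (m + 1) k.1 * Ck k))
    (hβ : β ≤ ∫ T in (0 : ℝ)..1, Bc T)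
    (ht : AbsTail (volM V F) m F N (fun T => (1 - T ^ 2) * lam T) t) :
    2 * lamM m * (sphereVol m / (volM V F).real univ) + (β - t)
      ≤ 1 + m * rM m 0 * uu (nrm (volM V F)) (co b N) := by
  subst hmm
  set m := finrank ℝ V with hmdef
  have hsc : SecondCountableTopology M := ChartedSpace.secondCountable_of_sigmaCompact V M
  obtain ⟨τ, t1, t2, t3⟩ := ht
  have key := law_S (by omega) hW hF hmin hNs hN hinj b rfl (J := 0) (z := N)
    (fun u v => by simp) (fun x => by simp)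
    (by norm_num : (0 : ℝ) < 1 / 100) (by norm_num : (1 / 100 : ℝ) < 1) (w := fun _ => 0)
    (lam := lam) (β := β') (Bc := Bc) (τ := τ) continuousOn_const hfr.hβ hβ0 ?_ hfr.hrel
    (fun T hT => hfr.hpos T ⟨hT.1.le, hT.2⟩) hBi hBc t1 t2
  · have e2 : ∫ T in (0 : ℝ)..(1 / 100), (fun _ => (0 : ℝ)) T
        * (cw m T * LL (nrm (volM V F)) m F N T) = 0 := by
      simp
    rw [e2] at key
    have e3 : uu (nrm (volM V F)) (co b N) = ∑ i, m1 (nrm (volM V F)) (co b N) i ^ 2 := rfl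
    rw [e3]
    refine le_trans ?_ key
    linarith
  · intro T hT
    have h1 : 0 < 1 - T := by linarith [hT.2]
    have h2 := hfr.hpos T ⟨hT.1.le, hT.2.trans (by norm_num)⟩
    have h3 : β' T / (1 - T) ≤ al m T (yM m T) (rM m T) (lam T) := by
      rw [div_le_iff₀ h1]
      exact h2
    linarith

/-- **the cap of the second moments**, general numbers -/
theorem step0_of [Nonempty M] (hm : 17 ≤ finrank ℝ V) (hW : finrank ℝ W = finrank ℝ V + 2)
    {F : M → W} (hF : SphImm V F) (hmin : ∀ x n, IsUnitNormal V F x n → meanCurv V F x n = 0)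
    {N : M → W} (hNs : ContMDiff 𝓘(ℝ, V) 𝓘(ℝ, W) ∞ N) (hN : ∀ x, IsUnitNormal V F x (N x))
    (hinj : Injective F) {ι : Type*} [Fintype ι] [DecidableEq ι] (b : OrthonormalBasis ι ℝ W)
    {m : ℕ} (hmm : m = finrank ℝ V) {lam β' : ℝ → ℝ} {T1 : ℝ} (hfr : Fra m lam β' T1)
    (hβ0 : ∀ T ∈ Ioo (0 : ℝ) (1 / 100), 0 ≤ β' T) {t gp g U T0 m0 ν X cu : ℝ}
    (ht : AbsTail (volM V F) m F N (fun T => (1 - T ^ 2) * lam T) t)
    (hu : uu (nrm (volM V F)) (co b N) ≤ U) (hg : m * rM m 0 ≤ g) (hg0 : 0 ≤ g)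
    (hm0 : 0 < m0) (hm0m : m0 ≤ m) (hT00 : 0 < T0) (hT0 : T0 ≤ 3 / 10)
    (hX : X ≤ min ((mE m0 T0 * T0 ^ 2) ^ 3) (max (ν - mA m0 T0) 0 ^ 3)
        / (6 * mE m0 T0) * (1 - 7 / 8 * T0 ^ 2))
    (hcu : 2 / 3 * T0 ^ 3 ≤ cu) (hcl : (g + cu) * U + t + gp ≤ X)
    (hlow : 1 < 2 * lamM m * (sphereVol m / (volM V F).real univ) + gp)
    {v : W} (hv : ‖v‖ = 1) : ∫ x, ⟪N x, v⟫ ^ 2 ∂(nrm (volM V F)) ≤ ν := by
  by_contra hcon
  push Not at hcon
  have hfin : IsFiniteMeasure (volM V F) := isFiniteMeasure_volM hF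
  have hvpos : 0 < volM V F univ := volM_pos_of_isOpen hW hF isOpen_univ univ_nonempty
  have hnz : NeZero (volM V F) := ⟨fun h => by rw [h] at hvpos; simp at hvpos⟩
  have hA0 : 0 < (volM V F).real univ := ENNReal.toReal_pos hvpos.ne' (measure_ne_top _ _)
  obtain ⟨e, he⟩ := exists_basis_first (n := finrank ℝ V + 1) (by rw [hW]) hv
  have hi : Integrable N (volM V F) :=
    hNs.continuous.integrable_of_hasCompactSupport (HasCompactSupport.of_compactSpace N)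
  have hue : uu (nrm (volM V F)) (co e N) = uu (nrm (volM V F)) (co b N) := by
    have g1 := sum_m1_sq (μ := volM V F) b hi
    have g2 := sum_m1_sq (μ := volM V F) e hi
    rw [g1] at g2
    exact (mul_left_cancel₀ (by positivity) g2).symm
  have hν : ν ≤ m2 (nrm (volM V F)) (co e N) (co e N) 0 0 := by
    have e1 : m2 (nrm (volM V F)) (co e N) (co e N) 0 0
        = ∫ x, ⟪N x, v⟫ ^ 2 ∂(nrm (volM V F)) := by
      unfold m2 co
      rw [he]
      simp only [sq]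
    rw [e1]
    exact hcon.le
  have hE : 0 < mE m0 T0 := by
    unfold mE
    positivity
  have h0 : (0 : ℝ) ≤ max (ν - mA m0 T0) 0 ^ 3 := pow_nonneg (le_max_right _ _) 3
  obtain ⟨Bc, k1, k2, k3⟩ := macS_num hm hW hF hmin hNs hN e 0 hmm hm0 hm0m hT00 hT0
    (ν1 := ν) (f1 := 0) (cu := cu) (X := X) (by
      have e1 : max ((0 : ℝ) ^ 2 - 3 * mA m0 T0 * 0) (max (ν - mA m0 T0) 0 ^ 3)
          = max (ν - mA m0 T0) 0 ^ 3 := by
        rw [mul_zero]
        norm_num [h0]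
      rw [e1]
      exact hX) hcu hν (Or.inl rfl)
  rw [hue] at k3
  have key := law_zero hm hW hF hmin hNs hN hinj b hmm hfr hβ0 k1 k2 k3 ht
  have hu0 : 0 ≤ uu (nrm (volM V F)) (co b N) := Finset.sum_nonneg fun i _ => sq_nonneg _
  have hc0 : 0 ≤ cu := le_trans (by positivity) hcu
  have h1 := mul_le_mul_of_nonneg_right hg hu0
  have h2 := mul_le_mul_of_nonneg_left hu (add_nonneg hg0 hc0)
  linarith

/-- from unit vectors to all vectors -/
lemma all_of_unit {F N : M → W} {ν : ℝ}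
    (h : ∀ v : W, ‖v‖ = 1 → ∫ x, ⟪N x, v⟫ ^ 2 ∂(nrm (volM V F)) ≤ ν) (v : W) :
    ∫ x, ⟪N x, v⟫ ^ 2 ∂(nrm (volM V F)) ≤ ν * ‖v‖ ^ 2 := by
  rcases eq_or_ne v 0 with h0 | h0
  · rw [h0]
    simp
  · have hv : 0 < ‖v‖ := norm_pos_iff.2 h0
    have h1 : ‖‖v‖⁻¹ • v‖ = 1 := by
      rw [norm_smul, norm_inv, norm_norm, inv_mul_cancel₀ hv.ne']
    have h2 := h _ h1
    have e1 : ∫ x, ⟪N x, ‖v‖⁻¹ • v⟫ ^ 2 ∂(nrm (volM V F))
        = (‖v‖⁻¹) ^ 2 * ∫ x, ⟪N x, v⟫ ^ 2 ∂(nrm (volM V F)) := by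
      rw [← integral_const_mul]
      refine integral_congr_ae (Eventually.of_forall fun x => ?_)
      simp only [inner_smul_right]
      ring
    rw [e1] at h2
    have h3 := mul_le_mul_of_nonneg_left h2 (sq_nonneg ‖v‖)
    have e2 : ‖v‖ ^ 2 * ((‖v‖⁻¹) ^ 2 * ∫ x, ⟪N x, v⟫ ^ 2 ∂(nrm (volM V F)))
        = ∫ x, ⟪N x, v⟫ ^ 2 ∂(nrm (volM V F)) := by
      field_simp
    rw [e2] at h3
    linarith

/-- the numbers: `ν = 13 / 100` with the tail `10⁻⁴` -/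
lemma num_13 : (13 / 10 ^ 5 : ℝ) ≤ min ((mE 400 (6 / 25) * (6 / 25) ^ 2) ^ 3)
    (max (13 / 100 - mA 400 (6 / 25)) 0 ^ 3) / (6 * mE 400 (6 / 25))
      * (1 - 7 / 8 * (6 / 25) ^ 2) := by
  unfold mE mA
  have e3 : max ((13 : ℝ) / 100 - (1 + 8 / 7 * (6 / 25)) / 400) 0
      = 13 / 100 - (1 + 8 / 7 * (6 / 25)) / 400 := max_eq_left (by norm_num)
  rw [e3, min_eq_right (by norm_num)]
  norm_num

/-- the numbers: `ν = 11 / 100` with the tail `65 · 10⁻⁶` -/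
lemma num_11 : (82 / 10 ^ 6 : ℝ) ≤ min ((mE 400 (11 / 50) * (11 / 50) ^ 2) ^ 3)
    (max (11 / 100 - mA 400 (11 / 50)) 0 ^ 3) / (6 * mE 400 (11 / 50))
      * (1 - 7 / 8 * (11 / 50) ^ 2) := by
  unfold mE mA
  have e3 : max ((11 : ℝ) / 100 - (1 + 8 / 7 * (11 / 50)) / 400) 0
      = 11 / 100 - (1 + 8 / 7 * (11 / 50)) / 400 := max_eq_left (by norm_num)
  rw [e3, min_eq_right (by norm_num)]
  norm_num

section

variable [Nonempty M] (hm : 400 ≤ finrank ℝ V) (hW : finrank ℝ W = finrank ℝ V + 2)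
    {F : M → W} (hF : SphImm V F) (hmin : ∀ x n, IsUnitNormal V F x n → meanCurv V F x n = 0)
    {N : M → W} (hNs : ContMDiff 𝓘(ℝ, V) 𝓘(ℝ, W) ∞ N) (hN : ∀ x, IsUnitNormal V F x (N x))
    (hinj : Injective F) {ι : Type*} [Fintype ι] [DecidableEq ι] (b : OrthonormalBasis ι ℝ W)
    {m : ℕ} (hmm : m = finrank ℝ V) {lam β' : ℝ → ℝ} {T1 : ℝ} (hfr : Fra m lam β' T1)
    (hβ0 : ∀ T ∈ Ioo (0 : ℝ) (1 / 100), 0 ≤ β' T)
    {t gp : ℝ} (ht : AbsTail (volM V F) m F N (fun T => (1 - T ^ 2) * lam T) t)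
    (hgp : gp ≤ 1 / 10 ^ 8)
    (hu : uu (nrm (volM V F)) (co b N) ≤ (11 / 2000) ^ 2) (hg : m * rM m 0 ≤ 474 / 1000)
    (hlow : 1 < 2 * lamM m * (sphereVol m / (volM V F).real univ) + gp)
include hm hW hF hmin hNs hN hinj hmm hfr hβ0 ht hgp hu hg hlow

/-- **the cap of the second moments in the large dimensions** -/
theorem step0 (ht1 : t ≤ 1 / 10 ^ 4) (v : W) :
    ∫ x, ⟪N x, v⟫ ^ 2 ∂(nrm (volM V F)) ≤ 13 / 100 * ‖v‖ ^ 2 := by
  have hmR : (400 : ℝ) ≤ m := by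
    rw [hmm]
    exact_mod_cast hm
  refine all_of_unit (fun v hv => ?_) v
  refine step0_of (by omega) hW hF hmin hNs hN hinj b hmm hfr hβ0 (g := 474 / 1000)
    (U := (11 / 2000) ^ 2) (T0 := 6 / 25) (m0 := 400) (X := 13 / 10 ^ 5)
    (cu := 1 / 100) ht hu hg (by norm_num) (by norm_num) hmR (by norm_num) (by norm_num)
    num_13 (by norm_num) ?_ hlow hv
  norm_num at ht1 hgp ⊢
  linarith

/-- **the sharper cap of the second moments in the large dimensions** -/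
theorem step0_11 (ht1 : t ≤ 65 / 10 ^ 6) (v : W) :
    ∫ x, ⟪N x, v⟫ ^ 2 ∂(nrm (volM V F)) ≤ 11 / 100 * ‖v‖ ^ 2 := by
  have hmR : (400 : ℝ) ≤ m := by
    rw [hmm]
    exact_mod_cast hm
  refine all_of_unit (fun v hv => ?_) v
  refine step0_of (by omega) hW hF hmin hNs hN hinj b hmm hfr hβ0 (g := 474 / 1000)
    (U := (11 / 2000) ^ 2) (T0 := 11 / 50) (m0 := 400) (X := 82 / 10 ^ 6)
    (cu := 1 / 100) ht hu hg (by norm_num) (by norm_num) hmR (by norm_num) (by norm_num)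
    num_11 (by norm_num) ?_ hlow hv
  norm_num at ht1 hgp ⊢
  linarith

omit hm hW hF hmin hNs hN hinj hmm hfr hβ0 ht hgp hu hg hlow in
/-- the diagonal second moments -/
lemma m2_le_of {ν : ℝ} (h : ∀ v : W, ∫ x, ⟪N x, v⟫ ^ 2 ∂(nrm (volM V F)) ≤ ν * ‖v‖ ^ 2) (a : ι) :
    m2 (nrm (volM V F)) (co b N) (co b N) a a ≤ ν := by
  have h1 := h (b a)
  rw [b.orthonormal.1 a, one_pow, mul_one] at h1
  refine le_trans (le_of_eq ?_) h1
  unfold m2 co
  simp only [sq]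

/-- the diagonal form of the cap -/
theorem step0_m2 (ht1 : t ≤ 1 / 10 ^ 4) (a : ι) :
    m2 (nrm (volM V F)) (co b N) (co b N) a a ≤ 13 / 100 :=
  m2_le_of b (step0 hm hW hF hmin hNs hN hinj b hmm hfr hβ0 ht hgp hu hg hlow ht1) a

/-- the diagonal form of the sharper cap -/
theorem step0_m2_11 (ht1 : t ≤ 65 / 10 ^ 6) (a : ι) :
    m2 (nrm (volM V F)) (co b N) (co b N) a a ≤ 11 / 100 :=
  m2_le_of b (step0_11 hm hW hF hmin hNs hN hinj b hmm hfr hβ0 ht hgp hu hg hlow ht1) a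

end

end

end Vale.Agent.P224.R2.H728
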