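import Vale.Agent.P224.R2.H460.Cl5
import Vale.Agent.P224.R2.H728.Step0
import Vale.Agent.P224.R2.H358.BigL
import Vale.Agent.P224.R2.H925.NxR
import Vale.Agent.P224.R2.H684.AbsC5
import Vale.Agent.P224.R2.H255.GBnd
import Vale.Agent.P224.R2.H627.Pkd

/-!
The near range of the dimensions `m ≥ 400` from the checked lists, the relative tails and the
facts on the lists.
-/

namespace Vale.Agent.P224.R2.H728

open MeasureTheory Set Filter Function Real Module Vale.Agent.P224 Vale.Agent.P224.FV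
open Vale.Agent.P224.SM2 Vale.Agent.P224.R2.H820
open Vale.Agent.P224.R2.H627 Vale.Agent.P224.R2.H582 Vale.Agent.P224.R2.H470
open Vale.Agent.P224.R2.H460 (RaR ElR ColS ParS allOK NearS FactA FactB near_S2 be_nonneg)
open Vale.Agent.P224.R2.H925 (Fra lamX lamX_mul abs_X RelU absTail_mono)
open Vale.Agent.P224.R2.H484 (AbsTail)
open Vale.Agent.P224.R2.H684 (okS_400)
open Vale.Agent.P224.R2.H176 (NearData)
open scoped Topology RealInnerProductSpace ContDiff Manifold

set_option linter.unusedSectionVars false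

/-- the threshold function of the large dimensions -/
noncomputable def lamS (T : ℝ) : ℝ := lamX ((193 / 10 : ℚ) : ℝ) ((133 / 10 : ℚ) : ℝ) T

lemma lamS_mul {T : ℝ} (hT : T ∈ Ioo (0 : ℝ) 1) :
    (1 - T ^ 2) * lamS T = max (193 / 10) (133 / 10 / (1 - T ^ 2)) := by
  unfold lamS
  rw [lamX_mul hT]
  push_cast
  rfl

/-- the conditions of the law -/
theorem fraS {m : ℕ} (hm : 400 ≤ m) : Fra m lamS (beR m) (1 / 2) := by
  have hmR : (400 : ℝ) ≤ m := by exact_mod_cast hm
  refine fra_R (by omega) pk_d ?_ (fun T hT => ?_) (by norm_num)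
  · rw [div_le_iff₀ (by linarith)]
    linarith
  · have hk : 0 < 1 - T ^ 2 := by nlinarith [hT.1, hT.2]
    rw [lamS_mul hT]
    rcases le_total (133 / 10 / (1 - T ^ 2)) (193 / 10) with h | h
    · left
      rw [max_eq_left h]
      norm_num
    · right
      rw [max_eq_right h, mul_div_cancel₀ _ hk.ne']

/-- the threshold at the low levels -/
lemma lamS_low {T : ℝ} (hT : T ∈ Ioo (0 : ℝ) (2 / 25)) : (1 - T ^ 2) * lamS T ≤ 193 / 10 := by
  have hT1 : T ∈ Ioo (0 : ℝ) 1 := ⟨hT.1, hT.2.trans (by norm_num)⟩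
  have hk : 9 / 10 ≤ 1 - T ^ 2 := by nlinarith [hT.1, hT.2]
  rw [lamS_mul hT1]
  refine max_le le_rfl ?_
  rw [div_le_iff₀ (by linarith)]
  linarith

lemma beR_low {m : ℕ} (hm : 400 ≤ m) : ∀ T ∈ Ioo (0 : ℝ) (1 / 100), 0 ≤ beR m T := by
  intro T hT
  rw [beR_lt (hT.2.trans (by norm_num))]
  exact be_nonneg hm ⟨hT.1, hT.2.trans (by norm_num)⟩

section

variable {V W M : Type*} [NormedAddCommGroup V] [InnerProductSpace ℝ V] [FiniteDimensional ℝ V]
  [NormedAddCommGroup W] [InnerProductSpace ℝ W] [FiniteDimensional ℝ W]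
  [TopologicalSpace M] [ChartedSpace V M]
  [MeasurableSpace V] [BorelSpace V] [MeasurableSpace M] [BorelSpace M]
  [MeasurableSpace W] [BorelSpace W] [IsManifold 𝓘(ℝ, V) ∞ M]
  [CompactSpace M] [T2Space M]

/-- the absolute tail of the large dimensions -/
theorem absS (hm : 400 ≤ finrank ℝ V) (hW : finrank ℝ W = finrank ℝ V + 2)
    {F : M → W} (hF : SphImm V F) (hmin : ∀ x n, IsUnitNormal V F x n → meanCurv V F x n = 0)
    {N : M → W} (hNs : ContMDiff 𝓘(ℝ, V) 𝓘(ℝ, W) ∞ N) (hN : ∀ x, IsUnitNormal V F x (N x)) :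
    AbsTail (volM V F) (finrank ℝ V) F N (fun T => (1 - T ^ 2) * lamS T) (65 / 10 ^ 6) := by
  unfold lamS
  have hfin : IsFiniteMeasure (volM V F) := isFiniteMeasure_volM hF
  refine absTail_mono (abs_X hW hF hmin hNs hN rfl okS_400 (by norm_num) hm ?_ (by norm_num)) ?_
  · push_cast
    positivity
  · push_cast
    norm_num

/-- **The near range of the large dimensions**, from the checked lists. -/
theorem nearS_of [Nonempty M] (hm : 400 ≤ finrank ℝ V) (hW : finrank ℝ W = finrank ℝ V + 2)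
    {F : M → W} (hF : SphImm V F) (hmin : ∀ x n, IsUnitNormal V F x n → meanCurv V F x n = 0)
    {p : ParS} {risA risB : List RaR} {elsA elsB : List ElR} {colsA colsB : List ColS}
    (hok : allOK p risA risB elsA elsB colsA colsB = true) (hm0 : p.m0 = 400)
    (hnu : p.nuf ≤ 11 / 2000) (hab : 65 / 10 ^ 6 ≤ p.ab)
    (hrel : RelU (193 / 10) (133 / 10) V W M p.tls p.nuf (finrank ℝ V) F)
    {N : M → W} {b : OrthonormalBasis (Fin (finrank ℝ W)) ℝ W} {j : Fin (finrank ℝ W) → ℝ}
    (hA : FactA V F N b j (finrank ℝ V) risA elsA) (hB : FactB V F N b j (finrank ℝ V) risB elsB)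
    (hd : NearData V F N b j p.nuf) : NearS V F N b j := by
  have hfin : IsFiniteMeasure (volM V F) := isFiniteMeasure_volM hF
  have hfr := fraS hm
  have hg := H255.mr0_le_400 hm
  have ht := absS hm hW hF hmin hd.smooth hd.unit
  have hu : uu (nrm (volM V F)) (co b N) ≤ (11 / 2000) ^ 2 := by
    have hu0 : 0 ≤ uu (nrm (volM V F)) (co b N) := Finset.sum_nonneg fun i _ => sq_nonneg _
    have h1 : (p.nuf : ℝ) ≤ 11 / 2000 := by
      have h' : ((p.nuf : ℚ) : ℝ) ≤ ((11 / 2000 : ℚ) : ℝ) := by exact_mod_cast hnu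
      push_cast at h'
      exact h'
    have h2 := pow_le_pow_left₀ (Real.sqrt_nonneg _) (hd.mean.le.trans h1) 2
    rwa [Real.sq_sqrt hu0] at h2
  have habR : (65 / 10 ^ 6 : ℝ) ≤ (p.ab : ℝ) := by
    have h' : ((65 / 10 ^ 6 : ℚ) : ℝ) ≤ ((p.ab : ℚ) : ℝ) := by exact_mod_cast hab
    push_cast at h'
    exact h'
  refine near_S2 hW hF hmin hok ?_ hd hfr (fun T hT => lamS_low hT) hg
    (absTail_mono ht habR) (fun k hk hj => hrel N b j hd k hk hj) hA hB ?_ ?_
  · rw [hm0]
    push_cast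
    exact_mod_cast hm
  · intro gp hgp hlow a
    exact step0_m2_11 hm hW hF hmin hd.smooth hd.unit hd.inj b rfl hfr (beR_low hm) ht hgp hu hg
      hlow le_rfl a
  · intro gp hgp hlow
    by_contra hcon
    push Not at hcon
    have hP := step0 hm hW hF hmin hd.smooth hd.unit hd.inj b rfl hfr (beR_low hm) ht hgp hu hg
      hlow (by norm_num)
    have h1 := H358.big_close hm hW hF hmin hd.smooth hd.unit hd.inj b j rfl hd.lsq hfr
      (fun T hT => lamS_low hT) hP hcon (hu.trans (by norm_num)) ht (by norm_num)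
      (g := 474 / 1000) hg (by norm_num) (gp := gp) (hgp.trans (by norm_num))
    linarith

end

end Vale.Agent.P224.R2.H728
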