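import Vale.Agent.P224.R2.H728.T0

/-!
The two point quantities at level zero in terms of the one point tensors.
-/

namespace Vale.Agent.P224.R2.H728

open MeasureTheory Set Filter Function Real Finset

set_option linter.unusedSectionVars false

section

variable {ι Ω : Type*} [Fintype ι] [DecidableEq ι] [MeasurableSpace Ω] {μ : Measure Ω}
  {m : ℝ} {x N : ι → Ω → ℝ}

namespace T0Data

lemma C_symm (h : T0Data μ m x N) (a b : ι) : m2 μ N x a b = m2 μ N x b a := h.r3 a b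

lemma xN_eq (h : T0Data μ m x N) (a b : ι) : m2 μ x N a b = m2 μ N x a b := by
  rw [h.C_symm a b]
  exact integral_congr_ae (Eventually.of_forall fun ω => mul_comm _ _)

lemma P_symm (_h : T0Data μ m x N) (a b : ι) : m2 μ N N a b = m2 μ N N b a :=
  integral_congr_ae (Eventually.of_forall fun _ => mul_comm _ _)

lemma G_symm (_h : T0Data μ m x N) (a b : ι) : m2 μ x x a b = m2 μ x x b a :=
  integral_congr_ae (Eventually.of_forall fun _ => mul_comm _ _)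

lemma GP (h : T0Data μ m x N) (a b : ι) :
    (m + 1) * m2 μ x x a b + m2 μ N N a b = if a = b then 1 else 0 := h.r2 a b

lemma trP (h : T0Data μ m x N) : ∑ a, m2 μ N N a a = 1 := by
  have := h.prob
  unfold m2
  rw [← integral_finsetSum _ fun a _ => ((h.bN a).mul (h.bN a)).int]
  have e : ∀ ω, ∑ a, N a ω * N a ω = 1 := fun ω => by
    rw [← h.uN ω]
    exact Finset.sum_congr rfl fun a _ => (sq _).symm
  simp [e]

lemma trG (h : T0Data μ m x N) : ∑ a, m2 μ x x a a = 1 := by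
  have := h.prob
  unfold m2
  rw [← integral_finsetSum _ fun a _ => ((h.bx a).mul (h.bx a)).int]
  have e : ∀ ω, ∑ a, x a ω * x a ω = 1 := fun ω => by
    rw [← h.ux ω]
    exact Finset.sum_congr rfl fun a _ => (sq _).symm
  simp [e]

lemma trC (h : T0Data μ m x N) : ∑ a, m2 μ N x a a = 0 := by
  have := h.prob
  unfold m2
  rw [← integral_finsetSum _ fun a _ => ((h.bN a).mul (h.bx a)).int]
  have e : ∀ ω, ∑ a, N a ω * x a ω = 0 := fun ω => by
    rw [← h.xN ω]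
    exact Finset.sum_congr rfl fun a _ => mul_comm _ _
  simp [e]

/-- `(m + 1) tr (P G) = 1 - |P|^2` -/
lemma PG (h : T0Data μ m x N) :
    (m + 1) * ∑ a, ∑ b, m2 μ N N a b * m2 μ x x a b = 1 - ∑ a, ∑ b, m2 μ N N a b ^ 2 := by
  refine Eq.trans ?_ (congrArg (· - ∑ a, ∑ b, m2 μ N N a b ^ 2) h.trP)
  change _ = ∑ a, m2 μ N N a a - ∑ a, ∑ b, m2 μ N N a b ^ 2
  rw [Finset.mul_sum, ← Finset.sum_sub_distrib]
  refine Finset.sum_congr rfl fun a _ => ?_
  rw [Finset.mul_sum]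
  have e : ∀ b, (m + 1) * (m2 μ N N a b * m2 μ x x a b)
      = (if a = b then m2 μ N N a b else 0) - m2 μ N N a b ^ 2 := by
    intro b
    have h1 := h.GP a b
    have h2 : (if a = b then m2 μ N N a b else 0) = m2 μ N N a b * (if a = b then 1 else 0) := by
      split_ifs <;> simp
    rw [h2, ← h1]
    ring
  simp_rw [e]
  rw [Finset.sum_sub_distrib]
  simp

/-- `(m + 1)^2 |G|^2 = m + |P|^2` -/
lemma GG2 (h : T0Data μ m x N) :
    (m + 1) ^ 2 * ∑ a, ∑ b, m2 μ x x a b ^ 2 = m + ∑ a, ∑ b, m2 μ N N a b ^ 2 := by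
  have h0 : (m + 1) ^ 2 * ∑ a, ∑ b, m2 μ x x a b ^ 2
      = (m + 1) * ∑ a, m2 μ x x a a - (m + 1) * ∑ a, ∑ b, m2 μ N N a b * m2 μ x x a b := by
    rw [Finset.mul_sum, Finset.mul_sum, Finset.mul_sum, ← Finset.sum_sub_distrib]
    refine Finset.sum_congr rfl fun a _ => ?_
    rw [Finset.mul_sum, Finset.mul_sum]
    have e : ∀ b, (m + 1) ^ 2 * m2 μ x x a b ^ 2
        = (if a = b then (m + 1) * m2 μ x x a b else 0)
          - (m + 1) * (m2 μ N N a b * m2 μ x x a b) := by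
      intro b
      have h1 := h.GP a b
      have h2 : (if a = b then (m + 1) * m2 μ x x a b else 0)
          = (m + 1) * m2 μ x x a b * (if a = b then 1 else 0) := by
        split_ifs <;> simp
      rw [h2, ← h1]
      ring
    simp_rw [e]
    rw [Finset.sum_sub_distrib]
    simp
  rw [h0, h.PG, h.trG]
  ring

lemma int2 (h : T0Data μ m x N) {f1 g1 f2 g2 : ι → Ω → ℝ} (h1 : ∀ a, BM (f1 a))
    (h2 : ∀ a, BM (g1 a)) (h3 : ∀ a, BM (f2 a)) (h4 : ∀ a, BM (g2 a)) :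
    Integrable (fun q : Ω × Ω => ip f1 g1 q.1 q.2 * ip f2 g2 q.1 q.2) (μ.prod μ) := by
  have := h.prob
  exact ((BM.ip2 h1 h2).mul (BM.ip2 h3 h4)).int

lemma int3 (h : T0Data μ m x N) {f1 g1 f2 g2 f3 g3 : ι → Ω → ℝ} (h1 : ∀ a, BM (f1 a))
    (h2 : ∀ a, BM (g1 a)) (h3 : ∀ a, BM (f2 a)) (h4 : ∀ a, BM (g2 a)) (h5 : ∀ a, BM (f3 a))
    (h6 : ∀ a, BM (g3 a)) :
    Integrable (fun q : Ω × Ω => ip f1 g1 q.1 q.2 * ip f2 g2 q.1 q.2 * ip f3 g3 q.1 q.2)
      (μ.prod μ) := by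
  have := h.prob
  exact (((BM.ip2 h1 h2).mul (BM.ip2 h3 h4)).mul (BM.ip2 h5 h6)).int

/-- a combination of three integrals -/
lemma int_comb {X : Type*} [MeasurableSpace X] {ν : Measure X} {f g k : X → ℝ}
    (hf : Integrable f ν) (hg : Integrable g ν) (hk : Integrable k ν) :
    ∫ q, (f q - 2 * g q + k q) ∂ν = ∫ q, f q ∂ν - 2 * ∫ q, g q ∂ν + ∫ q, k q ∂ν := by
  have h1 : Integrable (fun q => f q - 2 * g q) ν := hf.sub (hg.const_mul 2)
  rw [integral_add h1 hk, integral_sub hf (hg.const_mul 2), integral_const_mul]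

/-- the mean of `(p - t)^2` -/
theorem E_pt (h : T0Data μ m x N) (hm : m + 1 ≠ 0) :
    ∫ q, (ip N x q.1 q.2 - ip x N q.1 q.2) ^ 2 ∂(μ.prod μ)
      = 2 * ((1 - ∑ a, ∑ b, m2 μ N N a b ^ 2) / (m + 1) - ∑ a, ∑ b, m2 μ N x a b ^ 2) := by
  have := h.prob
  have e : ∀ q : Ω × Ω, (ip N x q.1 q.2 - ip x N q.1 q.2) ^ 2
      = ip N x q.1 q.2 * ip N x q.1 q.2 - 2 * (ip N x q.1 q.2 * ip x N q.1 q.2)
        + ip x N q.1 q.2 * ip x N q.1 q.2 := fun q => by ring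
  simp_rw [e]
  rw [int_comb (h.int2 h.bN h.bx h.bN h.bx) (h.int2 h.bN h.bx h.bx h.bN)
    (h.int2 h.bx h.bN h.bx h.bN), E2_two h.bN h.bx h.bN h.bx, E2_two h.bN h.bx h.bx h.bN,
    E2_two h.bx h.bN h.bx h.bN]
  have h1 : ∑ a, ∑ b, m2 μ x x a b * m2 μ N N a b = ∑ a, ∑ b, m2 μ N N a b * m2 μ x x a b :=
    Finset.sum_congr rfl fun a _ => Finset.sum_congr rfl fun b _ => mul_comm _ _
  have h2 : ∑ a, ∑ b, m2 μ N x a b * m2 μ x N a b = ∑ a, ∑ b, m2 μ N x a b ^ 2 :=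
    Finset.sum_congr rfl fun a _ => Finset.sum_congr rfl fun b _ => by rw [h.xN_eq, sq]
  rw [h1, h2]
  have h3 := h.PG
  rw [eq_comm, ← h3]
  field_simp
  ring

/-- the mean of `(c - s)^2` -/
theorem E_cs (h : T0Data μ m x N) :
    ∫ q, (ip N N q.1 q.2 - ip x x q.1 q.2) ^ 2 ∂(μ.prod μ)
      = ∑ a, ∑ b, m2 μ N N a b ^ 2 - 2 * ∑ a, ∑ b, m2 μ N x a b ^ 2
        + ∑ a, ∑ b, m2 μ x x a b ^ 2 := by
  have := h.prob
  have e : ∀ q : Ω × Ω, (ip N N q.1 q.2 - ip x x q.1 q.2) ^ 2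
      = ip N N q.1 q.2 * ip N N q.1 q.2 - 2 * (ip N N q.1 q.2 * ip x x q.1 q.2)
        + ip x x q.1 q.2 * ip x x q.1 q.2 := fun q => by ring
  simp_rw [e]
  rw [int_comb (h.int2 h.bN h.bN h.bN h.bN) (h.int2 h.bN h.bN h.bx h.bx)
    (h.int2 h.bx h.bx h.bx h.bx), E2_two h.bN h.bN h.bN h.bN, E2_two h.bN h.bN h.bx h.bx,
    E2_two h.bx h.bx h.bx h.bx]
  simp only [sq]

end T0Data

end

end Vale.Agent.P224.R2.H728
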