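import Vale.Agent.P224.R2.H728.T0b

/-!
Third moments and the mean normal identity.
-/

namespace Vale.Agent.P224.R2.H728

open MeasureTheory Set Filter Function Real Finset

set_option linter.unusedSectionVars false

section

variable {ι Ω : Type*} [Fintype ι] [DecidableEq ι] [MeasurableSpace Ω] {μ : Measure Ω}
  {m : ℝ} {x N : ι → Ω → ℝ}

variable (μ) in
/-- first moments -/
noncomputable def m1 (x : ι → Ω → ℝ) (a : ι) : ℝ := ∫ ω, x a ω ∂μ

namespace T0Data

/-- `E[N_a N_b x_c] = - (m + 2) / 2 * E[x_a x_b x_c]` -/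
theorem NNx (h : T0Data μ m x N) (a b c : ι) :
    m3 μ N N x a b c = -((m + 2) / 2) * m3 μ x x x a b c := by
  have s1 : ∀ a b c, m3 μ N N x a b c = m3 μ N N x b a c := fun a b c =>
    integral_congr_ae (Eventually.of_forall fun ω => by ring)
  have s2 : ∀ a b c, m3 μ x x x a b c = m3 μ x x x b a c := fun a b c =>
    integral_congr_ae (Eventually.of_forall fun ω => by ring)
  have s3 : ∀ a b c, m3 μ x x x a b c = m3 μ x x x a c b := fun a b c =>
    integral_congr_ae (Eventually.of_forall fun ω => by ring)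
  have h1 : (m + 2) * m3 μ x x x a b c + m3 μ N N x a b c + m3 μ N N x a c b = 0 := h.r5 a b c
  have h2 : (m + 2) * m3 μ x x x b a c + m3 μ N N x b a c + m3 μ N N x b c a = 0 := h.r5 b a c
  have h3 : (m + 2) * m3 μ x x x c a b + m3 μ N N x c a b + m3 μ N N x c b a = 0 := h.r5 c a b
  have e1 := s1 b a c
  have e2 := s1 c a b
  have e3 := s1 c b a
  have e4 := s2 b a c
  have e5 : m3 μ x x x c a b = m3 μ x x x a b c := by rw [s2 c a b, s3 a c b]
  rw [e1, e4] at h2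
  rw [e2, e3, e5] at h3
  linarith

lemma Nxx_sub (h : T0Data μ m x N) (a b c : ι) :
    (m + 1) * (m3 μ N x x a b c - m3 μ N x x b a c)
      = m1 μ N a * (if b = c then 1 else 0) - m1 μ N b * (if a = c then 1 else 0) := h.r4 a b c

lemma sum_Nxx_tr (h : T0Data μ m x N) (a : ι) : ∑ b, m3 μ N x x a b b = m1 μ N a := by
  have := h.prob
  unfold m3 m1
  rw [← integral_finsetSum _ fun b _ => (((h.bN a).mul (h.bx b)).mul (h.bx b)).int]
  refine integral_congr_ae (Eventually.of_forall fun ω => ?_)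
  have e : ∑ b, N a ω * x b ω * x b ω = N a ω * ∑ b, x b ω ^ 2 := by
    rw [Finset.mul_sum]
    exact Finset.sum_congr rfl fun b _ => by ring
  change ∑ b, N a ω * x b ω * x b ω = N a ω
  rw [e, h.ux, mul_one]

lemma sum_Nxx_tr' (h : T0Data μ m x N) (b : ι) : ∑ a, m3 μ N x x a b a = 0 := by
  have := h.prob
  unfold m3
  rw [← integral_finsetSum _ fun a _ => (((h.bN a).mul (h.bx b)).mul (h.bx a)).int]
  refine Eq.trans (integral_congr_ae (g := fun _ => (0 : ℝ)) (Eventually.of_forall fun ω => ?_))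
    (by simp)
  have e : ∑ a, N a ω * x b ω * x a ω = x b ω * ∑ a, x a ω * N a ω := by
    rw [Finset.mul_sum]
    exact Finset.sum_congr rfl fun b _ => by ring
  change ∑ a, N a ω * x b ω * x a ω = 0
  rw [e, h.xN, mul_zero]

/-- the square of the tensor `E N x x` and its twist -/
lemma Y_twist (h : T0Data μ m x N) :
    (m + 1) * ∑ a, ∑ b, ∑ c, m3 μ N x x a b c * m3 μ N x x b a c
      = (m + 1) * ∑ a, ∑ b, ∑ c, m3 μ N x x a b c ^ 2 - ∑ a, m1 μ N a ^ 2 := by
  have e1 : ∑ a, m1 μ N a ^ 2 = ∑ a, ∑ b, ∑ c, m3 μ N x x a b c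
      * (m1 μ N a * (if b = c then 1 else 0) - m1 μ N b * (if a = c then 1 else 0)) := by
    have e2 : ∀ a b, ∑ c, m3 μ N x x a b c
        * (m1 μ N a * (if b = c then 1 else 0) - m1 μ N b * (if a = c then 1 else 0))
        = m1 μ N a * m3 μ N x x a b b - m1 μ N b * m3 μ N x x a b a := by
      intro a b
      simp only [mul_sub, Finset.sum_sub_distrib, mul_ite, mul_one, mul_zero, Finset.sum_ite_eq,
        Finset.mem_univ, if_true]
      ring
    simp only [e2, Finset.sum_sub_distrib]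
    have e3 : ∑ a, ∑ b, m1 μ N b * m3 μ N x x a b a = 0 := by
      rw [Finset.sum_comm]
      refine Finset.sum_eq_zero fun b _ => ?_
      rw [← Finset.mul_sum, h.sum_Nxx_tr', mul_zero]
    rw [e3, sub_zero]
    refine Finset.sum_congr rfl fun a _ => ?_
    rw [← Finset.mul_sum, h.sum_Nxx_tr, sq]
  rw [e1, Finset.mul_sum, Finset.mul_sum, ← Finset.sum_sub_distrib]
  refine Finset.sum_congr rfl fun a _ => ?_
  rw [Finset.mul_sum, Finset.mul_sum, ← Finset.sum_sub_distrib]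
  refine Finset.sum_congr rfl fun b _ => ?_
  rw [Finset.mul_sum, Finset.mul_sum, ← Finset.sum_sub_distrib]
  refine Finset.sum_congr rfl fun c _ => ?_
  rw [← h.Nxx_sub a b c]
  ring

/-- the mean of `(p - t)^2 s` -/
theorem E_pts (h : T0Data μ m x N) (hm : m + 1 ≠ 0) :
    ∫ q, (ip N x q.1 q.2 - ip x N q.1 q.2) ^ 2 * ip x x q.1 q.2 ∂(μ.prod μ)
      = -((m + 2) * ∑ a, ∑ b, ∑ c, m3 μ x x x a b c ^ 2)
        - 2 * ∑ a, ∑ b, ∑ c, m3 μ N x x a b c ^ 2 + 2 * (∑ a, m1 μ N a ^ 2) / (m + 1) := by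
  have := h.prob
  have e : ∀ q : Ω × Ω, (ip N x q.1 q.2 - ip x N q.1 q.2) ^ 2 * ip x x q.1 q.2
      = ip N x q.1 q.2 * ip N x q.1 q.2 * ip x x q.1 q.2
        - 2 * (ip N x q.1 q.2 * ip x N q.1 q.2 * ip x x q.1 q.2)
        + ip x N q.1 q.2 * ip x N q.1 q.2 * ip x x q.1 q.2 := fun q => by ring
  simp_rw [e]
  rw [int_comb (h.int3 h.bN h.bx h.bN h.bx h.bx h.bx) (h.int3 h.bN h.bx h.bx h.bN h.bx h.bx)
    (h.int3 h.bx h.bN h.bx h.bN h.bx h.bx), E2_three h.bN h.bx h.bN h.bx h.bx h.bx,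
    E2_three h.bN h.bx h.bx h.bN h.bx h.bx, E2_three h.bx h.bN h.bx h.bN h.bx h.bx]
  have h1 : ∑ a, ∑ b, ∑ c, m3 μ N N x a b c * m3 μ x x x a b c
      = -((m + 2) / 2) * ∑ a, ∑ b, ∑ c, m3 μ x x x a b c ^ 2 := by
    simp only [Finset.mul_sum]
    refine Finset.sum_congr rfl fun a _ => Finset.sum_congr rfl fun b _ =>
      Finset.sum_congr rfl fun c _ => ?_
    rw [h.NNx]
    ring
  have h2 : ∑ a, ∑ b, ∑ c, m3 μ x x x a b c * m3 μ N N x a b c
      = -((m + 2) / 2) * ∑ a, ∑ b, ∑ c, m3 μ x x x a b c ^ 2 := by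
    rw [← h1]
    exact Finset.sum_congr rfl fun a _ => Finset.sum_congr rfl fun b _ =>
      Finset.sum_congr rfl fun c _ => mul_comm _ _
  have h3 : ∀ a b c, m3 μ x N x a b c = m3 μ N x x b a c := fun a b c =>
    integral_congr_ae (Eventually.of_forall fun ω => by ring)
  have h4 : ∑ a, ∑ b, ∑ c, m3 μ N x x a b c * m3 μ x N x a b c
      = ∑ a, ∑ b, ∑ c, m3 μ N x x a b c ^ 2 - (∑ a, m1 μ N a ^ 2) / (m + 1) := by
    simp_rw [h3]
    have h5 := h.Y_twist
    field_simp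
    linarith
  rw [h1, h2, h4]
  ring

end T0Data

end

end Vale.Agent.P224.R2.H728
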