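import Vale.Agent.P224.R2.H728.T0f
import Mathlib.Analysis.InnerProductSpace.Symmetric

/-!
The least squares symmetric matrix of the normal field.
-/

namespace Vale.Agent.P224.R2.H728

open MeasureTheory Set Filter Function Real Finset Matrix

set_option linter.unusedSectionVars false

/-- the anticommutator with a symmetric positive matrix: solvability -/
theorem exists_anticomm {ι : Type*} [Fintype ι] [DecidableEq ι] {G C : Matrix ι ι ℝ}
    (hG : G.IsSymm) (hC : C.IsSymm)
    (hpos : ∀ K : Matrix ι ι ℝ, K * G + G * K = 0 → (K * C).trace = 0 ∧ (Kᵀ * C).trace = 0) :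
    ∃ J : Matrix ι ι ℝ, J.IsSymm ∧ J * G + G * J = C := by
  classical
  let E := EuclideanSpace ℝ (ι × ι)
  let toM : E →ₗ[ℝ] Matrix ι ι ℝ :=
    { toFun := fun K => Matrix.of fun a b => K (a, b)
      map_add' := fun K L => rfl
      map_smul' := fun c K => rfl }
  let ofM : Matrix ι ι ℝ →ₗ[ℝ] E :=
    { toFun := fun K => WithLp.toLp 2 fun q => K q.1 q.2
      map_add' := fun K L => rfl
      map_smul' := fun c K => rfl }
  have h1 : ∀ K, toM (ofM K) = K := fun K => by ext a b; rfl
  have h2 : ∀ K, ofM (toM K) = K := fun K => by ext q; rfl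
  let Tm : Matrix ι ι ℝ →ₗ[ℝ] Matrix ι ι ℝ :=
    LinearMap.mulRight ℝ G + LinearMap.mulLeft ℝ G
  have hTm : ∀ K, Tm K = K * G + G * K := fun K => rfl
  let T : E →ₗ[ℝ] E := ofM ∘ₗ Tm ∘ₗ toM
  have hin : ∀ K L : E, inner ℝ K L = (toM K * (toM L)ᵀ).trace := by
    intro K L
    rw [PiLp.inner_apply, Fintype.sum_prod_type]
    simp only [Matrix.trace, Matrix.diag_apply, Matrix.mul_apply, Matrix.transpose_apply]
    refine Finset.sum_congr rfl fun a _ => Finset.sum_congr rfl fun b _ => ?_
    exact mul_comm (L (a, b)) (K (a, b))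
  have hT : T.IsSymmetric := by
    intro K L
    rw [hin, hin]
    change (toM (ofM (Tm (toM K))) * (toM L)ᵀ).trace = (toM K * (toM (ofM (Tm (toM L))))ᵀ).trace
    rw [h1, h1, hTm, hTm]
    set A := toM K
    set B := toM L
    rw [Matrix.add_mul, transpose_add, transpose_mul, transpose_mul, Matrix.mul_add, hG,
      trace_add, trace_add, Matrix.mul_assoc, Matrix.mul_assoc, Matrix.trace_mul_comm G,
      Matrix.mul_assoc]
  have hr : LinearMap.range T = (LinearMap.ker T)ᗮ := by
    rw [← hT.orthogonal_range, Submodule.orthogonal_orthogonal]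
  have hmem : ofM C ∈ LinearMap.range T := by
    rw [hr, Submodule.mem_orthogonal]
    intro K hK
    have hK1 : Tm (toM K) = 0 := by
      have : T K = 0 := hK
      have h3 : toM (T K) = 0 := by rw [this, map_zero]
      have h4 : toM (T K) = Tm (toM K) := h1 _
      rwa [h4] at h3
    rw [hTm] at hK1
    rw [hin, h1, hC]
    exact (hpos _ hK1).1
  obtain ⟨K, hK⟩ := hmem
  have hK1 : toM K * G + G * toM K = C := by
    have : toM (T K) = C := by rw [hK, h1]
    have h4 : toM (T K) = Tm (toM K) := h1 _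
    rw [h4, hTm] at this
    exact this
  set K' := toM K
  refine ⟨(1 / 2 : ℝ) • (K' + K'ᵀ), ?_, ?_⟩
  · unfold Matrix.IsSymm
    rw [transpose_smul, transpose_add, transpose_transpose, add_comm]
  · have hK2 : K'ᵀ * G + G * K'ᵀ = C := by
      have := congrArg Matrix.transpose hK1
      rw [transpose_add, transpose_mul, transpose_mul, hG, hC] at this
      rw [add_comm]
      exact this
    rw [Matrix.smul_mul, Matrix.mul_smul, ← smul_add, Matrix.add_mul, Matrix.mul_add]
    have e : K' * G + K'ᵀ * G + (G * K' + G * K'ᵀ) = (2 : ℝ) • C := by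
      rw [two_smul]
      nth_rewrite 1 [← hK1]
      rw [← hK2]
      abel
    rw [e, smul_smul]
    norm_num

section

variable {ι Ω : Type*} [Fintype ι] [DecidableEq ι] [MeasurableSpace Ω] {μ : Measure Ω}
  {m : ℝ} {x N : ι → Ω → ℝ}

/-- coordinates of the defect -/
def ze (J : Matrix ι ι ℝ) (x N : ι → Ω → ℝ) (a : ι) (ω : Ω) : ℝ := N a ω - ∑ c, J a c * x c ω

lemma et_apply (J : Matrix ι ι ℝ) (ω : Ω) (a : ι) : et J x N ω a = ze J x N a ω := rfl

lemma vc_ze (J : Matrix ι ι ℝ) (ω : Ω) : vc (ze J x N) ω = et J x N ω := rfl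

lemma BM.ze (J : Matrix ι ι ℝ) (hx : ∀ a, BM (x a)) (hN : ∀ a, BM (N a)) (a : ι) :
    BM (ze J x N a) :=
  (hN a).sub (BM.sum _ fun c _ => (hx c).const_mul _)

/-- the least squares condition -/
def LSq (μ : Measure Ω) (J : Matrix ι ι ℝ) (x N : ι → Ω → ℝ) : Prop :=
  ∀ a b, m2 μ (ze J x N) x a b = -m2 μ (ze J x N) x b a

namespace T0Data

lemma bz (h : T0Data μ m x N) (J : Matrix ι ι ℝ) (a : ι) : BM (ze J x N a) :=
  BM.ze J h.bx h.bN a

lemma ze_x (h : T0Data μ m x N) (J : Matrix ι ι ℝ) (a b : ι) :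
    m2 μ (ze J x N) x a b = m2 μ N x a b - ∑ c, J a c * m2 μ x x c b := by
  have := h.prob
  unfold m2
  have e : ∀ ω, ze J x N a ω * x b ω = N a ω * x b ω - ∑ c, J a c * (x c ω * x b ω) := by
    intro ω
    unfold ze
    rw [sub_mul, Finset.sum_mul]
    congr 1
    exact Finset.sum_congr rfl fun c _ => by ring
  simp_rw [e]
  have i1 : ∀ c, BM (fun ω => J a c * (x c ω * x b ω)) := fun c =>
    ((h.bx c).mul (h.bx b)).const_mul _
  rw [integral_sub ((h.bN a).mul (h.bx b)).int (BM.sum _ fun c _ => i1 c).int,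
    integral_finsetSum _ fun c _ => (i1 c).int]
  congr 1
  exact Finset.sum_congr rfl fun c _ => integral_const_mul _ _

/-- a null direction of the second moment is null for the mixed moment -/
theorem exists_lsq (h : T0Data μ m x N) : ∃ J : Matrix ι ι ℝ, J.IsSymm ∧ LSq μ J x N := by
  have := h.prob
  set G : Matrix ι ι ℝ := Matrix.of (m2 μ x x) with hGd
  set C : Matrix ι ι ℝ := Matrix.of (m2 μ N x) with hCd
  have hG : G.IsSymm := Matrix.IsSymm.ext fun a b => h.G_symm _ _
  have hC : C.IsSymm := Matrix.IsSymm.ext fun a b => h.C_symm _ _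
  have h2C : ((2 : ℝ) • C).IsSymm := by
    unfold Matrix.IsSymm
    rw [transpose_smul, hC]
  -- the quadratic form
  have hq : ∀ K : Matrix ι ι ℝ, (K * G * Kᵀ).trace = ∫ ω, ∑ a, (∑ c, K a c * x c ω) ^ 2 ∂μ := by
    intro K
    have e : ∀ ω, ∑ a, (∑ c, K a c * x c ω) ^ 2
        = ∑ a, ∑ b, ∑ c, K a c * K a b * (x c ω * x b ω) := by
      intro ω
      refine Finset.sum_congr rfl fun a _ => ?_
      rw [sq, Finset.sum_mul_sum, Finset.sum_comm]
      exact Finset.sum_congr rfl fun b _ => Finset.sum_congr rfl fun c _ => by ring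
    simp_rw [e]
    have i1 : ∀ a b c, BM (fun ω => K a c * K a b * (x c ω * x b ω)) := fun a b c =>
      ((h.bx c).mul (h.bx b)).const_mul _
    have i2 : ∀ a b, BM (fun ω => ∑ c, K a c * K a b * (x c ω * x b ω)) := fun a b =>
      BM.sum _ fun c _ => i1 a b c
    have i3 : ∀ a, BM (fun ω => ∑ b, ∑ c, K a c * K a b * (x c ω * x b ω)) := fun a =>
      BM.sum _ fun b _ => i2 a b
    rw [integral_finsetSum _ fun a _ => (i3 a).int]
    simp only [Matrix.trace, Matrix.diag_apply, Matrix.mul_apply, Matrix.transpose_apply]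
    refine Finset.sum_congr rfl fun a _ => ?_
    rw [integral_finsetSum _ fun b _ => (i2 a b).int]
    refine Finset.sum_congr rfl fun b _ => ?_
    rw [integral_finsetSum _ fun c _ => (i1 a b c).int, Finset.sum_mul]
    refine Finset.sum_congr rfl fun c _ => ?_
    rw [integral_const_mul]
    simp only [hGd, Matrix.of_apply, m2]
    ring
  have hnn : ∀ K : Matrix ι ι ℝ, 0 ≤ (K * G * Kᵀ).trace := fun K => by
    rw [hq]
    exact integral_nonneg fun ω => Finset.sum_nonneg fun a _ => sq_nonneg _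
  have hz : ∀ K : Matrix ι ι ℝ, (K * G * Kᵀ).trace = 0 → (Kᵀ * C).trace = 0 := by
    intro K hK
    rw [hq] at hK
    have bK : ∀ a, BM (fun ω => ∑ c, K a c * x c ω) := fun a =>
      BM.sum _ fun c _ => (h.bx c).const_mul _
    have h0 := (integral_eq_zero_iff_of_nonneg
      (fun ω => Finset.sum_nonneg fun a _ => sq_nonneg _)
      (BM.sum _ fun a _ => (bK a).pow 2).int).1 hK
    have e : (Kᵀ * C).trace = ∫ ω, ∑ a, N a ω * ∑ c, K a c * x c ω ∂μ := by
      have e1 : ∀ ω, ∑ a, N a ω * ∑ c, K a c * x c ω = ∑ a, ∑ c, K a c * (N a ω * x c ω) := by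
        intro ω
        refine Finset.sum_congr rfl fun a _ => ?_
        rw [Finset.mul_sum]
        exact Finset.sum_congr rfl fun c _ => by ring
      simp_rw [e1]
      have i1 : ∀ a c, BM (fun ω => K a c * (N a ω * x c ω)) := fun a c =>
        ((h.bN a).mul (h.bx c)).const_mul _
      rw [integral_finsetSum _ fun a _ => (BM.sum _ fun c _ => i1 a c).int]
      simp only [Matrix.trace, Matrix.diag_apply, Matrix.mul_apply, Matrix.transpose_apply]
      rw [Finset.sum_comm]
      refine Finset.sum_congr rfl fun a _ => ?_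
      rw [integral_finsetSum _ fun c _ => (i1 a c).int]
      refine Finset.sum_congr rfl fun c _ => ?_
      rw [integral_const_mul]
      rfl
    rw [e]
    refine integral_eq_zero_of_ae ?_
    filter_upwards [h0] with ω hω
    have h1 : ∑ a, (∑ c, K a c * x c ω) ^ 2 = 0 := hω
    rw [Finset.sum_eq_zero_iff_of_nonneg fun a _ => sq_nonneg _] at h1
    refine Finset.sum_eq_zero fun a ha => ?_
    rw [pow_eq_zero_iff two_ne_zero |>.1 (h1 a ha), mul_zero]
  obtain ⟨J, hJ, hJ2⟩ := exists_anticomm hG h2C (fun K hK => by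
    have h1 : (K * G * Kᵀ).trace + (Kᵀ * G * K).trace = 0 := by
      have h2 : ((K * G + G * K) * Kᵀ).trace = 0 := by rw [hK]; simp
      rw [Matrix.add_mul, trace_add] at h2
      have h3 : (G * K * Kᵀ).trace = (Kᵀ * G * K).trace := by
        rw [Matrix.trace_mul_comm, ← Matrix.mul_assoc]
      rw [h3] at h2
      exact h2
    have h4 := hnn K
    have h5 := hnn Kᵀ
    rw [transpose_transpose] at h5
    have h6 : (K * G * Kᵀ).trace = 0 := by linarith
    have h7 : (Kᵀ * G * Kᵀᵀ).trace = 0 := by rw [transpose_transpose]; linarith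
    have h8 := hz K h6
    have h9 := hz Kᵀ h7
    rw [transpose_transpose] at h9
    constructor
    · rw [Matrix.mul_smul, trace_smul, h9, smul_zero]
    · rw [Matrix.mul_smul, trace_smul, h8, smul_zero])
  refine ⟨J, hJ, fun a b => ?_⟩
  rw [h.ze_x, h.ze_x]
  have h1 : (J * G + G * J) a b = ((2 : ℝ) • C) a b := by rw [hJ2]
  simp only [Matrix.add_apply, Matrix.mul_apply, Matrix.smul_apply, smul_eq_mul, hGd, hCd,
    Matrix.of_apply] at h1
  have h2 : ∑ c, m2 μ x x a c * J c b = ∑ c, J b c * m2 μ x x c a :=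
    Finset.sum_congr rfl fun c _ => by rw [hJ.apply c b, h.G_symm a c, mul_comm]
  rw [h2] at h1
  rw [h.C_symm b a]
  linarith

end T0Data

end

end Vale.Agent.P224.R2.H728
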