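import Vale.Agent.P224.R2.H728.T0h

/-!
Cubic functionals and the second form of the mean normal identity.
-/

namespace Vale.Agent.P224.R2.H728

open MeasureTheory Set Filter Function Real Finset Matrix

set_option linter.unusedSectionVars false

section

variable {ι Ω : Type*} [Fintype ι] [DecidableEq ι] [MeasurableSpace Ω] {μ : Measure Ω}
  {m : ℝ} {x N : ι → Ω → ℝ}

variable (μ) in
/-- cubic functionals -/
noncomputable def q3 (f g k : ι → Ω → ℝ) (F : Matrix ι ι ℝ) (a : ι) : ℝ :=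
  ∫ ω, f a ω * (vc g ω ⬝ᵥ (F *ᵥ vc k ω)) ∂μ

section lin

variable [IsFiniteMeasure μ] {f f' g g' k k' : ι → Ω → ℝ}

lemma q3_sum (hf : ∀ a, BM (f a)) (hg : ∀ a, BM (g a)) (hk : ∀ a, BM (k a))
    (F : Matrix ι ι ℝ) (a : ι) :
    q3 μ f g k F a = ∑ b, ∑ c, F b c * m3 μ f g k a b c := int_qf F (hf a) hg hk

lemma q3_add (hf : ∀ a, BM (f a)) (hg : ∀ a, BM (g a)) (hk : ∀ a, BM (k a))
    (F F' : Matrix ι ι ℝ) (a : ι) :
    q3 μ f g k (F + F') a = q3 μ f g k F a + q3 μ f g k F' a := by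
  simp only [q3_sum hf hg hk, Matrix.add_apply, add_mul, Finset.sum_add_distrib]

lemma q3_sub (hf : ∀ a, BM (f a)) (hg : ∀ a, BM (g a)) (hk : ∀ a, BM (k a))
    (F F' : Matrix ι ι ℝ) (a : ι) :
    q3 μ f g k (F - F') a = q3 μ f g k F a - q3 μ f g k F' a := by
  simp only [q3_sum hf hg hk, Matrix.sub_apply, sub_mul, Finset.sum_sub_distrib]

lemma q3_smul (hf : ∀ a, BM (f a)) (hg : ∀ a, BM (g a)) (hk : ∀ a, BM (k a))
    (c : ℝ) (F : Matrix ι ι ℝ) (a : ι) :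
    q3 μ f g k (c • F) a = c * q3 μ f g k F a := by
  simp only [q3_sum hf hg hk, Matrix.smul_apply, smul_eq_mul, mul_assoc, Finset.mul_sum]

end lin

namespace T0Data

variable (h : T0Data μ m x N)
include h

lemma q3_xNN (F : Matrix ι ι ℝ) (a : ι) :
    q3 μ x N N F a = -((m + 2) / 2) * q3 μ x x x F a := by
  have := h.prob
  rw [q3_sum h.bx h.bN h.bN, q3_sum h.bx h.bx h.bx, Finset.mul_sum]
  refine Finset.sum_congr rfl fun b _ => ?_
  rw [Finset.mul_sum]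
  refine Finset.sum_congr rfl fun c _ => ?_
  have e1 : m3 μ x N N a b c = m3 μ N N x b c a :=
    integral_congr_ae (Eventually.of_forall fun ω => by ring)
  have e2 : m3 μ x x x a b c = m3 μ x x x b c a :=
    integral_congr_ae (Eventually.of_forall fun ω => by ring)
  rw [e1, e2, h.NNx]
  ring

lemma q3_NNx (F : Matrix ι ι ℝ) (a : ι) :
    q3 μ N N x F a = -((m + 2) / 2) * q3 μ x x x F a := by
  have := h.prob
  rw [q3_sum h.bN h.bN h.bx, q3_sum h.bx h.bx h.bx, Finset.mul_sum]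
  refine Finset.sum_congr rfl fun b _ => ?_
  rw [Finset.mul_sum]
  refine Finset.sum_congr rfl fun c _ => ?_
  rw [h.NNx]
  ring

lemma q3_NxN {F : Matrix ι ι ℝ} (hF : F.IsSymm) (a : ι) :
    q3 μ N x N F a = -((m + 2) / 2) * q3 μ x x x F a := by
  rw [← h.q3_NNx]
  refine integral_congr_ae (Eventually.of_forall fun ω => ?_)
  simp only
  rw [← dot_symm hF, dotProduct_comm]

lemma q3_xxN {F : Matrix ι ι ℝ} (hF : F.IsSymm) (a : ι) :
    q3 μ x x N F a = q3 μ x N x F a := by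
  refine integral_congr_ae (Eventually.of_forall fun ω => ?_)
  simp only
  rw [← dot_symm hF, dotProduct_comm]

lemma q3_diff {F : Matrix ι ι ℝ} (hF : F.IsSymm) (a : ι) :
    (m + 1) * (q3 μ N x x F a - q3 μ x N x F a)
      = m1 μ N a * F.trace - (F *ᵥ m1 μ N) a := by
  have := h.prob
  rw [q3_sum h.bN h.bx h.bx, q3_sum h.bx h.bN h.bx, ← Finset.sum_sub_distrib, Finset.mul_sum]
  have e : ∀ b, (m + 1) * (∑ c, F b c * m3 μ N x x a b c - ∑ c, F b c * m3 μ x N x a b c)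
      = m1 μ N a * F b b - m1 μ N b * F b a := by
    intro b
    rw [← Finset.sum_sub_distrib, Finset.mul_sum]
    have e1 : ∀ c, (m + 1) * (F b c * m3 μ N x x a b c - F b c * m3 μ x N x a b c)
        = F b c * (m1 μ N a * (if b = c then 1 else 0) - m1 μ N b * (if a = c then 1 else 0)) := by
      intro c
      have h1 := h.Nxx_sub a b c
      have e2 : m3 μ x N x a b c = m3 μ N x x b a c :=
        integral_congr_ae (Eventually.of_forall fun ω => by ring)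
      rw [← h1, e2]
      ring
    simp_rw [e1]
    simp only [mul_sub, Finset.sum_sub_distrib, mul_ite, mul_one, mul_zero, Finset.sum_ite_eq,
      Finset.mem_univ, if_true]
    ring
  simp_rw [e]
  rw [Finset.sum_sub_distrib, ← Finset.mul_sum]
  congr 1
  simp only [mulVec, dotProduct]
  refine Finset.sum_congr rfl fun b _ => ?_
  rw [hF.apply a b]
  ring

lemma q3_one_N (a : ι) : q3 μ N x x 1 a = m1 μ N a := by
  refine integral_congr_ae (Eventually.of_forall fun ω => ?_)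
  simp only
  rw [one_mulVec, h.vv, mul_one]

lemma q3_one_x (a : ι) : q3 μ x N x 1 a = 0 := by
  refine Eq.trans (integral_congr_ae (g := fun _ => (0 : ℝ)) (Eventually.of_forall fun ω => ?_))
    (by simp)
  simp only
  rw [one_mulVec, h.nv, mul_zero]

/-- `E x <zeta, K zeta>` -/
lemma t2 {J K : Matrix ι ι ℝ} (hJ : J.IsSymm) (hK : K.IsSymm) (hc : K * J = J * K) (a : ι) :
    ∫ ω, x a ω * (et J x N ω ⬝ᵥ (K *ᵥ et J x N ω)) ∂μ
      = -((m + 2) / 2) * q3 μ x x x K a - 2 * q3 μ x N x (K * J) a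
        + q3 μ x x x (K * J * J) a := by
  have := h.prob
  rw [← h.q3_xNN]
  have e : ∀ ω, x a ω * (et J x N ω ⬝ᵥ (K *ᵥ et J x N ω))
      = x a ω * (vc N ω ⬝ᵥ (K *ᵥ vc N ω)) - 2 * (x a ω * (vc N ω ⬝ᵥ ((K * J) *ᵥ vc x ω)))
        + x a ω * (vc x ω ⬝ᵥ ((K * J * J) *ᵥ vc x ω)) := by
    intro ω
    have h1 : (J *ᵥ vc x ω) ⬝ᵥ (K *ᵥ vc N ω) = vc N ω ⬝ᵥ ((K * J) *ᵥ vc x ω) := by
      rw [← dot_symm hK, dotProduct_comm, mulVec_mulVec]
    have h2 : (J *ᵥ vc x ω) ⬝ᵥ (K *ᵥ (J *ᵥ vc x ω)) = vc x ω ⬝ᵥ ((K * J * J) *ᵥ vc x ω) := by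
      rw [dot_symm hJ, mulVec_mulVec, mulVec_mulVec, hc]
    unfold et
    rw [mulVec_sub, sub_dotProduct, dotProduct_sub, dotProduct_sub, h1, h2, mulVec_mulVec]
    ring
  simp_rw [e]
  have b1 := (h.bx a).mul (BM.qf K h.bN h.bN)
  have b2 := (h.bx a).mul (BM.qf (K * J) h.bN h.bx)
  have b3 := (h.bx a).mul (BM.qf (K * J * J) h.bx h.bx)
  rw [integral_add (b1.sub (b2.const_mul 2)).int b3.int, integral_sub b1.int (b2.const_mul 2).int,
    integral_const_mul]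
  rfl

/-- `E zeta <x, F x>` -/
lemma t3 {J : Matrix ι ι ℝ} (F : Matrix ι ι ℝ) (a : ι) :
    ∫ ω, et J x N ω a * (vc x ω ⬝ᵥ (F *ᵥ vc x ω)) ∂μ
      = q3 μ N x x F a - (J *ᵥ q3 μ x x x F) a := by
  have := h.prob
  have bq := BM.qf F h.bx h.bx
  have e : ∀ ω, et J x N ω a * (vc x ω ⬝ᵥ (F *ᵥ vc x ω))
      = N a ω * (vc x ω ⬝ᵥ (F *ᵥ vc x ω))
        - ∑ c, J a c * (x c ω * (vc x ω ⬝ᵥ (F *ᵥ vc x ω))) := by
    intro ω
    rw [et_apply, ze, sub_mul, Finset.sum_mul]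
    congr 1
    exact Finset.sum_congr rfl fun c _ => by ring
  simp_rw [e]
  have i1 : ∀ c, BM (fun ω => J a c * (x c ω * (vc x ω ⬝ᵥ (F *ᵥ vc x ω)))) := fun c =>
    ((h.bx c).mul bq).const_mul _
  rw [integral_sub ((h.bN a).mul bq).int (BM.sum _ fun c _ => i1 c).int,
    integral_finsetSum _ fun c _ => (i1 c).int]
  congr 1
  exact Finset.sum_congr rfl fun c _ => integral_const_mul _ _

/-- `E x <zeta, F x>` -/
lemma t4 {J : Matrix ι ι ℝ} (hJ : J.IsSymm) (F : Matrix ι ι ℝ) (a : ι) :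
    ∫ ω, x a ω * (et J x N ω ⬝ᵥ (F *ᵥ vc x ω)) ∂μ
      = q3 μ x N x F a - q3 μ x x x (J * F) a := by
  have := h.prob
  have e : ∀ ω, x a ω * (et J x N ω ⬝ᵥ (F *ᵥ vc x ω))
      = x a ω * (vc N ω ⬝ᵥ (F *ᵥ vc x ω)) - x a ω * (vc x ω ⬝ᵥ ((J * F) *ᵥ vc x ω)) := by
    intro ω
    unfold et
    rw [sub_dotProduct, dot_symm hJ, mulVec_mulVec]
    ring
  simp_rw [e]
  rw [integral_sub ((h.bx a).mul (BM.qf F h.bN h.bx)).int
    ((h.bx a).mul (BM.qf (J * F) h.bx h.bx)).int]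
  rfl

/-- `E zeta <zeta, F x>` -/
lemma t5 {J : Matrix ι ι ℝ} (hJ : J.IsSymm) (F : Matrix ι ι ℝ) (a : ι) :
    ∫ ω, et J x N ω a * (et J x N ω ⬝ᵥ (F *ᵥ vc x ω)) ∂μ
      = -((m + 2) / 2) * q3 μ x x x F a - q3 μ N x x (J * F) a
        - (J *ᵥ q3 μ x N x F) a + (J *ᵥ q3 μ x x x (J * F)) a := by
  have := h.prob
  have b1 := BM.qf F h.bN h.bx
  have b2 := BM.qf (J * F) h.bx h.bx
  have e : ∀ ω, et J x N ω a * (et J x N ω ⬝ᵥ (F *ᵥ vc x ω))
      = N a ω * (vc N ω ⬝ᵥ (F *ᵥ vc x ω)) - N a ω * (vc x ω ⬝ᵥ ((J * F) *ᵥ vc x ω))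
        - ∑ c, (J a c * (x c ω * (vc N ω ⬝ᵥ (F *ᵥ vc x ω)))
          - J a c * (x c ω * (vc x ω ⬝ᵥ ((J * F) *ᵥ vc x ω)))) := by
    intro ω
    have h1 : et J x N ω ⬝ᵥ (F *ᵥ vc x ω)
        = vc N ω ⬝ᵥ (F *ᵥ vc x ω) - vc x ω ⬝ᵥ ((J * F) *ᵥ vc x ω) := by
      unfold et
      rw [sub_dotProduct, dot_symm hJ, mulVec_mulVec]
    rw [h1, et_apply, ze, sub_mul, Finset.sum_mul, mul_sub]
    congr 1
    exact Finset.sum_congr rfl fun c _ => by ring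
  simp_rw [e]
  have i1 : ∀ c, BM (fun ω => J a c * (x c ω * (vc N ω ⬝ᵥ (F *ᵥ vc x ω)))) := fun c =>
    ((h.bx c).mul b1).const_mul _
  have i2 : ∀ c, BM (fun ω => J a c * (x c ω * (vc x ω ⬝ᵥ ((J * F) *ᵥ vc x ω)))) := fun c =>
    ((h.bx c).mul b2).const_mul _
  rw [integral_sub (((h.bN a).mul b1).sub ((h.bN a).mul b2)).int
      (BM.sum _ fun c _ => (i1 c).sub (i2 c)).int,
    integral_sub ((h.bN a).mul b1).int ((h.bN a).mul b2).int,
    integral_finsetSum _ fun c _ => ((i1 c).sub (i2 c)).int]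
  have e2 : ∀ c, ∫ ω, (J a c * (x c ω * (vc N ω ⬝ᵥ (F *ᵥ vc x ω)))
      - J a c * (x c ω * (vc x ω ⬝ᵥ ((J * F) *ᵥ vc x ω)))) ∂μ
      = J a c * q3 μ x N x F c - J a c * q3 μ x x x (J * F) c := by
    intro c
    rw [integral_sub (i1 c).int (i2 c).int, integral_const_mul, integral_const_mul]
    rfl
  simp_rw [e2]
  rw [Finset.sum_sub_distrib]
  have e3 : ∫ ω, N a ω * (vc N ω ⬝ᵥ (F *ᵥ vc x ω)) ∂μ
      = -((m + 2) / 2) * q3 μ x x x F a := h.q3_NNx F a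
  rw [e3]
  have e4 : ∫ ω, N a ω * (vc x ω ⬝ᵥ ((J * F) *ᵥ vc x ω)) ∂μ = q3 μ N x x (J * F) a := rfl
  rw [e4]
  simp only [mulVec, dotProduct]
  ring

/-- `E N |zeta|^2` -/
lemma t1 {J : Matrix ι ι ℝ} (hJ : J.IsSymm) (a : ι) :
    ∫ ω, N a ω * (et J x N ω ⬝ᵥ et J x N ω) ∂μ
      = 2 * m1 μ N a + (m + 2) * q3 μ x x x J a + q3 μ N x x (Wm J) a := by
  have := h.prob
  have e : ∀ ω, N a ω * (et J x N ω ⬝ᵥ et J x N ω)
      = 2 * N a ω + N a ω * (vc x ω ⬝ᵥ (Wm J *ᵥ vc x ω))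
        - 2 * (N a ω * (vc N ω ⬝ᵥ (J *ᵥ vc x ω))) := by
    intro ω
    unfold et
    rw [et_norm hJ (h.vv ω) (h.nn ω)]
    ring
  simp_rw [e]
  have b2 := (h.bN a).mul (BM.qf (Wm J) h.bx h.bx)
  have b1 := (h.bN a).mul (BM.qf J h.bN h.bx)
  rw [integral_sub (((h.bN a).const_mul 2).add b2).int (b1.const_mul 2).int,
    integral_add ((h.bN a).const_mul 2).int b2.int, integral_const_mul, integral_const_mul]
  have e3 : ∫ ω, N a ω * (vc N ω ⬝ᵥ (J *ᵥ vc x ω)) ∂μ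
      = -((m + 2) / 2) * q3 μ x x x J a := h.q3_NNx J a
  rw [e3]
  have e4 : ∫ ω, N a ω * (vc x ω ⬝ᵥ (Wm J *ᵥ vc x ω)) ∂μ = q3 μ N x x (Wm J) a := rfl
  rw [e4]
  unfold m1
  ring

/-- the second form of the mean normal identity -/
theorem mean_normal' (hm0 : m ≠ 0) (hm : m + 1 ≠ 0) {J Y : Matrix ι ι ℝ} (hJ : J.IsSymm)
    (hY : Y.IsSymm) (hc : Y * J = J * Y) (hYW : ((m + 2) / 2) • Y + J * J * Y = Wm J) (a : ι) :
    m1 μ N a + (2 + 4 / m) * ((m1 μ N a * (Wm J).trace - (Wm J *ᵥ m1 μ N) a) / (m + 1))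
      = 1 / 2 * ∫ ω, N a ω * (et J x N ω ⬝ᵥ et J x N ω) ∂μ
      + (1 + 2 / m) * ∫ ω, x a ω * (et J x N ω ⬝ᵥ (J *ᵥ et J x N ω)) ∂μ
      + (3 / 2 + 4 / m) * ∫ ω, et J x N ω a * (vc x ω ⬝ᵥ (Wm J *ᵥ vc x ω)) ∂μ
      - (1 + 4 / m) * ∫ ω, x a ω * (et J x N ω ⬝ᵥ ((J * J * Y) *ᵥ vc x ω)) ∂μ
      + (1 + 2 / m) * ∫ ω, x a ω * (et J x N ω ⬝ᵥ ((J * Y) *ᵥ et J x N ω)) ∂μ
      + (3 / 2 + 4 / m) * (-(2 * ∫ ω, x a ω * (et J x N ω ⬝ᵥ ((J * Y) *ᵥ et J x N ω)) ∂μ)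
        + 2 * ∫ ω, et J x N ω a * (et J x N ω ⬝ᵥ ((J * Y) *ᵥ vc x ω)) ∂μ
        - (J *ᵥ fun b => ∫ ω, x b ω * (et J x N ω ⬝ᵥ (Y *ᵥ et J x N ω)) ∂μ) a
        + 2 * ((m1 μ N a * (J * J * Y).trace - ((J * J * Y) *ᵥ m1 μ N) a) / (m + 1))) := by
  have := h.prob
  have hJY : (J * Y).IsSymm := by
    unfold Matrix.IsSymm
    rw [transpose_mul, hJ, hY, hc]
  have hV : (J * J * Y).IsSymm := by
    unfold Matrix.IsSymm
    rw [transpose_mul, transpose_mul, hJ, hY, ← Matrix.mul_assoc, hc, Matrix.mul_assoc, hc,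
      ← Matrix.mul_assoc]
  have hW : (Wm J).IsSymm := by
    unfold Wm Matrix.IsSymm
    rw [transpose_sub, transpose_mul, hJ, transpose_one]
  have hc2 : J * Y * J = J * (J * Y) := by rw [Matrix.mul_assoc, hc]
  have hJJ : J * J = 1 + Wm J := by unfold Wm; abel
  have hVW : J * J * Y = Wm J - ((m + 2) / 2) • Y := by rw [← hYW]; abel
  -- linearity
  have lx : ∀ (F F' : Matrix ι ι ℝ) (c : ℝ) (b : ι), q3 μ x x x (F + c • F') b
      = q3 μ x x x F b + c * q3 μ x x x F' b := fun F F' c b => by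
    rw [q3_add h.bx h.bx h.bx, q3_smul h.bx h.bx h.bx]
  have lxN : ∀ (F F' : Matrix ι ι ℝ) (c : ℝ) (b : ι), q3 μ x N x (F + c • F') b
      = q3 μ x N x F b + c * q3 μ x N x F' b := fun F F' c b => by
    rw [q3_add h.bx h.bN h.bx, q3_smul h.bx h.bN h.bx]
  -- the elementary integrals
  rw [h.t1 hJ, h.t2 hJ hJ rfl, h.t3, h.t4 hJ, h.t2 hJ hJY hc2, h.t5 hJ]
  have e1 : (fun b => ∫ ω, x b ω * (et J x N ω ⬝ᵥ (Y *ᵥ et J x N ω)) ∂μ)
      = fun b => -((m + 2) / 2) * q3 μ x x x Y b - 2 * q3 μ x N x (Y * J) b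
        + q3 μ x x x (Y * J * J) b := by
    funext b
    exact h.t2 hJ hY hc b
  rw [e1, hc]
  -- matrix identities
  have k1 : q3 μ x N x (J * J) a = q3 μ x N x (Wm J) a := by
    have := lxN 1 (Wm J) 1 a
    rw [one_smul, ← hJJ, h.q3_one_x] at this
    linarith
  have k2 : q3 μ x x x (J * J * J) a = q3 μ x x x J a + q3 μ x x x (J * Wm J) a := by
    have := lx J (J * Wm J) 1 a
    rw [one_smul, one_mul] at this
    rw [← this]
    congr 1
    rw [Matrix.mul_assoc, hJJ, Matrix.mul_add, Matrix.mul_one]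
  have k3 : J * Y * J = J * J * Y := by rw [hc2, ← Matrix.mul_assoc]
  have k4 : J * J * Y * J = J * (J * J * Y) := by
    simp only [Matrix.mul_assoc, hc]
  have k5 : J * (J * Y) = J * J * Y := by rw [Matrix.mul_assoc]
  have k6 : (m + 2) / 2 * q3 μ x x x (J * Y) a
      = q3 μ x x x (J * Wm J) a - q3 μ x x x (J * (J * J * Y)) a := by
    have := lx (J * (J * J * Y)) (J * Y) ((m + 2) / 2) a
    have e : J * (J * J * Y) + ((m + 2) / 2) • (J * Y) = J * Wm J := by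
      rw [← hYW, Matrix.mul_add, Matrix.mul_smul, add_comm]
    rw [e] at this
    linarith
  have k7 : ∀ b, (m + 2) / 2 * q3 μ x x x Y b
      = q3 μ x x x (Wm J) b - q3 μ x x x (J * J * Y) b := by
    intro b
    have := lx (J * J * Y) Y ((m + 2) / 2) b
    rw [add_comm, hYW] at this
    linarith
  have k8 : (J *ᵥ fun b => -((m + 2) / 2) * q3 μ x x x Y b - 2 * q3 μ x N x (J * Y) b
        + q3 μ x x x (J * Y * J) b) a
      = -(J *ᵥ q3 μ x x x (Wm J)) a + 2 * (J *ᵥ q3 μ x x x (J * J * Y)) a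
        - 2 * (J *ᵥ q3 μ x N x (J * Y)) a := by
    have e : (fun b => -((m + 2) / 2) * q3 μ x x x Y b - 2 * q3 μ x N x (J * Y) b
        + q3 μ x x x (J * Y * J) b)
        = fun b => -q3 μ x x x (Wm J) b + 2 * q3 μ x x x (J * J * Y) b
          - 2 * q3 μ x N x (J * Y) b := by
      funext b
      have := k7 b
      rw [k3]
      linarith
    rw [e]
    simp only [mulVec, dotProduct, Finset.mul_sum, ← Finset.sum_sub_distrib,
      ← Finset.sum_add_distrib, ← Finset.sum_neg_distrib]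
    exact Finset.sum_congr rfl fun b _ => by ring
  rw [k8, k1, k2, k3, k4, k5]
  have r1 := h.q3_diff hW a
  have r2 := h.q3_diff hV a
  have s1 : (m1 μ N a * (Wm J).trace - (Wm J *ᵥ m1 μ N) a) / (m + 1)
      = q3 μ N x x (Wm J) a - q3 μ x N x (Wm J) a := by
    rw [← r1]; field_simp
  have s2 : (m1 μ N a * (J * J * Y).trace - ((J * J * Y) *ᵥ m1 μ N) a) / (m + 1)
      = q3 μ N x x (J * J * Y) a - q3 μ x N x (J * J * Y) a := by
    rw [← r2]; field_simp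
  rw [s1, s2]
  have k9 : -((m + 2) / 2) * q3 μ x x x (J * Y) a
      = -(q3 μ x x x (J * Wm J) a - q3 μ x x x (J * (J * J * Y)) a) := by
    rw [← k6]; ring
  rw [k9]
  field_simp
  ring

end T0Data

end

end Vale.Agent.P224.R2.H728
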