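import Vale.Agent.P224.R2.H728.T0k

/-!
The quadratic form of the mean normal identity in the eigenbasis.
-/

namespace Vale.Agent.P224.R2.H728

open MeasureTheory Set Filter Function Real Finset Matrix

set_option linter.unusedSectionVars false

section

variable {ι Ω : Type*} [Fintype ι] [DecidableEq ι] [MeasurableSpace Ω] {μ : Measure Ω}
  {m : ℝ} {x N : ι → Ω → ℝ} {j : ι → ℝ}

namespace T0Data

variable (h : T0Data μ m x N)
include h

/-- the quadratic form of the mean normal identity, componentwise in the eigenbasis -/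
theorem mean_six (hm : 0 < m) (j : ι → ℝ) (a : ι) :
    m1 μ N a
      + (2 - 4 / m * (j a ^ 2 - 1)) * ((m1 μ N a * (∑ b, (j b ^ 2 - 1))
          - (j a ^ 2 - 1) * m1 μ N a) / (m + 1))
      - (2 - 8 / m * (j a ^ 2 - 1)) * ((m1 μ N a * (∑ b, j b ^ 2 * yd m j b)
          - j a ^ 2 * yd m j a * m1 μ N a) / (m + 1))
      + j a * ((m1 μ N a * (∑ b, j b) - j a * m1 μ N a) / (m + 1))
      = 1 / 2 * ∫ ω, N a ω * sqw (fun _ => 1) (zd j x N) (zd j x N) ω ∂μ
      + 1 / 2 * j a * ∫ ω, x a ω * sqw (fun _ => 1) (zd j x N) (zd j x N) ω ∂μ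
      - j a * ∫ ω, zd j x N a ω * sqw (fun _ => 1) (zd j x N) x ω ∂μ
      + (1 - 2 / m * (j a ^ 2 - 1)) * ∫ ω, x a ω * sqw j (zd j x N) (zd j x N) ω ∂μ
      + (3 / 2 - 4 / m * (j a ^ 2 - 1)) * ∫ ω, zd j x N a ω * sqw (fun b => j b ^ 2 - 1) x x ω ∂μ
      - (1 - 6 / m * (j a ^ 2 - 1))
        * ∫ ω, x a ω * sqw (fun b => j b * yd m j b) (zd j x N) (zd j x N) ω ∂μ
      + (2 - 8 / m * (j a ^ 2 - 1))
        * ∫ ω, zd j x N a ω * sqw (fun b => j b * yd m j b) (zd j x N) x ω ∂μ
      - (1 - 4 / m * (j a ^ 2 - 1)) * j a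
        * ∫ ω, x a ω * sqw (yd m j) (zd j x N) (zd j x N) ω ∂μ
      + 4 / m * (j a ^ 2 - 1)
        * ∫ ω, x a ω * sqw (fun b => j b ^ 2 * yd m j b) (zd j x N) x ω ∂μ := by
  have := h.prob
  set z := zd j x N with hz
  have bz : ∀ a, BM (z a) := h.bzd j
  set w : ι → ℝ := fun b => j b ^ 2 - 1 with hw
  set y : ι → ℝ := yd m j with hy
  have hJ : (diagonal j : Matrix ι ι ℝ).IsSymm := isSymm_diagonal j
  have hY : (diagonal y : Matrix ι ι ℝ).IsSymm := isSymm_diagonal y
  have h1s : (1 : Matrix ι ι ℝ).IsSymm := isSymm_one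
  have hc : (diagonal y : Matrix ι ι ℝ) * diagonal j = diagonal j * diagonal y := by
    rw [diagonal_mul_diagonal, diagonal_mul_diagonal]
    congr 1
    funext a
    exact mul_comm _ _
  have hWm : Wm (diagonal j : Matrix ι ι ℝ) = diagonal w := by
    unfold Wm
    rw [diagonal_mul_diagonal]
    ext a b
    rcases eq_or_ne a b with rfl | hab
    · simp only [Matrix.sub_apply, diagonal_apply_eq, one_apply_eq, hw]
      ring
    · simp only [Matrix.sub_apply, diagonal_apply_ne _ hab, one_apply_ne hab, sub_zero]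
  have evc : ∀ (f : ι → Ω → ℝ) (ω : Ω), vc f ω = fun a => f a ω := fun f ω => rfl
  have d1 : (1 : Matrix ι ι ℝ) = Matrix.diagonal fun _ => (1 : ℝ) := Matrix.diagonal_one.symm
  have e1 : ∀ ω, (fun a => zd j x N a ω) ⬝ᵥ (fun a => zd j x N a ω) = sqw (fun _ => 1) z z ω := by
    intro ω
    simp only [dotProduct, one_mul, sqw]
    rfl
  -- linear functionals of diagonal matrices
  set A : (ι → ℝ) → ℝ := fun d => q3 μ x x x (diagonal d) a with hA
  set S : (ι → ℝ) → ℝ := fun d => q3 μ x N x (diagonal d) a with hS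
  set B : (ι → ℝ) → ℝ := fun d => q3 μ N x x (diagonal d) a with hB
  have lA : ∀ (d d' : ι → ℝ) (c c' : ℝ), A (fun b => c * d b + c' * d' b) = c * A d + c' * A d' := by
    intro d d' c c'
    simp only [hA]
    rw [← q3_smul h.bx h.bx h.bx, ← q3_smul h.bx h.bx h.bx, ← q3_add h.bx h.bx h.bx]
    congr 1
    ext a b
    rcases eq_or_ne a b with rfl | hab
    · simp
    · simp [hab]
  have lS : ∀ (d d' : ι → ℝ) (c c' : ℝ), S (fun b => c * d b + c' * d' b) = c * S d + c' * S d' := by
    intro d d' c c'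
    simp only [hS]
    rw [← q3_smul h.bx h.bN h.bx, ← q3_smul h.bx h.bN h.bx, ← q3_add h.bx h.bN h.bx]
    congr 1
    ext a b
    rcases eq_or_ne a b with rfl | hab
    · simp
    · simp [hab]
  have S1 : S (fun _ => 1) = 0 := by
    simp only [hS, ← d1]
    exact h.q3_one_x a
  have A1 : A (fun _ => 1) = 0 := by
    have h1 := h.q3_xNN 1 a
    have h2 : q3 μ x N N 1 a = 0 := by
      have e : q3 μ x N N 1 a = ∫ ω, x a ω ∂μ := by
        refine integral_congr_ae (Eventually.of_forall fun ω => ?_)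
        simp only
        rw [one_mulVec, h.nn, mul_one]
      rw [e, h.r1]
    rw [h2] at h1
    have h3 : (m + 2) / 2 ≠ 0 := by positivity
    have h4 : q3 μ x x x 1 a = 0 := by
      rcases mul_eq_zero.1 h1.symm with h5 | h5
      · exact absurd (neg_eq_zero.1 h5) h3
      · exact h5
    simp only [hA, ← d1, h4]
  -- the elementary integrals
  have u1 := h.t1 hJ a
  have u2 := h.t2 (K := 1) hJ h1s (by rw [one_mul, mul_one]) a
  have u3 := h.t3 (J := diagonal j) (diagonal j) a
  have u4 := h.t2 hJ hJ rfl a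
  have u5 := h.t3 (J := diagonal j) (diagonal w) a
  have hJYs : (diagonal fun b => j b * y b : Matrix ι ι ℝ).IsSymm := isSymm_diagonal _
  have hcc : (diagonal (fun b => j b * y b) : Matrix ι ι ℝ) * diagonal j
      = diagonal j * diagonal fun b => j b * y b := by
    rw [diagonal_mul_diagonal, diagonal_mul_diagonal]
    congr 1
    funext a
    exact mul_comm _ _
  have u6 := h.t2 hJ hJYs hcc a
  have u7 := h.t5 hJ (diagonal fun b => j b * y b) a
  have u8 := h.t2 hJ hY hc a
  have u9 := h.t4 hJ (diagonal fun b => j b ^ 2 * y b) a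
  simp only [d1, hWm, et_diag, evc, diag_qf, e1, diagonal_mul_diagonal, mulVec_diagonal]
    at u1 u2 u3 u4 u5 u6 u7 u8 u9
  have r1 := h.q3_diff (F := diagonal w) (isSymm_diagonal _) a
  have r2 := h.q3_diff (F := diagonal fun b => j b ^ 2 * y b) (isSymm_diagonal _) a
  have r3 := h.q3_diff hJ a
  simp only [mulVec_diagonal, trace_diagonal] at r1 r2 r3
  have hyw : ∀ b, (m + 2) / 2 * y b + j b ^ 2 * y b = w b := fun b => by
    simp only [hy, hw, yd]
    have : (m + 2) / 2 + j b ^ 2 ≠ 0 := by positivity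
    field_simp
  -- values on products
  have a1 : q3 μ x x x (Matrix.diagonal fun i => 1 * j i * j i) a = A w := by
    have := lA (fun _ => 1) w 1 1
    rw [A1] at this
    have e : (fun b => (1 : ℝ) * 1 + 1 * w b) = fun i => 1 * j i * j i := by
      funext b; simp only [hw]; ring
    rw [e] at this
    change A _ = _
    rw [this]; ring
  have a2 : q3 μ x N x (Matrix.diagonal fun i => 1 * j i) a = S j := by
    simp only [hS, one_mul]
  have a3 : q3 μ x N x (Matrix.diagonal fun i => j i * j i) a = S w := by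
    have := lS (fun _ => 1) w 1 1
    rw [S1] at this
    have e : (fun b => (1 : ℝ) * 1 + 1 * w b) = fun i => j i * j i := by
      funext b; simp only [hw]; ring
    rw [e] at this
    change S _ = _
    rw [this]; ring
  have a4 : q3 μ x x x (Matrix.diagonal fun i => j i * j i * j i) a
      = A j + A fun b => j b * w b := by
    have := lA j (fun b => j b * w b) 1 1
    have e : (fun b => (1 : ℝ) * j b + 1 * (j b * w b)) = fun i => j i * j i * j i := by
      funext b; simp only [hw]; ring
    rw [e] at this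
    change A _ = _
    rw [this]; ring
  have a5 : q3 μ x N x (Matrix.diagonal fun i => j i * y i * j i) a = S fun b => j b ^ 2 * y b := by
    change S _ = _
    congr 1
    funext b; ring
  have a6 : q3 μ x x x (Matrix.diagonal fun i => j i * y i * j i * j i) a
      = A fun b => j b * (j b ^ 2 * y b) := by
    change A _ = _
    congr 1
    funext b; ring
  have a7 : q3 μ N x x (Matrix.diagonal fun i => j i * (j i * y i)) a
      = B fun b => j b ^ 2 * y b := by
    change B _ = _
    congr 1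
    funext b; ring
  have a8 : q3 μ x x x (Matrix.diagonal fun i => j i * (j i * y i)) a
      = A fun b => j b ^ 2 * y b := by
    change A _ = _
    congr 1
    funext b; ring
  have a9 : q3 μ x N x (Matrix.diagonal fun i => y i * j i) a = S fun b => j b * y b := by
    change S _ = _
    congr 1
    funext b; ring
  have a10 : q3 μ x x x (Matrix.diagonal fun i => y i * j i * j i) a
      = A fun b => j b ^ 2 * y b := by
    change A _ = _
    congr 1
    funext b; ring
  have b1 : (m + 2) / 2 * (A fun b => j b * y b)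
      = (A fun b => j b * w b) - A fun b => j b * (j b ^ 2 * y b) := by
    have := lA (fun b => j b * y b) (fun b => j b * (j b ^ 2 * y b)) ((m + 2) / 2) 1
    have e : (fun b => (m + 2) / 2 * (j b * y b) + 1 * (j b * (j b ^ 2 * y b)))
        = fun b => j b * w b := by
      funext b; rw [← hyw]; ring
    rw [e] at this
    rw [this]; ring
  have b2 : (m + 2) / 2 * A y = A w - A fun b => j b ^ 2 * y b := by
    have := lA y (fun b => j b ^ 2 * y b) ((m + 2) / 2) 1
    have e : (fun b => (m + 2) / 2 * y b + 1 * (j b ^ 2 * y b)) = w := by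
      funext b; rw [← hyw]; ring
    rw [e] at this
    rw [this]; ring
  have b3 : ∫ ω, z a ω * sqw (fun _ => 1) z x ω ∂μ = -∫ ω, z a ω * sqw j x x ω ∂μ := by
    rw [← integral_neg]
    refine integral_congr_ae (Eventually.of_forall fun ω => ?_)
    have e : sqw (fun _ => 1) z x ω = -sqw j x x ω := by
      have h0 := h.xN ω
      unfold sqw
      have : ∑ b, 1 * (z b ω * x b ω) = ∑ b, x b ω * N b ω - ∑ b, j b * (x b ω * x b ω) := by
        rw [← Finset.sum_sub_distrib]
        refine Finset.sum_congr rfl fun b _ => ?_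
        simp only [hz, zd]
        ring
      rw [this, h0, zero_sub]
    simp only [e]
    ring
  rw [a1, a2] at u2
  rw [a3, a4] at u4
  rw [a5, a6] at u6
  rw [a7, a8] at u7
  rw [a9, a10] at u8
  have c0 : q3 μ x x x (Matrix.diagonal fun _ => (1 : ℝ)) a = 0 := A1
  rw [c0] at u2
  rw [b3, u1, u2, u3, u4, u5, u6, u7, u8, u9]
  have s1 : (m1 μ N a * (∑ b, w b) - (j a ^ 2 - 1) * m1 μ N a) / (m + 1) = B w - S w := by
    have hm1 : m + 1 ≠ 0 := by positivity
    rw [div_eq_iff hm1]
    exact r1.symm.trans (mul_comm _ _)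
  have s2 : (m1 μ N a * (∑ b, j b ^ 2 * y b) - j a ^ 2 * y a * m1 μ N a) / (m + 1)
      = (B fun b => j b ^ 2 * y b) - S fun b => j b ^ 2 * y b := by
    have hm1 : m + 1 ≠ 0 := by positivity
    rw [div_eq_iff hm1]
    exact r2.symm.trans (mul_comm _ _)
  have s3 : (m1 μ N a * (∑ b, j b) - j a * m1 μ N a) / (m + 1) = B j - S j := by
    have hm1 : m + 1 ≠ 0 := by positivity
    rw [div_eq_iff hm1]
    exact r3.symm.trans (mul_comm _ _)
  rw [s1, s2, s3]
  have k1 : -((m + 2) / 2) * q3 μ x x x (Matrix.diagonal fun b => j b * y b) a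
      = -((A fun b => j b * w b) - A fun b => j b * (j b ^ 2 * y b)) := by
    rw [← b1]; ring
  have k2 : -((m + 2) / 2) * q3 μ x x x (Matrix.diagonal y) a
      = -(A w - A fun b => j b ^ 2 * y b) := by
    rw [← b2]; ring
  rw [k1, k2]
  change _ = 1 / 2 * (2 * m1 μ N a + (m + 2) * A j + B w)
    + 1 / 2 * j a * (-((m + 2) / 2) * 0 - 2 * S j + A w)
    - j a * -(B j - j a * A j)
    + (1 - 2 / m * (j a ^ 2 - 1)) * (-((m + 2) / 2) * A j - 2 * S w + (A j + A fun b => j b * w b))
    + (3 / 2 - 4 / m * (j a ^ 2 - 1)) * (B w - j a * A w)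
    - (1 - 6 / m * (j a ^ 2 - 1)) * (-((A fun b => j b * w b) - A fun b => j b * (j b ^ 2 * y b))
      - 2 * (S fun b => j b ^ 2 * y b) + A fun b => j b * (j b ^ 2 * y b))
    + (2 - 8 / m * (j a ^ 2 - 1)) * (-((A fun b => j b * w b) - A fun b => j b * (j b ^ 2 * y b))
      - (B fun b => j b ^ 2 * y b) - j a * (S fun b => j b * y b)
      + j a * A fun b => j b ^ 2 * y b)
    - (1 - 4 / m * (j a ^ 2 - 1)) * j a * (-(A w - A fun b => j b ^ 2 * y b)
      - 2 * (S fun b => j b * y b) + A fun b => j b ^ 2 * y b)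
    + 4 / m * (j a ^ 2 - 1) * ((S fun b => j b ^ 2 * y b) - A fun b => j b * (j b ^ 2 * y b))
  field_simp
  ring

end T0Data

end

end Vale.Agent.P224.R2.H728
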