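import Vale.Agent.P224.R2.H728.T0f
import Vale.Agent.P224.R2.H728.T0l

/-!
The Bessel bound for the cubic tensor of the defect and the scalar relations in the eigenbasis.
-/

namespace Vale.Agent.P224.R2.H728

open MeasureTheory Set Filter Function Real Finset Matrix

set_option linter.unusedSectionVars false

section

variable {ι Ω : Type*} [Fintype ι] [DecidableEq ι] [MeasurableSpace Ω] {μ : Measure Ω}
  {m : ℝ} {x N : ι → Ω → ℝ} {j : ι → ℝ}

/-- Cauchy-Schwarz for integrals -/
lemma int_cs [IsFiniteMeasure μ] {f g : Ω → ℝ} (hf : BM f) (hg : BM g) :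
    (∫ ω, f ω * g ω ∂μ) ^ 2 ≤ (∫ ω, f ω ^ 2 ∂μ) * ∫ ω, g ω ^ 2 ∂μ := by
  set A := ∫ ω, f ω ^ 2 ∂μ with hA
  set B := ∫ ω, f ω * g ω ∂μ with hB
  set C := ∫ ω, g ω ^ 2 ∂μ with hC
  have hA0 : 0 ≤ A := integral_nonneg fun ω => sq_nonneg _
  have key : ∀ t : ℝ, 0 ≤ A * (t * t) + (2 * B) * t + C := by
    intro t
    have e : A * (t * t) + (2 * B) * t + C = ∫ ω, (t * f ω + g ω) ^ 2 ∂μ := by
      have e1 : ∀ ω, (t * f ω + g ω) ^ 2 = t ^ 2 * f ω ^ 2 + 2 * t * (f ω * g ω) + g ω ^ 2 :=
        fun ω => by ring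
      simp_rw [e1]
      rw [integral_add (((hf.pow 2).const_mul _).add ((hf.mul hg).const_mul _)).int (hg.pow 2).int,
        integral_add ((hf.pow 2).const_mul _).int ((hf.mul hg).const_mul _).int,
        integral_const_mul, integral_const_mul]
      ring
    rw [e]
    exact integral_nonneg fun ω => sq_nonneg _
  have := discrim_le_zero key
  unfold discrim at this
  nlinarith

/-- squared norm of a family of matrices -/
def fro3 (M : ι → Matrix ι ι ℝ) : ℝ := ∑ b, fro (M b)

lemma fro3_nonneg (M : ι → Matrix ι ι ℝ) : 0 ≤ fro3 M :=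
  Finset.sum_nonneg fun _ _ => fro_nonneg _

namespace T0Data

variable (h : T0Data μ m x N)
include h

/-- the mean of the defect is the mean of the normal -/
lemma m1_zd (j : ι → ℝ) (a : ι) : m1 μ (zd j x N) a = m1 μ N a := by
  have := h.prob
  unfold m1 zd
  rw [integral_sub (h.bN a).int ((h.bx a).const_mul _).int, integral_const_mul, h.r1, mul_zero,
    sub_zero]

/-- the Bessel bound -/
theorem bessel (hm : 0 ≤ m) (j : ι → ℝ) (M : ι → Matrix ι ι ℝ) :
    (∑ b, ∑ c, ∑ d, M b c d * m3 μ (zd j x N) x x b c d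
        - ∑ b, m1 μ N b * (M b).trace / (m + 2)) ^ 2
      ≤ 16 / ((m + 1) * (7 * m + 23)) * (∑ b, m2 μ (zd j x N) (zd j x N) b b) * fro3 M := by
  have := h.prob
  set z := zd j x N with hz
  have bz : ∀ a, BM (z a) := h.bzd j
  set κ : ℝ := 16 / ((m + 1) * (7 * m + 23)) with hκ
  have hκ0 : 0 ≤ κ := by positivity
  have hm2 : m + 2 ≠ 0 := by positivity
  -- the trace free part
  set A0 : ι → Matrix ι ι ℝ := fun b => Matrix.of fun c d =>
    m3 μ z x x b c d - m1 μ N b / (m + 2) * (if c = d then 1 else 0) with hA0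
  have sA : ∀ b, (A0 b).IsSymm := fun b => Matrix.IsSymm.ext fun c d => by
    simp only [hA0, Matrix.of_apply]
    have e1 : m3 μ z x x b d c = m3 μ z x x b c d :=
      integral_congr_ae (Eventually.of_forall fun ω => by ring)
    rw [e1]
    simp only [eq_comm]
  have trA : ∀ b, ∑ c, m3 μ z x x b c c = m1 μ N b := by
    intro b
    rw [← h.m1_zd j b]
    unfold m3 m1
    rw [← integral_finsetSum _ fun c _ => (((bz b).mul (h.bx c)).mul (h.bx c)).int]
    refine integral_congr_ae (Eventually.of_forall fun ω => ?_)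
    have e : ∑ c, z b ω * x c ω * x c ω = z b ω * ∑ c, x c ω ^ 2 := by
      rw [Finset.mul_sum]
      exact Finset.sum_congr rfl fun c _ => by ring
    change ∑ c, z b ω * x c ω * x c ω = zd j x N b ω
    rw [e, h.ux, mul_one]
  have hcard : ∑ _c : ι, (1 : ℝ) = m + 2 := by
    rw [Finset.sum_const, nsmul_eq_mul, mul_one, ← h.card]
    rfl
  have tA : ∀ b, (A0 b).trace = 0 := by
    intro b
    simp only [Matrix.trace, Matrix.diag_apply, hA0, Matrix.of_apply, if_true, mul_one,
      Finset.sum_sub_distrib]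
    rw [trA, Finset.sum_const, nsmul_eq_mul]
    have : ((Finset.univ : Finset ι).card : ℝ) = m + 2 := by rw [← h.card]; rfl
    rw [this]
    field_simp
    ring
  -- the norm of the trace free part
  have fA : ∀ b, fro (A0 b) ≤ κ * m2 μ z z b b := by
    intro b
    have e1 : fro (A0 b) = ∫ ω, z b ω * (vc x ω ⬝ᵥ (A0 b *ᵥ vc x ω)) ∂μ := by
      rw [int_qf (A0 b) (bz b) h.bx h.bx]
      have e2 : ∑ c, ∑ d, A0 b c d * (m1 μ N b / (m + 2) * (if c = d then 1 else 0)) = 0 := by
        have : ∀ c, ∑ d, A0 b c d * (m1 μ N b / (m + 2) * (if c = d then 1 else 0))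
            = A0 b c c * (m1 μ N b / (m + 2)) := by
          intro c
          simp
        simp_rw [this]
        rw [← Finset.sum_mul]
        have t := tA b
        simp only [Matrix.trace, Matrix.diag_apply] at t
        rw [t, zero_mul]
      have e3 : fro (A0 b) = ∑ c, ∑ d, A0 b c d * m3 μ z x x b c d
          - ∑ c, ∑ d, A0 b c d * (m1 μ N b / (m + 2) * (if c = d then 1 else 0)) := by
        unfold fro
        simp only [← Finset.sum_sub_distrib]
        refine Finset.sum_congr rfl fun c _ => Finset.sum_congr rfl fun d _ => ?_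
        rw [sq]
        nth_rewrite 2 [hA0]
        simp only [Matrix.of_apply]
        ring
      rw [e3, e2, sub_zero]
      rfl
    have bq := BM.qf (A0 b) h.bx h.bx
    have e4 := int_cs (μ := μ) (bz b) bq
    rw [← e1] at e4
    have e5 := h.quad_bound hm (sA b) (tA b)
    rw [← hκ] at e5
    have e6 : ∫ ω, z b ω ^ 2 ∂μ = m2 μ z z b b :=
      integral_congr_ae (Eventually.of_forall fun ω => sq _)
    rw [e6] at e4
    have e7 : 0 ≤ m2 μ z z b b := by
      rw [← e6]
      exact integral_nonneg fun ω => sq_nonneg _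
    have e8 : fro (A0 b) ^ 2 ≤ m2 μ z z b b * (κ * fro (A0 b)) :=
      e4.trans (mul_le_mul_of_nonneg_left e5 e7)
    have e9 := fro_nonneg (A0 b)
    rcases e9.eq_or_lt with h0 | h0
    · rw [← h0]
      positivity
    · nlinarith
  have fA3 : fro3 A0 ≤ κ * ∑ b, m2 μ z z b b := by
    unfold fro3
    rw [Finset.mul_sum]
    exact Finset.sum_le_sum fun b _ => fA b
  -- the pairing
  have e1 : ∑ b, ∑ c, ∑ d, M b c d * m3 μ z x x b c d - ∑ b, m1 μ N b * (M b).trace / (m + 2)
      = ∑ b, ∑ c, ∑ d, M b c d * A0 b c d := by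
    rw [← Finset.sum_sub_distrib]
    refine Finset.sum_congr rfl fun b _ => ?_
    have : m1 μ N b * (M b).trace / (m + 2)
        = ∑ c, ∑ d, M b c d * (m1 μ N b / (m + 2) * (if c = d then 1 else 0)) := by
      simp only [mul_ite, mul_one, mul_zero, Finset.sum_ite_eq, Finset.mem_univ, if_true,
        Matrix.trace, Matrix.diag_apply]
      rw [← Finset.sum_mul]
      ring
    rw [this]
    simp only [← Finset.sum_sub_distrib]
    refine Finset.sum_congr rfl fun c _ => Finset.sum_congr rfl fun d _ => ?_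
    simp only [hA0, Matrix.of_apply]
    ring
  rw [e1]
  have e2 : (∑ b, ∑ c, ∑ d, M b c d * A0 b c d) ^ 2 ≤ fro3 M * fro3 A0 := by
    have k1 : ∑ b, ∑ c, ∑ d, M b c d * A0 b c d
        = ∑ q : ι × ι × ι, M q.1 q.2.1 q.2.2 * A0 q.1 q.2.1 q.2.2 := by
      rw [Fintype.sum_prod_type]
      exact Finset.sum_congr rfl fun b _ => by rw [Fintype.sum_prod_type]
    have k2 : ∀ K : ι → Matrix ι ι ℝ, fro3 K = ∑ q : ι × ι × ι, K q.1 q.2.1 q.2.2 ^ 2 := by
      intro K
      rw [Fintype.sum_prod_type]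
      exact Finset.sum_congr rfl fun b _ => by rw [Fintype.sum_prod_type]; rfl
    rw [k1, k2, k2]
    exact Finset.sum_mul_sq_le_sq_mul_sq _ _ _
  calc (∑ b, ∑ c, ∑ d, M b c d * A0 b c d) ^ 2 ≤ fro3 M * fro3 A0 := e2
    _ ≤ fro3 M * (κ * ∑ b, m2 μ z z b b) := mul_le_mul_of_nonneg_left fA3 (fro3_nonneg M)
    _ = κ * (∑ b, m2 μ z z b b) * fro3 M := by ring

end T0Data

end

end Vale.Agent.P224.R2.H728
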