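import Vale.Agent.P224.R2.H728.T0n
import Vale.Agent.P224.R2.H728.T0k

/-!
The third moments: the exact form of the mean of `(p - t)^2 s` in the eigenbasis.
-/

namespace Vale.Agent.P224.R2.H728

open MeasureTheory Set Filter Function Real Finset Matrix

set_option linter.unusedSectionVars false

section

variable {ι Ω : Type*} [Fintype ι] [DecidableEq ι] [MeasurableSpace Ω] {μ : Measure Ω}
  {m : ℝ} {x N : ι → Ω → ℝ} {j : ι → ℝ}

/-- triple sums -/
def s3 (f : ι → ι → ι → ℝ) : ℝ := ∑ a, ∑ b, ∑ c, f a b c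

lemma s3_12 (f : ι → ι → ι → ℝ) : s3 f = s3 fun a b c => f b a c := Finset.sum_comm

lemma s3_23 (f : ι → ι → ι → ℝ) : s3 f = s3 fun a b c => f a c b :=
  Finset.sum_congr rfl fun _ _ => Finset.sum_comm

lemma s3_congr {f g : ι → ι → ι → ℝ} (h : ∀ a b c, f a b c = g a b c) : s3 f = s3 g :=
  Finset.sum_congr rfl fun a _ => Finset.sum_congr rfl fun b _ =>
    Finset.sum_congr rfl fun c _ => h a b c

lemma s3_add (f g : ι → ι → ι → ℝ) : (s3 fun a b c => f a b c + g a b c) = s3 f + s3 g := by
  simp only [s3, Finset.sum_add_distrib]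

lemma s3_sub (f g : ι → ι → ι → ℝ) : (s3 fun a b c => f a b c - g a b c) = s3 f - s3 g := by
  simp only [s3, Finset.sum_sub_distrib]

lemma s3_smul (k : ℝ) (f : ι → ι → ι → ℝ) : (s3 fun a b c => k * f a b c) = k * s3 f := by
  simp only [s3, Finset.mul_sum]

lemma s3_nonneg {f : ι → ι → ι → ℝ} (h : ∀ a b c, 0 ≤ f a b c) : 0 ≤ s3 f :=
  Finset.sum_nonneg fun a _ => Finset.sum_nonneg fun b _ => Finset.sum_nonneg fun c _ => h a b c

lemma s3_le {f g : ι → ι → ι → ℝ} (h : ∀ a b c, f a b c ≤ g a b c) : s3 f ≤ s3 g :=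
  Finset.sum_le_sum fun a _ => Finset.sum_le_sum fun b _ => Finset.sum_le_sum fun c _ => h a b c

lemma s3_cs (f g : ι → ι → ι → ℝ) :
    (s3 fun a b c => f a b c * g a b c) ^ 2
      ≤ (s3 fun a b c => f a b c ^ 2) * s3 fun a b c => g a b c ^ 2 := by
  have k : ∀ K : ι → ι → ι → ℝ, s3 K = ∑ q : ι × ι × ι, K q.1 q.2.1 q.2.2 := by
    intro K
    rw [Fintype.sum_prod_type]
    exact Finset.sum_congr rfl fun b _ => by rw [Fintype.sum_prod_type]
  rw [k, k, k]
  exact Finset.sum_mul_sq_le_sq_mul_sq _ _ _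

lemma s3_cs_abs (f g : ι → ι → ι → ℝ) :
    |s3 fun a b c => f a b c * g a b c|
      ≤ √(s3 fun a b c => f a b c ^ 2) * √(s3 fun a b c => g a b c ^ 2) := by
  rw [← Real.sqrt_mul (s3_nonneg fun a b c => sq_nonneg _)]
  exact Real.abs_le_sqrt (s3_cs f g)

variable (μ) in
/-- the contraction of the third moments with the matrix -/
noncomputable def xi (j : ι → ℝ) (x : ι → Ω → ℝ) (b : ι) : ℝ := ∑ a, j a * m3 μ x x x a a b

namespace T0Data

variable (h : T0Data μ m x N)
include h

lemma X12 (a b c : ι) : m3 μ x x x a b c = m3 μ x x x b a c :=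
  integral_congr_ae (Eventually.of_forall fun ω => by ring)

lemma X23 (a b c : ι) : m3 μ x x x a b c = m3 μ x x x a c b :=
  integral_congr_ae (Eventually.of_forall fun ω => by ring)

lemma Z23 (j : ι → ℝ) (a b c : ι) : m3 μ (zd j x N) x x a b c = m3 μ (zd j x N) x x a c b :=
  integral_congr_ae (Eventually.of_forall fun ω => by ring)

/-- `E N x x` through the defect -/
lemma Nxx_eq (j : ι → ℝ) (a b c : ι) :
    m3 μ N x x a b c = j a * m3 μ x x x a b c + m3 μ (zd j x N) x x a b c := by
  have := h.prob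
  have bz := h.bzd j
  unfold m3
  rw [← integral_const_mul, ← integral_add
    ((((h.bx a).mul (h.bx b)).mul (h.bx c)).const_mul _).int
    (((bz a).mul (h.bx b)).mul (h.bx c)).int]
  refine integral_congr_ae (Eventually.of_forall fun ω => ?_)
  simp only [zd]
  ring

/-- the row `E x N N` through the defect -/
lemma xNN_eq (j : ι → ℝ) (a b c : ι) :
    (m + 2) / 2 * m3 μ x x x a b c + j b * j c * m3 μ x x x a b c
      + j b * m3 μ (zd j x N) x x c a b + j c * m3 μ (zd j x N) x x b a c
      + m3 μ x (zd j x N) (zd j x N) a b c = 0 := by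
  have := h.prob
  have bz := h.bzd j
  have h1 := h.NNx b c a
  have e1 : m3 μ N N x b c a = j b * j c * m3 μ x x x a b c
      + j b * m3 μ (zd j x N) x x c a b + j c * m3 μ (zd j x N) x x b a c
      + m3 μ x (zd j x N) (zd j x N) a b c := by
    unfold m3
    rw [← integral_const_mul, ← integral_const_mul, ← integral_const_mul,
      ← integral_add ((((h.bx a).mul (h.bx b)).mul (h.bx c)).const_mul _).int
        ((((bz c).mul (h.bx a)).mul (h.bx b)).const_mul _).int,
      ← integral_add (((((h.bx a).mul (h.bx b)).mul (h.bx c)).const_mul _).add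
        ((((bz c).mul (h.bx a)).mul (h.bx b)).const_mul _)).int
        ((((bz b).mul (h.bx a)).mul (h.bx c)).const_mul _).int,
      ← integral_add ((((((h.bx a).mul (h.bx b)).mul (h.bx c)).const_mul _).add
        ((((bz c).mul (h.bx a)).mul (h.bx b)).const_mul _)).add
        ((((bz b).mul (h.bx a)).mul (h.bx c)).const_mul _)).int
        (((h.bx a).mul (bz b)).mul (bz c)).int]
    refine integral_congr_ae (Eventually.of_forall fun ω => ?_)
    simp only [zd]
    ring
  have e2 : m3 μ x x x b c a = m3 μ x x x a b c := by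
    rw [h.X23 b c a, h.X12 b a c]
  rw [e1, e2] at h1
  linarith

lemma sum_X (a : ι) : ∑ b, m3 μ x x x a b b = 0 := by
  have := h.prob
  unfold m3
  rw [← integral_finsetSum _ fun b _ => (((h.bx a).mul (h.bx b)).mul (h.bx b)).int]
  have e : ∀ ω, ∑ b, x a ω * x b ω * x b ω = x a ω := by
    intro ω
    have : ∑ b, x a ω * x b ω * x b ω = x a ω * ∑ b, x b ω ^ 2 := by
      rw [Finset.mul_sum]
      exact Finset.sum_congr rfl fun b _ => by ring
    rw [this, h.ux, mul_one]
  simp only [e]
  exact h.r1 a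

/-- the three relations of the contracted third moments -/
lemma rel3 (hm : m + 1 ≠ 0) (j : ι → ℝ) :
    (m + 2) / 2 * (s3 fun a b c => m3 μ x x x a b c ^ 2)
        = -(s3 fun a b c => j a * j b * m3 μ x x x a b c ^ 2)
          - 2 * (s3 fun a b c => j a * (m3 μ x x x a b c * m3 μ (zd j x N) x x b a c))
          - (s3 fun a b c => m3 μ x x x a b c * m3 μ x (zd j x N) (zd j x N) a b c)
      ∧ (s3 fun a b c => m3 μ N x x a b c ^ 2)
        = (s3 fun a b c => j a ^ 2 * m3 μ x x x a b c ^ 2)
          + 2 * (s3 fun a b c => j a * (m3 μ x x x a b c * m3 μ (zd j x N) x x a b c))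
          + (s3 fun a b c => m3 μ (zd j x N) x x a b c ^ 2)
      ∧ (s3 fun a b c => j a * (m3 μ x x x a b c * m3 μ (zd j x N) x x a b c))
          - (s3 fun a b c => j a * (m3 μ x x x a b c * m3 μ (zd j x N) x x b a c))
        = (s3 fun a b c => j a * j b * m3 μ x x x a b c ^ 2)
          - (s3 fun a b c => j a ^ 2 * m3 μ x x x a b c ^ 2)
          - (∑ b, m1 μ N b * xi μ j x b) / (m + 1) := by
  set X := m3 μ x x x with hX
  set Z := m3 μ (zd j x N) x x with hZ
  set Y := m3 μ x (zd j x N) (zd j x N) with hY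
  have x12 := h.X12
  have x23 := h.X23
  have z23 := h.Z23 j
  rw [← hX] at x12 x23
  rw [← hZ] at z23
  refine ⟨?_, ?_, ?_⟩
  · have e1 : ∀ a b c, (m + 2) / 2 * X a b c ^ 2 = -(j b * j c * X a b c ^ 2)
        - j b * (X a b c * Z c a b) - j c * (X a b c * Z b a c) - X a b c * Y a b c := by
      intro a b c
      have := h.xNN_eq j a b c
      rw [← hX, ← hZ, ← hY] at this
      linear_combination X a b c * this
    have e2 : (m + 2) / 2 * (s3 fun a b c => X a b c ^ 2)
        = -(s3 fun a b c => j b * j c * X a b c ^ 2)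
          - (s3 fun a b c => j b * (X a b c * Z c a b))
          - (s3 fun a b c => j c * (X a b c * Z b a c)) - s3 fun a b c => X a b c * Y a b c := by
      rw [← s3_smul, s3_congr e1, s3_sub, s3_sub, s3_sub]
      congr 3
      simp only [s3, Finset.sum_neg_distrib]
    have r1 : (s3 fun a b c => j b * j c * X a b c ^ 2) = s3 fun a b c => j a * j b * X a b c ^ 2 := by
      rw [s3_12, s3_23]
      refine s3_congr fun a b c => ?_
      rw [x12 c a b, x23 a c b]
    have r2 : (s3 fun a b c => j b * (X a b c * Z c a b))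
        = s3 fun a b c => j a * (X a b c * Z b a c) := by
      rw [s3_12, s3_23]
      refine s3_congr fun a b c => ?_
      rw [x12 c a b, x23 a c b, z23 b c a]
    have r3 : (s3 fun a b c => j c * (X a b c * Z b a c))
        = s3 fun a b c => j a * (X a b c * Z b a c) := by
      rw [s3_23, s3_12, s3_23]
      refine s3_congr fun a b c => ?_
      rw [x23 c b a, x12 c a b, x23 a c b, z23 b c a]
    rw [e2, r1, r2, r3]
    ring
  · have e1 : ∀ a b c, m3 μ N x x a b c ^ 2 = j a ^ 2 * X a b c ^ 2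
        + 2 * (j a * (X a b c * Z a b c)) + Z a b c ^ 2 := by
      intro a b c
      rw [h.Nxx_eq j]
      ring
    rw [s3_congr e1, s3_add, s3_add, s3_smul]
  · have e1 : ∀ a b c, j a * (X a b c * Z a b c) - j a * (X a b c * Z b a c)
        = j a * j b * X a b c ^ 2 - j a ^ 2 * X a b c ^ 2
          + 1 / (m + 1) * (j a * X a b c * (m1 μ N a * (if b = c then 1 else 0)
            - m1 μ N b * (if a = c then 1 else 0))) := by
      intro a b c
      have k1 := h.Nxx_sub a b c
      rw [h.Nxx_eq j a b c, h.Nxx_eq j b a c, ← h.X12 a b c] at k1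
      rw [← hX, ← hZ] at k1
      rw [← k1]
      field_simp
      ring
    rw [← s3_sub, s3_congr e1, s3_add, s3_sub, s3_smul]
    have e2 : (s3 fun a b c => j a * X a b c * (m1 μ N a * (if b = c then 1 else 0)
            - m1 μ N b * (if a = c then 1 else 0))) = -∑ b, m1 μ N b * xi μ j x b := by
      unfold s3
      have k1 : ∀ a b, ∑ c, j a * X a b c * (m1 μ N a * (if b = c then 1 else 0)
            - m1 μ N b * (if a = c then 1 else 0))
          = j a * m1 μ N a * X a b b - m1 μ N b * (j a * X a a b) := by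
        intro a b
        simp only [mul_sub, Finset.sum_sub_distrib, mul_ite, mul_one, mul_zero,
          Finset.sum_ite_eq, Finset.mem_univ, if_true]
        rw [x23 a b a]
        ring
      simp only [k1, Finset.sum_sub_distrib]
      have k2 : ∑ a, ∑ b, j a * m1 μ N a * X a b b = 0 := by
        refine Finset.sum_eq_zero fun a _ => ?_
        rw [← Finset.mul_sum, h.sum_X, mul_zero]
      rw [k2, zero_sub, Finset.sum_comm]
      congr 1
      refine Finset.sum_congr rfl fun b _ => ?_
      rw [xi, Finset.mul_sum]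
    rw [e2]
    ring

/-- the exact form of the mean of `(p - t)^2 s` -/
theorem third_eq (hm : m + 1 ≠ 0) (j : ι → ℝ) :
    (m + 2) * (s3 fun a b c => m3 μ x x x a b c ^ 2) + 2 * (s3 fun a b c => m3 μ N x x a b c ^ 2)
      = 2 * (s3 fun a b c => m3 μ (zd j x N) x x a b c ^ 2)
        - (s3 fun a b c => (j a - j b) ^ 2 * m3 μ x x x a b c ^ 2)
        - 2 * (s3 fun a b c => m3 μ x x x a b c * m3 μ x (zd j x N) (zd j x N) a b c)
        - 4 / (m + 1) * ∑ b, m1 μ N b * xi μ j x b := by
  obtain ⟨k1, k2, k3⟩ := h.rel3 hm j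
  have k4 : (s3 fun a b c => (j a - j b) ^ 2 * m3 μ x x x a b c ^ 2)
      = 2 * (s3 fun a b c => j a ^ 2 * m3 μ x x x a b c ^ 2)
        - 2 * (s3 fun a b c => j a * j b * m3 μ x x x a b c ^ 2) := by
    have e1 : ∀ a b c, (j a - j b) ^ 2 * m3 μ x x x a b c ^ 2
        = j a ^ 2 * m3 μ x x x a b c ^ 2 + j b ^ 2 * m3 μ x x x a b c ^ 2
          - 2 * (j a * j b * m3 μ x x x a b c ^ 2) := fun a b c => by ring
    rw [s3_congr e1, s3_sub, s3_add, s3_smul]
    have e2 : (s3 fun a b c => j b ^ 2 * m3 μ x x x a b c ^ 2)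
        = s3 fun a b c => j a ^ 2 * m3 μ x x x a b c ^ 2 := by
      rw [s3_12]
      refine s3_congr fun a b c => ?_
      rw [h.X12 b a c]
    rw [e2]
    ring
  rw [k2, k4]
  have k5 : (s3 fun a b c => j a * (m3 μ x x x a b c * m3 μ (zd j x N) x x a b c))
      = (s3 fun a b c => j a * (m3 μ x x x a b c * m3 μ (zd j x N) x x b a c))
        + ((s3 fun a b c => j a * j b * m3 μ x x x a b c ^ 2)
          - (s3 fun a b c => j a ^ 2 * m3 μ x x x a b c ^ 2)
          - (∑ b, m1 μ N b * xi μ j x b) / (m + 1)) := by linarith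
  rw [k5]
  linear_combination 2 * k1

end T0Data

end

end Vale.Agent.P224.R2.H728
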